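import Vale.Agent.P298.H845.Coord

/-!
# P298: a family of functions without critical point at the origin is trivial
-/

namespace Vale.Agent.P298.H845

open Filter Topology Metric Vale.Agent.P298

variable {n : ℕ}

/-- The family of a constant coordinate function is trivial. -/
theorem trivial_coord (i : Fin n) : TopRightTrivial 1 (fun (x : Fin n → ℂ) (_ : ℂ) => x i) := by
  have hopen : IsOpen {p : (Fin n → ℂ) × ℂ | p.2 ∈ ball (0 : ℂ) 1} :=
    isOpen_ball.preimage continuous_snd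
  refine ⟨1, one_pos, le_rfl, (OpenPartialHomeomorph.refl _).restrOpen _ hopen, ?_, ?_, ?_⟩
  · intro p hp
    rw [OpenPartialHomeomorph.restrOpen_source] at hp
    exact hp.2
  · intro t ht
    refine ⟨?_, rfl⟩
    rw [OpenPartialHomeomorph.restrOpen_source]
    exact ⟨Set.mem_univ _, ht⟩
  · intro p hp
    exact ⟨rfl, rfl⟩

/-- A family without critical point at the origin is trivial. -/
theorem cr1 {r : ℝ} (hr : 0 < r) {F : (Fin n → ℂ) → ℂ → ℂ} (hF : IsHolFamily r F)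
    (i : Fin n) (hi : pd i (fun x => F x 0) 0 ≠ 0) : TopRightTrivial r F := by
  have h0r : (0 : ℂ) ∈ ball (0 : ℂ) r := mem_ball_self hr
  set e : Fin n → ℂ := Pi.single i 1 with he
  set f : (Fin n → ℂ) × ℂ → ℂ := fun q => F q.1 q.2 with hf
  have hfa : AnalyticAt ℂ f (0, 0) := (hF 0 h0r).1
  set D := fderiv ℂ f (0, 0) with hD
  have hc : D (e, 0) ≠ 0 := by
    have := H752.PD_eq_pd (F := F) (p := (0, 0)) hfa i
    rw [← this] at hi
    exact hi
  set pi' : (Fin n → ℂ) × ℂ →L[ℂ] ℂ :=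
    (ContinuousLinearMap.proj (R := ℂ) (φ := fun _ : Fin n => ℂ) i).comp
      (ContinuousLinearMap.fst ℂ (Fin n → ℂ) ℂ) with hpi
  set f1 : (Fin n → ℂ) × ℂ →L[ℂ] (Fin n → ℂ) × ℂ :=
    (ContinuousLinearMap.fst ℂ (Fin n → ℂ) ℂ + (D - pi').smulRight e).prod
      (ContinuousLinearMap.snd ℂ (Fin n → ℂ) ℂ) with hf1
  set f2 : (Fin n → ℂ) × ℂ →L[ℂ] (Fin n → ℂ) × ℂ :=
    (ContinuousLinearMap.fst ℂ (Fin n → ℂ) ℂ + ((D (e, 0))⁻¹ • (pi' - D)).smulRight e).prod
      (ContinuousLinearMap.snd ℂ (Fin n → ℂ) ℂ) with hf2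
  have a1 : ∀ p, f1 p = (p.1 + (D p - p.1 i) • e, p.2) := fun p => rfl
  have a2 : ∀ p, f2 p = (p.1 + ((D (e, 0))⁻¹ * (p.1 i - D p)) • e, p.2) := fun p => rfl
  have hDs : ∀ (p : (Fin n → ℂ) × ℂ) (a : ℂ), D (p.1 + a • e, p.2) = D p + a * D (e, 0) := by
    intro p a
    have h1 : ((p.1 + a • e, p.2) : (Fin n → ℂ) × ℂ) = p + a • (e, 0) := by
      ext <;> simp
    rw [h1, map_add, map_smul, smul_eq_mul]
  have hei : e i = 1 := by simp [he]
  let L : ((Fin n → ℂ) × ℂ) ≃L[ℂ] ((Fin n → ℂ) × ℂ) :=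
    ContinuousLinearEquiv.equivOfInverse f1 f2
      (fun p => by
        rw [a1, a2]
        refine Prod.ext ?_ rfl
        change p.1 + (D p - p.1 i) • e + ((D (e, 0))⁻¹ * ((p.1 + (D p - p.1 i) • e) i -
          D (p.1 + (D p - p.1 i) • e, p.2))) • e = p.1
        rw [hDs, Pi.add_apply, Pi.smul_apply, hei, smul_eq_mul, mul_one]
        have h1 : (D (e, 0))⁻¹ * (p.1 i + (D p - p.1 i) - (D p + (D p - p.1 i) * D (e, 0))) =
            -(D p - p.1 i) := by
          field_simp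
          ring
        rw [h1, neg_smul, add_neg_cancel_right])
      (fun p => by
        rw [a2, a1]
        refine Prod.ext ?_ rfl
        change p.1 + ((D (e, 0))⁻¹ * (p.1 i - D p)) • e +
          (D (p.1 + ((D (e, 0))⁻¹ * (p.1 i - D p)) • e, p.2) -
            (p.1 + ((D (e, 0))⁻¹ * (p.1 i - D p)) • e) i) • e = p.1
        rw [hDs, Pi.add_apply, Pi.smul_apply, hei, smul_eq_mul, mul_one]
        have h1 : D p + (D (e, 0))⁻¹ * (p.1 i - D p) * D (e, 0) -
            (p.1 i + (D (e, 0))⁻¹ * (p.1 i - D p)) = -((D (e, 0))⁻¹ * (p.1 i - D p)) := by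
          field_simp
          ring
        rw [h1, neg_smul, add_neg_cancel_right])
  set Θ : (Fin n → ℂ) × ℂ → (Fin n → ℂ) × ℂ := fun p => (p.1 + (f p - p.1 i) • e, p.2) with hΘ
  have hΘd : HasStrictFDerivAt Θ (L : ((Fin n → ℂ) × ℂ) →L[ℂ] (Fin n → ℂ) × ℂ) (0, 0) := by
    have h1 : HasStrictFDerivAt f D (0, 0) := hfa.hasStrictFDerivAt
    have h2 : HasStrictFDerivAt (fun p : (Fin n → ℂ) × ℂ => p.1 i) pi' (0, 0) :=
      pi'.hasStrictFDerivAt
    have h3 : HasStrictFDerivAt (fun p : (Fin n → ℂ) × ℂ => p.1)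
      (ContinuousLinearMap.fst ℂ (Fin n → ℂ) ℂ) (0, 0) := hasStrictFDerivAt_fst
    exact (h3.add ((h1.sub h2).smul_const e)).prodMk hasStrictFDerivAt_snd
  obtain ⟨ε, hε, hεs⟩ : ∃ ε > 0, ∀ t ∈ ball (0 : ℂ) ε,
      ((0 : Fin n → ℂ), t) ∈ (hΘd.toOpenPartialHomeomorph Θ).source := by
    have h1 : ∀ᶠ t in 𝓝 (0 : ℂ), ((0 : Fin n → ℂ), t) ∈
        (hΘd.toOpenPartialHomeomorph Θ).source := by
      have h2 : Continuous fun t : ℂ => ((0 : Fin n → ℂ), t) := by fun_prop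
      exact (h2.tendsto 0) ((hΘd.toOpenPartialHomeomorph Θ).open_source.mem_nhds
        hΘd.mem_toOpenPartialHomeomorph_source)
    obtain ⟨ε, hε, h3⟩ := Metric.eventually_nhds_iff_ball.1 h1
    exact ⟨ε, hε, h3⟩
  have hopen : IsOpen {p : (Fin n → ℂ) × ℂ | p.2 ∈ ball (0 : ℂ) (min ε r)} :=
    isOpen_ball.preimage continuous_snd
  let E := (hΘd.toOpenPartialHomeomorph Θ).restrOpen _ hopen
  have hE : ∀ p, E p = Θ p := fun p => rfl
  have hEs : ∀ p, p ∈ E.source ↔ p ∈ (hΘd.toOpenPartialHomeomorph Θ).source ∧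
      p.2 ∈ ball (0 : ℂ) (min ε r) := by
    intro p
    rw [OpenPartialHomeomorph.restrOpen_source]
    rfl
  have hax : ∀ t ∈ ball (0 : ℂ) (min ε r), ((0 : Fin n → ℂ), t) ∈ E.source ∧
      E ((0 : Fin n → ℂ), t) = (0, t) := by
    intro t ht
    refine ⟨(hEs _).2 ⟨hεs t (ball_subset_ball (min_le_left _ _) ht), ht⟩, ?_⟩
    rw [hE, hΘ]
    have h1 : f ((0 : Fin n → ℂ), t) = 0 := (hF t (ball_subset_ball (min_le_right _ _) ht)).2
    simp [h1]
  refine H752.topRight_transfer (r' := 1) hr (G := fun x _ => x i) E.symm ?_ ?_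
    (trivial_coord i)
  · have h1 := E.map_source (hax 0 (mem_ball_self (lt_min hε hr))).1
    rw [(hax 0 (mem_ball_self (lt_min hε hr))).2] at h1
    exact h1
  · intro q hq
    have hp : E.symm q ∈ E.source := E.map_target hq
    have hpq : Θ (E.symm q) = q := E.right_inv hq
    have h2' : (Θ (E.symm q)).2 = q.2 := by rw [hpq]
    have h2 : (E.symm q).2 = q.2 := h2'
    refine ⟨h2, fun hq0 => ?_, ?_⟩
    · have h3 : q.2 ∈ ball (0 : ℂ) (min ε r) := by
        rw [← h2]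
        exact ((hEs _).1 hp).2
      obtain ⟨h4, h5⟩ := hax q.2 h3
      have h6 : ((0 : Fin n → ℂ), q.2) = q := Prod.ext hq0.symm rfl
      rw [h6] at h4 h5
      have h7 := E.left_inv h4
      rwa [h5] at h7
    · have h3 : (Θ (E.symm q)).1 i = q.1 i := by rw [hpq]
      change ((E.symm q).1 + (f (E.symm q) - (E.symm q).1 i) • e) i = q.1 i at h3
      rw [Pi.add_apply, Pi.smul_apply, hei, smul_eq_mul, mul_one, add_sub_cancel] at h3
      exact h3

end Vale.Agent.P298.H845
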