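import Vale.Agent.P298.H845.Coord
import Vale.Agent.P298.H652.Node1

/-!
# P298: the case of corank at most two

`F` is a family with constant Milnor number on `ℂ³` such that the Hessian of `f₀` at `0` is not
zero. After a linear change `∂²f₀/∂z² ≠ 0`, and after a shift `z ↦ z + ζ(x, y, t)` the derivative
`∂f_t/∂z` is `z` times a unit, so that the restriction to `z = 0` has the same Milnor number.
-/

namespace Vale.Agent.P298.H845

open Filter Topology Metric Vale.Agent.P298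

/-- If the Milnor numbers of `f_t` and of `f_t | z = 0` are constant then `f_t` is topologically
trivial. -/
def N2Asm : Prop :=
  ∀ (r : ℝ) (F : (Fin 3 → ℂ) → ℂ → ℂ) (μ ν : ℕ), 0 < r → IsHolFamily r F →
    (∀ t ∈ ball (0 : ℂ) r, Milnor (fun x => F x t) μ) →
    (∀ t ∈ ball (0 : ℂ) r, Milnor (fun x : Fin 2 → ℂ => F ![x 0, x 1, 0] t) ν) →
    TopRightTrivial r F

/-- If `∂f/∂z` is `z` times a unit then `f` and `f | z = 0` have the same Milnor number. -/
theorem milnor_restrict {f : (Fin 3 → ℂ) → ℂ} (hf : Hol f) {μ : ℕ} (h : Milnor f μ)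
    (h0 : ∀ᶠ x in 𝓝 (0 : Fin 3 → ℂ), x 2 = 0 → pd 2 f x = 0)
    (h1 : fderiv ℂ (pd 2 f) 0 (Pi.single 2 1) ≠ 0) :
    Milnor (fun x : Fin 2 → ℂ => f ![x 0, x 1, 0]) μ := by
  have hpd : ∀ i, Hol (pd i f) := fun i => H752.an_clm_apply hf.fderiv analyticAt_const
  have hsn : ∀ x : Fin 2 → ℂ, (Fin.snoc (α := fun _ => ℂ) x 0 : Fin 3 → ℂ) = ![x 0, x 1, 0] := by
    intro x
    funext i
    fin_cases i <;> rfl
  obtain ⟨H, hH, hH1⟩ := H766.exists_div_last (m := 2) (hpd 2) (by
    filter_upwards [H766.tendsto_incl.eventually h0] with x hx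
    exact hx (by rw [hsn]; rfl))
  have hH1' : ∀ᶠ x in 𝓝 (0 : Fin 3 → ℂ), pd 2 f x = H x * x 2 := hH1
  -- `H 0 ≠ 0`
  have hH0 : H 0 ≠ 0 := by
    have h2 : HasFDerivAt (fun x : Fin 3 → ℂ => H x * x 2) (fderiv ℂ (pd 2 f) 0) 0 :=
      (hpd 2).differentiableAt.hasFDerivAt.congr_of_eventuallyEq
        (hH1'.mono fun x hx => hx.symm)
    have h3 : HasFDerivAt (fun x : Fin 3 → ℂ => H x * x 2)
        (H 0 • (ContinuousLinearMap.proj (R := ℂ) (φ := fun _ : Fin 3 => ℂ) 2) +
          ((0 : Fin 3 → ℂ) 2) • fderiv ℂ H 0) 0 :=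
      hH.differentiableAt.hasFDerivAt.mul
        (ContinuousLinearMap.proj (R := ℂ) (φ := fun _ : Fin 3 => ℂ) 2).hasFDerivAt
    rw [h2.unique h3] at h1
    intro h4
    exact h1 (by simp [h4])
  -- the ideal
  have h3 : Colength (Fin.snoc (α := fun _ => (Fin 3 → ℂ) → ℂ) ![pd 0 f, pd 1 f]
      fun x => x (Fin.last 2)) μ := by
    refine (H766.colength_congr (fun j => ?_) (fun j => ?_) μ).1 h
    · rw [H766.inIdeal_snoc]
      fin_cases j
      · exact ⟨![fun _ => 1, fun _ => 0], fun _ => 0, fun j => by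
          fin_cases j <;> exact analyticAt_const, analyticAt_const,
          Eventually.of_forall fun x => by simp [Fin.sum_univ_two]⟩
      · exact ⟨![fun _ => 0, fun _ => 1], fun _ => 0, fun j => by
          fin_cases j <;> exact analyticAt_const, analyticAt_const,
          Eventually.of_forall fun x => by simp [Fin.sum_univ_two]⟩
      · refine ⟨fun _ _ => 0, H, fun j => analyticAt_const, hH, ?_⟩
        filter_upwards [hH1'] with x hx
        simp only [zero_mul, Finset.sum_const_zero, zero_add]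
        exact hx
    · refine Fin.lastCases ?_ (fun i => ?_) j
      · rw [Fin.snoc_last]
        refine ⟨fun j x => if j = 2 then (H x)⁻¹ else 0, fun j => ?_, ?_⟩
        · by_cases hj : j = 2
          · simp only [hj, if_true]
            exact hH.inv hH0
          · simp only [hj, if_false]
            exact analyticAt_const
        · filter_upwards [hH1', hH.continuousAt.eventually_ne hH0] with x hx hx0
          have h4 : (Fin.last 2 : Fin 3) = 2 := rfl
          simp only [ite_mul, zero_mul, Finset.sum_ite_eq', Finset.mem_univ, if_true, hx, h4]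
          rw [← mul_assoc, inv_mul_cancel₀ hx0, one_mul]
      · rw [Fin.snoc_castSucc]
        fin_cases i
        · exact H766.inIdeal_self (fun i => pd i f) 0
        · exact H766.inIdeal_self (fun i => pd i f) 1
  have h4 := (H766.colength_restrict (m := 2) (s := ![pd 0 f, pd 1 f]) (fun j => by
    fin_cases j
    · exact hpd 0
    · exact hpd 1) μ).1 h3
  -- the partials of the restriction
  have hinc : AnalyticAt ℂ (H766.inclL 2) 0 := (H766.inclL 2).analyticAt 0
  have hpdr : ∀ᶠ x in 𝓝 (0 : Fin 2 → ℂ), ∀ j : Fin 2,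
      pd j (fun x : Fin 2 → ℂ => f ![x 0, x 1, 0]) x =
        (![pd 0 f, pd 1 f] : Fin 2 → (Fin 3 → ℂ) → ℂ) j (Fin.snoc (α := fun _ => ℂ) x 0) := by
    filter_upwards [H766.tendsto_incl.eventually hf.eventually_analyticAt] with x hx j
    have e1 : (fun x : Fin 2 → ℂ => f ![x 0, x 1, 0]) = fun x => f (H766.inclL 2 x) := by
      funext x
      rw [H766.inclL_apply, hsn]
    have e2 : HasFDerivAt (fun x => f (H766.inclL 2 x))
        ((fderiv ℂ f (H766.inclL 2 x)).comp (H766.inclL 2)) x := by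
      have e3 : HasFDerivAt f (fderiv ℂ f (H766.inclL 2 x)) (H766.inclL 2 x) := by
        rw [H766.inclL_apply]
        exact hx.differentiableAt.hasFDerivAt
      exact e3.comp x (H766.inclL 2).hasFDerivAt
    unfold pd
    rw [e1, e2.fderiv, ContinuousLinearMap.comp_apply, H766.inclL_apply, H766.inclL_apply]
    fin_cases j
    · change fderiv ℂ f _ _ = fderiv ℂ f _ (Pi.single 0 1)
      congr 1
      funext i
      fin_cases i <;> rfl
    · change fderiv ℂ f _ _ = fderiv ℂ f _ (Pi.single 1 1)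
      congr 1
      funext i
      fin_cases i <;> rfl
  refine (H766.colength_congr (fun j => ?_) (fun j => ?_) μ).1 h4
  · refine H766.inIdeal_of_eventuallyEq (H766.inIdeal_self _ j) ?_
    filter_upwards [hpdr] with x hx
    exact (hx j).symm
  · refine H766.inIdeal_of_eventuallyEq (H766.inIdeal_self _ j) ?_
    filter_upwards [hpdr] with x hx
    exact hx j

/-- the projection `(x, y, z) ↦ (x, y, 0)` -/
noncomputable def prL : (Fin 3 → ℂ) →L[ℂ] (Fin 3 → ℂ) :=
  ContinuousLinearMap.id ℂ _ -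
    (ContinuousLinearMap.proj (R := ℂ) (φ := fun _ : Fin 3 => ℂ) 2).smulRight (Pi.single 2 1)

theorem prL_apply (x : Fin 3 → ℂ) : prL x = x - x 2 • Pi.single 2 1 := rfl

theorem prL_single : prL (Pi.single 2 1) = 0 := by
  rw [prL_apply]
  simp

theorem prL_shift (x : Fin 3 → ℂ) (a : ℂ) : prL (x + a • Pi.single 2 1) = prL x := by
  rw [map_add, map_smul, prL_single, smul_zero, add_zero]

theorem prL_of_zero {x : Fin 3 → ℂ} (h : x 2 = 0) : prL x = x := by
  rw [prL_apply, h, zero_smul, sub_zero]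

/-- The main step: `∂²f₀/∂z² ≠ 0`. -/
theorem step2 (hN : N2Asm) {r : ℝ} (hr : 0 < r) {F : (Fin 3 → ℂ) → ℂ → ℂ}
    (hF : IsHolFamily r F) {μ : ℕ} (hμ : ∀ t ∈ ball (0 : ℂ) r, Milnor (fun x => F x t) μ)
    (hμ0 : μ ≠ 0) (h22 : pd 2 (pd 2 (fun x => F x 0)) 0 ≠ 0) : TopRightTrivial r F := by
  have h0r : (0 : ℂ) ∈ ball (0 : ℂ) r := mem_ball_self hr
  set f : (Fin 3 → ℂ) × ℂ → ℂ := fun q => F q.1 q.2 with hf
  set K : (Fin 3 → ℂ) × ℂ → ℂ := H752.PD f 2 with hK
  set e : Fin 3 → ℂ := Pi.single 2 1 with he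
  have hfa : ∀ t ∈ ball (0 : ℂ) r, AnalyticAt ℂ f (0, t) := fun t ht => (hF t ht).1
  have hKa' : ∀ p, AnalyticAt ℂ f p → AnalyticAt ℂ K p := fun p hp =>
    H752.an_clm_apply hp.fderiv analyticAt_const
  have hKa : ∀ t ∈ ball (0 : ℂ) r, AnalyticAt ℂ K (0, t) := fun t ht => hKa' _ (hfa t ht)
  have hsl : ∀ t ∈ ball (0 : ℂ) r, Hol (fun x => F x t) := fun t ht =>
    AnalyticAt.comp₂ (h := f) (f := fun x => x) (g := fun _ => t) (hfa t ht) analyticAt_id
      analyticAt_const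
  -- `K` is the derivative of the slices
  have hKpd : ∀ p, AnalyticAt ℂ f p → K p = pd 2 (fun x => F x p.2) p.1 := fun p hp =>
    H752.PD_eq_pd (F := F) hp 2
  have hK0 : ∀ t ∈ ball (0 : ℂ) r, K (0, t) = 0 := by
    intro t ht
    rw [hKpd _ (hfa t ht)]
    exact pd_zero_of_milnor (hsl t ht) (hμ t ht) hμ0 2
  -- the second derivative
  have hc : fderiv ℂ K (0, 0) (e, 0) ≠ 0 := by
    have h1 : pd 2 (fun x => K (x, (0 : ℂ))) 0 = fderiv ℂ K (0, 0) (e, 0) := by
      have := H752.PD_eq_pd (F := fun x t => K (x, t)) (p := (0, 0)) (hKa 0 h0r) 2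
      exact this.symm
    rw [← h1]
    have h2 : (fun x => K (x, (0 : ℂ))) =ᶠ[𝓝 0] pd 2 (fun x => F x 0) := by
      have hcs : Continuous fun x : Fin 3 → ℂ => (x, (0 : ℂ)) := by fun_prop
      filter_upwards [(hcs.tendsto 0).eventually (hfa 0 h0r).eventually_analyticAt] with x hx
      exact hKpd _ hx
    unfold pd
    rw [h2.fderiv_eq]
    exact h22
  -- the implicit function
  set M : ℂ × ((Fin 3 → ℂ) × ℂ) →L[ℂ] (Fin 3 → ℂ) × ℂ :=
    ((prL.comp ((ContinuousLinearMap.fst ℂ (Fin 3 → ℂ) ℂ).comp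
      (ContinuousLinearMap.snd ℂ ℂ ((Fin 3 → ℂ) × ℂ)))) +
      (ContinuousLinearMap.fst ℂ ℂ ((Fin 3 → ℂ) × ℂ)).smulRight e).prod
      ((ContinuousLinearMap.snd ℂ (Fin 3 → ℂ) ℂ).comp
        (ContinuousLinearMap.snd ℂ ℂ ((Fin 3 → ℂ) × ℂ))) with hM
  have hMa : ∀ w, M w = (prL w.2.1 + w.1 • e, w.2.2) := fun w => rfl
  have hM0 : M (0, (0, 0)) = (0, 0) := by rw [hMa]; simp
  have hKM : AnalyticAt ℂ (fun w => K (M w)) ((0 : ℂ), ((0 : Fin 3 → ℂ), (0 : ℂ))) := by
    have h1 : AnalyticAt ℂ K (M ((0 : ℂ), ((0 : Fin 3 → ℂ), (0 : ℂ)))) := by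
      rw [hM0]
      exact hKa 0 h0r
    exact AnalyticAt.comp h1 (M.analyticAt _)
  obtain ⟨X, hXa, hX0, hX1, hX2⟩ := H652.exists_implicit_pt (W := ℂ) (P := (Fin 3 → ℂ) × ℂ)
    (Ψ := fun w => K (M w)) (w₀ := 0) (p₀ := (0, 0)) hKM (by
      change K (M (0, (0, 0))) = 0
      rw [hM0]
      exact hK0 0 h0r) (by
      refine ⟨(LinearEquiv.smulOfNeZero ℂ ℂ _ hc).toContinuousLinearEquiv, fun v => ?_⟩
      have h1 : HasFDerivAt (fun w => K (M w)) ((fderiv ℂ K (0, 0)).comp M)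
          ((0 : ℂ), ((0 : Fin 3 → ℂ), (0 : ℂ))) := by
        have h2 : HasFDerivAt K (fderiv ℂ K (0, 0)) (M ((0 : ℂ), ((0 : Fin 3 → ℂ), (0 : ℂ)))) := by
          rw [hM0]
          exact (hKa 0 h0r).differentiableAt.hasFDerivAt
        exact h2.comp _ M.hasFDerivAt
      rw [h1.fderiv, ContinuousLinearMap.comp_apply, hMa]
      have h3 : ((prL ((v, (0 : (Fin 3 → ℂ) × ℂ)).2.1) + v • e,
          ((v, (0 : (Fin 3 → ℂ) × ℂ)).2.2)) : (Fin 3 → ℂ) × ℂ) = v • (e, 0) := by
        simp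
      change fderiv ℂ K (0, 0) ((prL ((v, (0 : (Fin 3 → ℂ) × ℂ)).2.1) + v • e,
          ((v, (0 : (Fin 3 → ℂ) × ℂ)).2.2)) : (Fin 3 → ℂ) × ℂ) = _
      rw [h3, map_smul]
      exact mul_comm v (fderiv ℂ K (0, 0) (e, 0)))
  -- the disc
  have hax : ∀ {P : (Fin 3 → ℂ) × ℂ → Prop}, (∀ᶠ p in 𝓝 ((0 : Fin 3 → ℂ), (0 : ℂ)), P p) →
      ∀ᶠ t in 𝓝 (0 : ℂ), P (0, t) := by
    intro P hP
    have h2 : Continuous fun t : ℂ => ((0 : Fin 3 → ℂ), t) := by fun_prop
    exact (h2.tendsto 0).eventually hP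
  have hXax : ∀ᶠ t in 𝓝 (0 : ℂ), X (0, t) = 0 := by
    have h2 : Continuous fun t : ℂ => ((0 : ℂ), ((0 : Fin 3 → ℂ), t)) := by fun_prop
    filter_upwards [(h2.tendsto 0).eventually hX2, ball_mem_nhds (0 : ℂ) hr] with t ht ht'
    refine (ht ?_).symm
    change K (M (0, (0, t))) = 0
    rw [hMa]
    simpa using hK0 t ht'
  have hcax : ∀ᶠ t in 𝓝 (0 : ℂ), fderiv ℂ K (0, t) (e, 0) ≠ 0 := by
    have h1 : AnalyticAt ℂ (fun p => fderiv ℂ K p (e, 0)) (0, 0) :=
      H752.an_clm_apply (hKa 0 h0r).fderiv analyticAt_const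
    exact hax (h1.continuousAt.eventually_ne hc)
  obtain ⟨ε, hε, hεs⟩ := Metric.eventually_nhds_iff_ball.1
    (((hax hXa.eventually_analyticAt).and (H752.slice_eventually hX1)).and (hXax.and hcax))
  -- the change of coordinates
  set D : Set ((Fin 3 → ℂ) × ℂ) :=
    {p | AnalyticAt ℂ X (prL p.1, p.2) ∧ p.2 ∈ ball (0 : ℂ) ε} with hD
  have hpc : Continuous fun p : (Fin 3 → ℂ) × ℂ => (prL p.1, p.2) := by fun_prop
  have hDo : IsOpen D :=
    ((isOpen_analyticAt ℂ X).preimage hpc).inter (isOpen_ball.preimage continuous_snd)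
  set ζ : (Fin 3 → ℂ) × ℂ → ℂ := fun p => X (prL p.1, p.2) with hζ
  have hζa : ∀ p ∈ D, AnalyticAt ℂ ζ p := by
    intro p hp
    have h1 : AnalyticAt ℂ (fun p : (Fin 3 → ℂ) × ℂ => (prL p.1, p.2)) p :=
      ((prL.comp (ContinuousLinearMap.fst ℂ (Fin 3 → ℂ) ℂ)).prod
        (ContinuousLinearMap.snd ℂ (Fin 3 → ℂ) ℂ)).analyticAt p
    exact AnalyticAt.comp (g := X) (f := fun p : (Fin 3 → ℂ) × ℂ => (prL p.1, p.2)) (x := p)
      hp.1 h1
  have hζs : ∀ (p : (Fin 3 → ℂ) × ℂ) (a : ℂ), ζ (p.1 + a • e, p.2) = ζ p := by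
    intro p a
    simp only [hζ, he, prL_shift]
  let Ψ : OpenPartialHomeomorph ((Fin 3 → ℂ) × ℂ) ((Fin 3 → ℂ) × ℂ) :=
    { toFun := fun p => (p.1 + ζ p • e, p.2)
      invFun := fun p => (p.1 + (-ζ p) • e, p.2)
      source := D
      target := D
      map_source' := fun p hp => by
        refine ⟨?_, hp.2⟩
        change AnalyticAt ℂ X (prL (p.1 + ζ p • e), p.2)
        rw [he, prL_shift]
        exact hp.1
      map_target' := fun p hp => by
        refine ⟨?_, hp.2⟩
        change AnalyticAt ℂ X (prL (p.1 + (-ζ p) • e), p.2)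
        rw [he, prL_shift]
        exact hp.1
      left_inv' := fun p hp => by
        change ((p.1 + ζ p • e) + (-ζ (p.1 + ζ p • e, p.2)) • e, p.2) = p
        rw [hζs]
        refine Prod.ext ?_ rfl
        simp
      right_inv' := fun p hp => by
        change ((p.1 + (-ζ p) • e) + (ζ (p.1 + (-ζ p) • e, p.2)) • e, p.2) = p
        rw [hζs]
        refine Prod.ext ?_ rfl
        simp
      open_source := hDo
      open_target := hDo
      continuousOn_toFun := fun p hp => by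
        have h1 := (hζa p hp).continuousAt
        exact ((continuousAt_fst.add (h1.smul continuousAt_const)).prodMk
          continuousAt_snd).continuousWithinAt
      continuousOn_invFun := fun p hp => by
        have h1 := (hζa p hp).continuousAt
        exact ((continuousAt_fst.add (h1.neg.smul continuousAt_const)).prodMk
          continuousAt_snd).continuousWithinAt }
  have hΨ : ∀ p, Ψ p = (p.1 + ζ p • e, p.2) := fun p => rfl
  have hΨs : ∀ p, Ψ.symm p = (p.1 + (-ζ p) • e, p.2) := fun p => rfl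
  have h0D : ((0 : Fin 3 → ℂ), (0 : ℂ)) ∈ Ψ.source := by
    refine ⟨?_, mem_ball_self hε⟩
    change AnalyticAt ℂ X (prL 0, 0)
    rw [map_zero]
    exact hXa
  obtain ⟨r', hr', hrr, hG, hGμ, hGs, hGT⟩ := coord_change hr hF hμ Ψ h0D (fun q hq => by
    refine ⟨rfl, fun hq0 => ?_, ?_, ?_⟩
    · have h1 : ζ q = 0 := by
        change X (prL q.1, q.2) = 0
        rw [hq0, map_zero]
        exact (hεs q.2 hq.2).2.1
      rw [hΨ, h1, zero_smul, add_zero]
    · have h1 : AnalyticAt ℂ (fun p : (Fin 3 → ℂ) × ℂ => (p.1 + ζ p • e, p.2)) q :=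
        (analyticAt_fst.add ((hζa q hq).smul analyticAt_const)).prod analyticAt_snd
      exact h1
    · have h2 : Ψ q ∈ D := Ψ.map_source hq
      have h1 : AnalyticAt ℂ (fun p : (Fin 3 → ℂ) × ℂ => (p.1 + (-ζ p) • e, p.2)) (Ψ q) :=
        (analyticAt_fst.add ((hζa _ h2).neg.smul analyticAt_const)).prod analyticAt_snd
      exact h1)
  set G : (Fin 3 → ℂ) → ℂ → ℂ := fun x t => F (Ψ (x, t)).1 t with hGdef
  refine hGT r' (hN r' G μ μ hr' hG hGμ fun t ht => ?_)
  have htD : ((0 : Fin 3 → ℂ), t) ∈ D := hGs t ht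
  have htr : t ∈ ball (0 : ℂ) r := ball_subset_ball hrr ht
  obtain ⟨⟨ht1, ht2⟩, ht3, ht4⟩ := hεs t htD.2
  have hGh : Hol (fun x => G x t) :=
    AnalyticAt.comp₂ (h := fun q : (Fin 3 → ℂ) × ℂ => G q.1 q.2) (f := fun x => x)
      (g := fun _ => t) (hG t ht).1 analyticAt_id analyticAt_const
  have hcs : Continuous fun x : Fin 3 → ℂ => (x, t) := by fun_prop
  -- the derivative of the new family
  have hGpd : ∀ᶠ x in 𝓝 (0 : Fin 3 → ℂ), pd 2 (fun x => G x t) x = K (x + ζ (x, t) • e, t) := by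
    have h1 : ∀ᶠ x in 𝓝 (0 : Fin 3 → ℂ), (x, t) ∈ D :=
      (hcs.tendsto 0).eventually (hDo.mem_nhds htD)
    have h2 : ∀ᶠ x in 𝓝 (0 : Fin 3 → ℂ), AnalyticAt ℂ f (x + ζ (x, t) • e, t) := by
      have h3 : ContinuousAt (fun x : Fin 3 → ℂ => (x + ζ (x, t) • e, t)) 0 := by
        have h4 : ContinuousAt (fun x : Fin 3 → ℂ => ζ (x, t)) 0 :=
          ContinuousAt.comp (g := ζ) (hζa _ htD).continuousAt hcs.continuousAt
        exact (continuousAt_id.add (h4.smul continuousAt_const)).prodMk continuousAt_const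
      have h5 : ((0 : Fin 3 → ℂ) + ζ (0, t) • e, t) = (0, t) := by
        have h6 : ζ ((0 : Fin 3 → ℂ), t) = 0 := by
          change X (prL 0, t) = 0
          rw [map_zero]
          exact ht3
        rw [h6, zero_smul, add_zero]
      have h7 := h3.tendsto
      rw [h5] at h7
      exact h7.eventually (hfa t htr).eventually_analyticAt
    filter_upwards [h1, h2] with x hx1 hx2
    rw [hKpd _ hx2]
    -- chain rule
    have h3 : HasFDerivAt (fun x => ζ (x, t)) (fderiv ℂ (fun x => ζ (x, t)) x) x := by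
      have h4 : DifferentiableAt ℂ (fun x => ζ (x, t)) x :=
        (AnalyticAt.comp₂ (h := ζ) (f := fun x => x) (g := fun _ => t) (hζa _ hx1)
          analyticAt_id analyticAt_const).differentiableAt
      exact h4.hasFDerivAt
    have h5 : fderiv ℂ (fun x => ζ (x, t)) x e = 0 := by
      have h6 : HasDerivAt (fun s : ℂ => x + s • e) e 0 := by
        have h7 : HasDerivAt (fun s : ℂ => s • e) ((1 : ℂ) • e) 0 :=
          (hasDerivAt_id (0 : ℂ)).smul_const e
        rw [one_smul] at h7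
        exact h7.const_add x
      have h8 : HasDerivAt (fun s : ℂ => ζ (x + s • e, t))
          (fderiv ℂ (fun x => ζ (x, t)) x e) 0 := by
        have h9 : HasFDerivAt (fun x => ζ (x, t)) (fderiv ℂ (fun x => ζ (x, t)) x)
            (x + (0 : ℂ) • e) := by
          rw [zero_smul, add_zero]
          exact h3
        exact h9.comp_hasDerivAt (0 : ℂ) h6
      have h10 : (fun s : ℂ => ζ (x + s • e, t)) = fun _ => ζ (x, t) := by
        funext s
        exact hζs (x, t) s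
      rw [h10] at h8
      exact h8.unique (hasDerivAt_const _ _)
    have h11 : HasFDerivAt (fun x => x + ζ (x, t) • e)
        (ContinuousLinearMap.id ℂ _ + (fderiv ℂ (fun x => ζ (x, t)) x).smulRight e) x :=
      (hasFDerivAt_id x).add (h3.smul_const e)
    have h12 : HasFDerivAt (fun y => F y t) (fderiv ℂ (fun y => F y t) (x + ζ (x, t) • e))
        (x + ζ (x, t) • e) :=
      (AnalyticAt.comp₂ (h := f) (f := fun x => x) (g := fun _ => t) hx2
          analyticAt_id analyticAt_const).differentiableAt.hasFDerivAt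
    have h13 : HasFDerivAt (fun x => G x t) ((fderiv ℂ (fun y => F y t) (x + ζ (x, t) • e)).comp
        (ContinuousLinearMap.id ℂ _ + (fderiv ℂ (fun x => ζ (x, t)) x).smulRight e)) x :=
      HasFDerivAt.comp (g := fun y => F y t) (f := fun x => x + ζ (x, t) • e) x h12 h11
    unfold pd
    rw [h13.fderiv, ContinuousLinearMap.comp_apply]
    congr 1
    change e + (fderiv ℂ (fun x => ζ (x, t)) x e) • e = e
    rw [h5, zero_smul, add_zero]
  refine milnor_restrict hGh (hGμ t ht) ?_ ?_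
  · filter_upwards [hGpd, ht2] with x hx1 hx2 hx3
    rw [hx1]
    have h1 : K (M (X (x, t), (x, t))) = 0 := hx2
    rw [hMa] at h1
    change K (x + X (prL x, t) • e, t) = 0
    rw [prL_of_zero hx3]
    simpa only [prL_of_zero hx3] using h1
  · have h1 : HasDerivAt (fun s : ℂ => s • e) e 0 := by
      have h7 : HasDerivAt (fun s : ℂ => s • e) ((1 : ℂ) • e) 0 :=
        (hasDerivAt_id (0 : ℂ)).smul_const e
      rwa [one_smul] at h7
    have h2 : HasDerivAt (fun s : ℂ => pd 2 (fun x => G x t) (s • e))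
        (fderiv ℂ (pd 2 (fun x => G x t)) 0 e) 0 := by
      have h3 : HasFDerivAt (pd 2 (fun x => G x t)) (fderiv ℂ (pd 2 (fun x => G x t)) 0)
          ((0 : ℂ) • e) := by
        rw [zero_smul]
        have h4 : Hol (pd 2 (fun x => G x t)) := H752.an_clm_apply hGh.fderiv analyticAt_const
        exact h4.differentiableAt.hasFDerivAt
      exact h3.comp_hasDerivAt (0 : ℂ) h1
    have h5 : HasDerivAt (fun s : ℂ => K (s • e, t)) (fderiv ℂ K (0, t) (e, 0)) 0 := by
      have h3 : HasFDerivAt K (fderiv ℂ K (0, t)) ((0 : ℂ) • e, t) := by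
        rw [zero_smul]
        exact (hKa t htr).differentiableAt.hasFDerivAt
      have h1' : HasDerivAt (fun s : ℂ => (s • e, t)) (e, (0 : ℂ)) 0 :=
        h1.prodMk (hasDerivAt_const _ _)
      exact HasFDerivAt.comp_hasDerivAt (f := fun s : ℂ => (s • e, t)) (0 : ℂ) h3 h1'
    have h6 : (fun s : ℂ => pd 2 (fun x => G x t) (s • e)) =ᶠ[𝓝 0] fun s => K (s • e, t) := by
      have h7 : Tendsto (fun s : ℂ => s • e) (𝓝 0) (𝓝 0) := by
        have h8 : Continuous fun s : ℂ => s • e := by fun_prop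
        have h9 := h8.tendsto 0
        rwa [zero_smul] at h9
      filter_upwards [h7.eventually hGpd] with s hs
      rw [hs]
      have h10 : ζ (s • e, t) = 0 := by
        change X (prL (s • e), t) = 0
        rw [map_smul, he, prL_single, smul_zero]
        exact ht3
      rw [h10, zero_smul, add_zero]
    rw [h2.unique (h5.congr_of_eventuallyEq h6)]
    exact ht4

theorem pd_pd_eq {f : (Fin 3 → ℂ) → ℂ} (hf : Hol f) (i j : Fin 3) :
    pd i (pd j f) 0 = fderiv ℂ (fderiv ℂ f) 0 (Pi.single i 1) (Pi.single j 1) := by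
  have e1 : HasFDerivAt (fderiv ℂ f) (fderiv ℂ (fderiv ℂ f) 0) (0 : Fin 3 → ℂ) :=
    hf.fderiv.differentiableAt.hasFDerivAt
  have e2 := e1.clm_apply (hasFDerivAt_const (Pi.single j (1 : ℂ) : Fin 3 → ℂ) (0 : Fin 3 → ℂ))
  have e3 : fderiv ℂ (pd j f) 0 = _ := e2.fderiv
  rw [pd, e3]
  simp

/-- A nonzero Hessian is nonzero on some vector. -/
theorem exists_dir {f : (Fin 3 → ℂ) → ℂ} (hf : Hol f) (h : ∃ i j, pd i (pd j f) 0 ≠ 0) :
    ∃ v : Fin 3 → ℂ, fderiv ℂ (fderiv ℂ f) 0 v v ≠ 0 := by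
  obtain ⟨i, j, hij⟩ := h
  rw [pd_pd_eq hf] at hij
  have hs : IsSymmSndFDerivAt ℂ f 0 := hf.contDiffAt.isSymmSndFDerivAt (n := ⊤) le_top
  by_contra hcon
  push Not at hcon
  have h1 := hcon (Pi.single i 1 + Pi.single j 1)
  have h2 := hcon (Pi.single i 1)
  have h3 := hcon (Pi.single j 1)
  have h4 := hs (Pi.single i 1) (Pi.single j 1)
  simp only [map_add, _root_.add_apply, h2, h3, zero_add, add_zero] at h1
  rw [← h4, ← two_mul] at h1
  exact hij ((mul_eq_zero.1 h1).resolve_left two_ne_zero)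

/-- A linear change of coordinates as a change of coordinates with parameters. -/
noncomputable def linCh (A : (Fin 3 → ℂ) ≃L[ℂ] (Fin 3 → ℂ)) :
    OpenPartialHomeomorph ((Fin 3 → ℂ) × ℂ) ((Fin 3 → ℂ) × ℂ) :=
  (A.prodCongr (ContinuousLinearEquiv.refl ℂ ℂ)).toHomeomorph.toOpenPartialHomeomorph

theorem linCh_apply (A : (Fin 3 → ℂ) ≃L[ℂ] (Fin 3 → ℂ)) (p : (Fin 3 → ℂ) × ℂ) :
    linCh A p = (A p.1, p.2) := rfl

/-- **Corank at most two.** A family of functions on `ℂ³` with constant Milnor number such that the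
Hessian of `f₀` at the origin is not zero is topologically trivial. -/
theorem cr2 (hN : N2Asm) {r : ℝ} (hr : 0 < r) {F : (Fin 3 → ℂ) → ℂ → ℂ}
    (hF : IsHolFamily r F) {μ : ℕ} (hμ : ∀ t ∈ ball (0 : ℂ) r, Milnor (fun x => F x t) μ)
    (hcrit : ∀ i, pd i (fun x => F x 0) 0 = 0)
    (h2 : ∃ i j, pd i (pd j (fun x => F x 0)) 0 ≠ 0) : TopRightTrivial r F := by
  have h0r : (0 : ℂ) ∈ ball (0 : ℂ) r := mem_ball_self hr
  have hμ0 : μ ≠ 0 := milnor_ne_zero (hμ 0 h0r) hcrit
  have hf0 : Hol (fun x => F x 0) :=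
    AnalyticAt.comp₂ (h := fun p : (Fin 3 → ℂ) × ℂ => F p.1 p.2) (f := fun x => x)
      (g := fun _ => 0) (hF 0 h0r).1 analyticAt_id analyticAt_const
  obtain ⟨v, hv⟩ := exists_dir hf0 h2
  have hv0 : v ≠ 0 := by
    rintro rfl
    exact hv (by simp)
  have he0 : (Pi.single 2 1 : Fin 3 → ℂ) ≠ 0 := by
    intro h
    have := congrFun h 2
    simp at this
  obtain ⟨A, hA⟩ := SeparatingDual.exists_continuousLinearEquiv_apply_eq (R := ℂ) he0 hv0
  obtain ⟨r', hr', -, hG, hGμ, -, hGT⟩ := coord_change hr hF hμ (linCh A) (Set.mem_univ _)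
    (fun q _ => ⟨rfl, fun hq => by rw [linCh_apply, hq, map_zero, ← hq],
      (A.prodCongr (ContinuousLinearEquiv.refl ℂ ℂ)).analyticAt q,
      (A.prodCongr (ContinuousLinearEquiv.refl ℂ ℂ)).symm.analyticAt _⟩)
  refine hGT r' (step2 hN hr' hG hGμ hμ0 ?_)
  have hg0 : Hol (fun x => F (A x) 0) := hol_comp hf0 (A.analyticAt 0) (map_zero A)
  change pd 2 (pd 2 (fun x => F (A x) 0)) 0 ≠ 0
  have h3 : pd 2 (fun x => F (A x) 0) =ᶠ[𝓝 0] fun x => fderiv ℂ (fun x => F x 0) (A x) v := by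
    have h4 : Tendsto A (𝓝 0) (𝓝 0) := by
      have := A.continuous.tendsto 0
      rwa [map_zero] at this
    filter_upwards [h4.eventually hf0.eventually_analyticAt] with x hx
    have h5 : HasFDerivAt (fun x => F (A x) 0)
        ((fderiv ℂ (fun x => F x 0) (A x)).comp (A : (Fin 3 → ℂ) →L[ℂ] (Fin 3 → ℂ))) x :=
      HasFDerivAt.comp (g := fun x => F x 0) x hx.differentiableAt.hasFDerivAt A.hasFDerivAt
    unfold pd
    rw [h5.fderiv, ContinuousLinearMap.comp_apply, ContinuousLinearEquiv.coe_coe, hA]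
  have h6 : HasFDerivAt (fun x => fderiv ℂ (fun x => F x 0) (A x))
      ((fderiv ℂ (fderiv ℂ (fun x => F x 0)) 0).comp (A : (Fin 3 → ℂ) →L[ℂ] (Fin 3 → ℂ))) 0 := by
    have h7 : HasFDerivAt (fderiv ℂ (fun x => F x 0)) (fderiv ℂ (fderiv ℂ (fun x => F x 0)) 0)
        (A 0) := by
      rw [map_zero]
      exact hf0.fderiv.differentiableAt.hasFDerivAt
    exact HasFDerivAt.comp (g := fderiv ℂ (fun x => F x 0)) 0 h7 A.hasFDerivAt
  have h8 := h6.clm_apply (hasFDerivAt_const v (0 : Fin 3 → ℂ))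
  have h9 : fderiv ℂ (pd 2 (fun x => F (A x) 0)) 0 = _ := h3.fderiv_eq.trans h8.fderiv
  rw [pd, h9]
  simpa [hA] using hv

end Vale.Agent.P298.H845
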