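import Vale.Agent.P298.H752.Transfer
import Vale.Agent.P298.H766.Restr2

/-!
# P298: Milnor numbers and topological triviality under holomorphic changes of coordinates
-/

namespace Vale.Agent.P298.H845

open Filter Topology Metric Vale.Agent.P298

variable {n k : ℕ}

theorem hol_comp {g : (Fin n → ℂ) → ℂ} {θ : (Fin n → ℂ) → (Fin n → ℂ)} (hg : Hol g)
    (hθ : AnalyticAt ℂ θ 0) (h0 : θ 0 = 0) : Hol (fun x => g (θ x)) := by
  have h2 : AnalyticAt ℂ g (θ 0) := by rw [h0]; exact hg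
  exact h2.comp hθ

theorem tendsto_zero {θ : (Fin n → ℂ) → (Fin n → ℂ)}
    (hθ : AnalyticAt ℂ θ 0) (h0 : θ 0 = 0) : Tendsto θ (𝓝 0) (𝓝 0) := by
  have := hθ.continuousAt.tendsto
  rwa [h0] at this

theorem inIdeal_comp {s : Fin k → (Fin n → ℂ) → ℂ} {f : (Fin n → ℂ) → ℂ}
    {φ : (Fin n → ℂ) → (Fin n → ℂ)} (hφ : AnalyticAt ℂ φ 0) (hφ0 : φ 0 = 0)
    (h : InIdeal s f) : InIdeal (fun j x => s j (φ x)) (fun x => f (φ x)) := by
  obtain ⟨a, ha, h1⟩ := h
  exact ⟨fun j x => a j (φ x), fun j => hol_comp (ha j) hφ hφ0,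
    (tendsto_zero hφ hφ0).eventually h1⟩

/-- The colength is invariant under changes of coordinates. -/
theorem colength_comp {s : Fin k → (Fin n → ℂ) → ℂ} {d : ℕ}
    {φ ψ : (Fin n → ℂ) → (Fin n → ℂ)} (hφ : AnalyticAt ℂ φ 0) (hψ : AnalyticAt ℂ ψ 0)
    (hφ0 : φ 0 = 0) (hψ0 : ψ 0 = 0) (h1 : ∀ᶠ x in 𝓝 0, ψ (φ x) = x)
    (h2 : ∀ᶠ x in 𝓝 0, φ (ψ x) = x) (h : Colength s d) :
    Colength (fun j x => s j (φ x)) d := by
  obtain ⟨b, hb, H⟩ := h
  refine ⟨fun i x => b i (φ x), fun i => hol_comp (hb i) hφ hφ0, fun f hf => ?_⟩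
  have key : ∀ c : Fin d → ℂ,
      InIdeal (fun j x => s j (φ x)) (fun x => f x - ∑ i, c i * b i (φ x)) ↔
      InIdeal s (fun x => f (ψ x) - ∑ i, c i * b i x) := by
    intro c
    constructor
    · intro h3
      obtain ⟨a, ha, h5⟩ := inIdeal_comp hψ hψ0 h3
      refine ⟨a, ha, ?_⟩
      filter_upwards [h5, h2] with x h6 h7
      simpa only [h7] using h6
    · intro h3
      obtain ⟨a, ha, h5⟩ := inIdeal_comp hφ hφ0 h3
      refine ⟨a, ha, ?_⟩
      filter_upwards [h5, h1] with x h6 h7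
      simpa only [h7] using h6
  obtain ⟨c, hc1, hc2⟩ := H _ (hol_comp hf hψ hψ0)
  exact ⟨c, (key c).2 hc1, fun c' h => hc2 c' ((key c').1 h)⟩

theorem clm_pi_apply (L : (Fin n → ℂ) →L[ℂ] ℂ) (v : Fin n → ℂ) :
    L v = ∑ j, v j * L (Pi.single j 1) := by
  conv_lhs => rw [← Finset.univ_sum_single v]
  rw [map_sum]
  refine Finset.sum_congr rfl fun j _ => ?_
  have h1 : (Pi.single j (v j) : Fin n → ℂ) = v j • Pi.single j 1 := by
    rw [← Pi.single_smul, smul_eq_mul, mul_one]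
  rw [h1, map_smul, smul_eq_mul]

theorem pd_comp {f : (Fin n → ℂ) → ℂ} {φ : (Fin n → ℂ) → (Fin n → ℂ)} {x : Fin n → ℂ}
    (hf : DifferentiableAt ℂ f (φ x)) (hφ : DifferentiableAt ℂ φ x) (i : Fin n) :
    pd i (fun y => f (φ y)) x = ∑ j, (fderiv ℂ φ x (Pi.single i 1)) j * pd j f (φ x) := by
  have h1 : fderiv ℂ (fun y => f (φ y)) x = (fderiv ℂ f (φ x)).comp (fderiv ℂ φ x) :=
    (hf.hasFDerivAt.comp x hφ.hasFDerivAt).fderiv
  unfold pd
  rw [h1, ContinuousLinearMap.comp_apply, clm_pi_apply]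

/-- The Milnor number is invariant under changes of coordinates. -/
theorem milnor_comp {f : (Fin n → ℂ) → ℂ} (hf : Hol f)
    {φ ψ : (Fin n → ℂ) → (Fin n → ℂ)} (hφ : AnalyticAt ℂ φ 0) (hψ : AnalyticAt ℂ ψ 0)
    (hφ0 : φ 0 = 0) (hψ0 : ψ 0 = 0) (h1 : ∀ᶠ x in 𝓝 0, ψ (φ x) = x)
    (h2 : ∀ᶠ x in 𝓝 0, φ (ψ x) = x) {μ : ℕ} (h : Milnor f μ) :
    Milnor (fun x => f (φ x)) μ := by
  have h3 : Colength (fun i x => pd i f (φ x)) μ := colength_comp hφ hψ hφ0 hψ0 h1 h2 h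
  have hfc : Hol (fun x => f (φ x)) := hol_comp hf hφ hφ0
  have han : ∀ {θ : (Fin n → ℂ) → (Fin n → ℂ)}, AnalyticAt ℂ θ 0 → ∀ i j,
      Hol (fun x => (fderiv ℂ θ x (Pi.single i 1)) j) := by
    intro θ hθ i j
    have h4 : AnalyticAt ℂ (fun x => fderiv ℂ θ x (Pi.single i 1)) 0 :=
      H752.an_clm_apply hθ.fderiv analyticAt_const
    exact ((ContinuousLinearMap.proj (R := ℂ) (φ := fun _ : Fin n => ℂ) j).analyticAt _).comp h4
  refine (H766.colength_congr (fun j => ?_) (fun j => ?_) μ).1 h3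
  · -- the old partials in terms of the new ones
    refine ⟨fun i x => (fderiv ℂ ψ (φ x) (Pi.single j 1)) i,
      fun i => hol_comp (han hψ j i) hφ hφ0, ?_⟩
    have e1 : ∀ᶠ y in 𝓝 (0 : Fin n → ℂ), pd j f y =
        ∑ i, (fderiv ℂ ψ y (Pi.single j 1)) i * pd i (fun x => f (φ x)) (ψ y) := by
      filter_upwards [eventually_eventually_nhds.2 h2, hψ.eventually_analyticAt,
        (tendsto_zero hψ hψ0).eventually hfc.eventually_analyticAt] with y h4 h5 h6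
      rw [← pd_comp h6.differentiableAt h5.differentiableAt j]
      have h7 : (fun y => f (φ (ψ y))) =ᶠ[𝓝 y] f := by
        filter_upwards [h4] with z hz
        rw [hz]
      unfold pd
      rw [h7.fderiv_eq]
    filter_upwards [(tendsto_zero hφ hφ0).eventually e1, h1] with x h4 h5
    rw [h4, h5]
  · refine ⟨fun i x => (fderiv ℂ φ x (Pi.single j 1)) i, fun i => han hφ j i, ?_⟩
    filter_upwards [hφ.eventually_analyticAt,
      (tendsto_zero hφ hφ0).eventually hf.eventually_analyticAt] with x h4 h5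
    exact pd_comp h5.differentiableAt h4.differentiableAt j

/-- Reduction of topological triviality along a holomorphic family of coordinate changes. -/
theorem coord_change {r : ℝ} (hr : 0 < r) {F : (Fin n → ℂ) → ℂ → ℂ} (hF : IsHolFamily r F)
    {μ : ℕ} (hμ : ∀ t ∈ ball (0 : ℂ) r, Milnor (fun x => F x t) μ)
    (Ψ : OpenPartialHomeomorph ((Fin n → ℂ) × ℂ) ((Fin n → ℂ) × ℂ)) (h0 : (0, 0) ∈ Ψ.source)
    (h : ∀ q ∈ Ψ.source, (Ψ q).2 = q.2 ∧ (q.1 = 0 → Ψ q = q) ∧ AnalyticAt ℂ Ψ q ∧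
      AnalyticAt ℂ Ψ.symm (Ψ q)) :
    ∃ r' > 0, r' ≤ r ∧ IsHolFamily r' (fun x t => F (Ψ (x, t)).1 t) ∧
      (∀ t ∈ ball (0 : ℂ) r', Milnor (fun x => F (Ψ (x, t)).1 t) μ) ∧
      (∀ t ∈ ball (0 : ℂ) r', ((0 : Fin n → ℂ), t) ∈ Ψ.source) ∧
      ∀ r'', TopRightTrivial r'' (fun x t => F (Ψ (x, t)).1 t) → TopRightTrivial r F := by
  obtain ⟨ε, hε, hεs⟩ : ∃ ε > 0, ∀ t ∈ ball (0 : ℂ) ε, ((0 : Fin n → ℂ), t) ∈ Ψ.source := by
    have h1 : ∀ᶠ t in 𝓝 (0 : ℂ), ((0 : Fin n → ℂ), t) ∈ Ψ.source := by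
      have h2 : Continuous fun t : ℂ => ((0 : Fin n → ℂ), t) := by fun_prop
      exact (h2.tendsto 0) (Ψ.open_source.mem_nhds h0)
    obtain ⟨ε, hε, h3⟩ := Metric.eventually_nhds_iff_ball.1 h1
    exact ⟨ε, hε, h3⟩
  have hax : ∀ t ∈ ball (0 : ℂ) (min ε r), Ψ ((0 : Fin n → ℂ), t) = (0, t) := fun t ht =>
    (h _ (hεs t (ball_subset_ball (min_le_left _ _) ht))).2.1 rfl
  refine ⟨min ε r, lt_min hε hr, min_le_right _ _, ?_, ?_, ?_, ?_⟩
  · intro t ht
    have ht1 := hεs t (ball_subset_ball (min_le_left _ _) ht)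
    have ht2 := ball_subset_ball (min_le_right ε r) ht
    obtain ⟨h3, h4⟩ := hF t ht2
    constructor
    · have h5 : AnalyticAt ℂ (fun q : (Fin n → ℂ) × ℂ => ((Ψ q).1, q.2)) (0, t) :=
        ((analyticAt_fst).comp (h _ ht1).2.2.1).prod analyticAt_snd
      have h6 : AnalyticAt ℂ (fun p : (Fin n → ℂ) × ℂ => F p.1 p.2)
          ((fun q : (Fin n → ℂ) × ℂ => ((Ψ q).1, q.2)) (0, t)) := by
        change AnalyticAt ℂ (fun p : (Fin n → ℂ) × ℂ => F p.1 p.2) ((Ψ (0, t)).1, t)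
        rw [hax t ht]
        exact h3
      exact AnalyticAt.comp (g := fun p : (Fin n → ℂ) × ℂ => F p.1 p.2)
        (f := fun q : (Fin n → ℂ) × ℂ => ((Ψ q).1, q.2)) (x := (0, t)) h6 h5
    · change F (Ψ (0, t)).1 t = 0
      rw [hax t ht]
      exact h4
  · intro t ht
    have ht1 := hεs t (ball_subset_ball (min_le_left _ _) ht)
    have ht2 := ball_subset_ball (min_le_right ε r) ht
    have hcs : Continuous fun x : Fin n → ℂ => (x, t) := by fun_prop
    have ht3 : ((0 : Fin n → ℂ), t) ∈ Ψ.target := by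
      have := Ψ.map_source ht1
      rwa [hax t ht] at this
    have hsy : Ψ.symm ((0 : Fin n → ℂ), t) = (0, t) := by
      have := Ψ.left_inv ht1
      rwa [hax t ht] at this
    have hsymm2 : ∀ q ∈ Ψ.target, (Ψ.symm q).2 = q.2 := by
      intro q hq
      have h1 := (h _ (Ψ.map_target hq)).1
      rw [Ψ.right_inv hq] at h1
      exact h1.symm
    have ha1 : AnalyticAt ℂ (fun x : Fin n → ℂ => (Ψ (x, t)).1) 0 :=
      analyticAt_fst.comp ((h _ ht1).2.2.1.comp₂ analyticAt_id analyticAt_const)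
    have ha2 : AnalyticAt ℂ (fun x : Fin n → ℂ => (Ψ.symm (x, t)).1) 0 := by
      have h3 := (h _ ht1).2.2.2
      rw [hax t ht] at h3
      exact analyticAt_fst.comp (h3.comp₂ analyticAt_id analyticAt_const)
    have hfh : Hol (fun x => F x t) :=
      AnalyticAt.comp₂ (h := fun p : (Fin n → ℂ) × ℂ => F p.1 p.2) (f := fun x => x)
        (g := fun _ => t) (hF t ht2).1 analyticAt_id analyticAt_const
    refine milnor_comp hfh ha1 ha2 (by rw [hax t ht]) (by rw [hsy]) ?_ ?_ (hμ t ht2)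
    · have h3 : ∀ᶠ x in 𝓝 (0 : Fin n → ℂ), (x, t) ∈ Ψ.source :=
        (hcs.tendsto 0) (Ψ.open_source.mem_nhds ht1)
      filter_upwards [h3] with x hx
      have h4 : ((Ψ (x, t)).1, t) = Ψ (x, t) := Prod.ext rfl (h _ hx).1.symm
      rw [h4, Ψ.left_inv hx]
    · have h3 : ∀ᶠ x in 𝓝 (0 : Fin n → ℂ), (x, t) ∈ Ψ.target :=
        (hcs.tendsto 0) (Ψ.open_target.mem_nhds ht3)
      filter_upwards [h3] with x hx
      have h4 : ((Ψ.symm (x, t)).1, t) = Ψ.symm (x, t) := Prod.ext rfl (hsymm2 _ hx).symm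
      rw [h4, Ψ.right_inv hx]
  · exact fun t ht => hεs t (ball_subset_ball (min_le_left _ _) ht)
  · intro r'' h1
    refine H752.topRight_transfer hr Ψ h0 (fun q hq => ⟨(h q hq).1, (h q hq).2.1, ?_⟩) h1
    rw [(h q hq).1]

/-- In a family of positive Milnor number all gradients vanish at the origin. -/
theorem pd_zero_of_milnor {f : (Fin n → ℂ) → ℂ} {μ : ℕ} (hf : Hol f) (h : Milnor f μ)
    (hμ : μ ≠ 0) (i : Fin n) : pd i f 0 = 0 := by
  classical
  by_contra hne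
  obtain ⟨b, hb, H⟩ := h
  have hpd : Hol (pd i f) := H752.an_clm_apply hf.fderiv analyticAt_const
  have hall : ∀ g, Hol g → InIdeal (fun i => pd i f) g := by
    intro g hg
    refine ⟨fun j x => if j = i then g x * (pd i f x)⁻¹ else 0, fun j => ?_, ?_⟩
    · by_cases hj : j = i
      · simp only [hj, if_true]
        exact hg.mul (hpd.inv hne)
      · simp only [hj, if_false]
        exact analyticAt_const
    · filter_upwards [hpd.continuousAt.eventually_ne hne] with x hx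
      simp [hx]
  obtain ⟨c, -, hc⟩ := H (fun _ => 0) analyticAt_const
  have h1 : (fun _ => 1 : Fin μ → ℂ) = c := hc _ (hall _ (by
    exact analyticAt_const.sub (Finset.analyticAt_fun_sum _ fun j _ =>
      analyticAt_const.mul (hb j))))
  have h2 : (fun _ => 0 : Fin μ → ℂ) = c := hc _ (hall _ (by
    exact analyticAt_const.sub (Finset.analyticAt_fun_sum _ fun j _ =>
      analyticAt_const.mul (hb j))))
  have h3 := congrFun (h1.trans h2.symm) ⟨0, Nat.pos_of_ne_zero hμ⟩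
  simp at h3

theorem milnor_ne_zero {f : (Fin n → ℂ) → ℂ} {μ : ℕ} (h : Milnor f μ)
    (h0 : ∀ i, pd i f 0 = 0) : μ ≠ 0 := by
  rintro rfl
  obtain ⟨b, hb, H⟩ := h
  obtain ⟨c, ⟨a, ha, h1⟩, -⟩ := H (fun _ => 1) analyticAt_const
  have h2 := h1.self_of_nhds
  simp [h0] at h2

end Vale.Agent.P298.H845
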