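import Vale.Agent.P298.H845.Glob

/-! P298, block S1-GEO-R4 (helper845), part 6: homogeneous functions on the cone over a smooth
hypersurface are polynomials (product coordinates). -/

set_option linter.all false

open Filter Topology Metric Set Polynomial

noncomputable section

namespace Vale.Agent.P298.H845

variable {n : ℕ}

theorem MP_smul {d : ℕ} {a : Fin d → (Fin n → ℂ) → ℂ}
    (hah : ∀ (j : Fin d) (t : ℂ) x, a j (t • x) = t ^ (d - (j : ℕ)) * a j x) (t : ℂ)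
    (x : Fin n → ℂ) (z : ℂ) :
    (MP a (t • x)).eval (t * z) = t ^ d * (MP a x).eval z := by
  rw [MP_eval, MP_eval, mul_add, Finset.mul_sum, mul_pow]
  congr 1
  refine Finset.sum_congr rfl fun j _ => ?_
  rw [hah, mul_pow]
  have : t ^ d = t ^ (d - (j : ℕ)) * t ^ (j : ℕ) := by
    rw [← pow_add]; congr 1; have := j.2; omega
  rw [this]; ring

theorem LExt.smul {d : ℕ} {a : Fin d → (Fin n → ℂ) → ℂ}
    (hah : ∀ (j : Fin d) (t : ℂ) x, a j (t • x) = t ^ (d - (j : ℕ)) * a j x)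
    {h : (Fin n → ℂ) × ℂ → ℂ} {k : ℤ}
    (hh : ∀ t : ℂ, t ≠ 0 → ∀ x, x ≠ 0 → ∀ ζ, GF a (x, ζ) = 0 →
      h (t • x, t * ζ) = t ^ k * h (x, ζ))
    {x : Fin n → ℂ} (hx : x ≠ 0) {ζ : ℂ} {H : (Fin n → ℂ) × ℂ → ℂ} (hH : LExt (GF a) h (x, ζ) H)
    {t : ℂ} (ht : t ≠ 0) :
    LExt (GF a) h (t • x, t * ζ) (fun p => t ^ k * H (t⁻¹ • p)) := by
  have hinv : t⁻¹ • ((t • x, t * ζ) : (Fin n → ℂ) × ℂ) = (x, ζ) := by
    ext1
    · simp [smul_smul, inv_mul_cancel₀ ht]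
    · simp [inv_mul_cancel_left₀ ht]
  have hlin : AnalyticAt ℂ (fun p : (Fin n → ℂ) × ℂ => t⁻¹ • p) (t • x, t * ζ) :=
    (t⁻¹ • ContinuousLinearMap.id ℂ ((Fin n → ℂ) × ℂ)).analyticAt _
  refine ⟨analyticAt_const.mul (hH.1.comp_of_eq hlin hinv), ?_⟩
  have htend : Tendsto (fun p : (Fin n → ℂ) × ℂ => t⁻¹ • p) (𝓝 (t • x, t * ζ)) (𝓝 (x, ζ)) := by
    have := hlin.continuousAt.tendsto
    rwa [hinv] at this
  have hne : ∀ᶠ p : (Fin n → ℂ) × ℂ in 𝓝 (x, ζ), p.1 ≠ 0 :=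
    continuous_fst.continuousAt.eventually_ne hx
  filter_upwards [htend.eventually hH.2, htend.eventually hne] with p h1 h2 h3
  have hp : p = (t • (t⁻¹ • p).1, t * (t⁻¹ • p).2) := by
    ext1
    · simp [smul_smul, mul_inv_cancel₀ ht]
    · simp [mul_inv_cancel_left₀ ht]
  have h4 : GF a (t⁻¹ • p) = 0 := by
    have h5 : (MP a (t • (t⁻¹ • p).1)).eval (t * (t⁻¹ • p).2) =
        t ^ d * (MP a (t⁻¹ • p).1).eval (t⁻¹ • p).2 := MP_smul hah t _ _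
    have h6 : GF a p = (MP a (t • (t⁻¹ • p).1)).eval (t * (t⁻¹ • p).2) := by
      conv_lhs => rw [hp]
      rfl
    rw [h3, h5] at h6
    exact (mul_eq_zero.1 h6.symm).resolve_left (pow_ne_zero d ht)
  have h7 := h1 h4
  show t ^ k * H (t⁻¹ • p) = h p
  rw [h7]
  have h8 := hh t ht (t⁻¹ • p).1 h2 (t⁻¹ • p).2 h4
  rw [← hp] at h8
  exact h8.symm

theorem IsHerm.smul {d : ℕ} {a : Fin d → (Fin n → ℂ) → ℂ}
    (hah : ∀ (j : Fin d) (t : ℂ) x, a j (t • x) = t ^ (d - (j : ℕ)) * a j x)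
    {h : (Fin n → ℂ) × ℂ → ℂ} {k : ℤ}
    (hh : ∀ t : ℂ, t ≠ 0 → ∀ x, x ≠ 0 → ∀ ζ, GF a (x, ζ) = 0 →
      h (t • x, t * ζ) = t ^ k * h (x, ζ))
    {x : Fin n → ℂ} (hx : x ≠ 0) {c : Fin d → ℂ}
    (hq : IsHerm a h x (∑ l : Fin d, C (c l) * X ^ (l : ℕ))) {t : ℂ} (ht : t ≠ 0) :
    IsHerm a h (t • x) (∑ l : Fin d, C (t ^ (k - (l : ℕ)) * c l) * X ^ (l : ℕ)) := by
  refine ⟨degree_sum_fin_lt _, fun ζ hζ => ?_⟩
  set ζ' := t⁻¹ * ζ with hζ'
  have hζζ : ζ = t * ζ' := by rw [hζ', mul_inv_cancel_left₀ ht]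
  have h0 : (MP a x).eval ζ' = 0 := by
    rw [hζζ, MP_smul hah] at hζ
    exact (mul_eq_zero.1 hζ).resolve_left (pow_ne_zero d ht)
  obtain ⟨H, hH, K, hK⟩ := hq.2 ζ' h0
  have h1 := hH.smul hah hh hx ht
  rw [← hζζ] at h1
  refine ⟨_, h1, ‖t ^ k‖ * K * ‖(t ^ d)⁻¹‖, ?_⟩
  have htend : Tendsto (fun z : ℂ => t⁻¹ * z) (𝓝 ζ) (𝓝 ζ') :=
    (by fun_prop : Continuous fun z : ℂ => t⁻¹ * z).tendsto ζ
  filter_upwards [htend.eventually hK] with z hz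
  have e1 : t⁻¹ • ((t • x, z) : (Fin n → ℂ) × ℂ) = (x, t⁻¹ * z) := by
    ext1
    · simp [smul_smul, inv_mul_cancel₀ ht]
    · simp
  have e2 : (∑ l : Fin d, C (t ^ (k - (l : ℕ)) * c l) * X ^ (l : ℕ)).eval z =
      t ^ k * (∑ l : Fin d, C (c l) * X ^ (l : ℕ)).eval (t⁻¹ * z) := by
    simp only [eval_finset_sum, eval_mul, eval_C, eval_pow, eval_X, Finset.mul_sum]
    refine Finset.sum_congr rfl fun l _ => ?_
    rw [zpow_sub₀ ht, zpow_natCast, mul_pow, inv_pow]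
    field_simp
  have e3 : (MP a (t • x)).eval z = t ^ d * (MP a x).eval (t⁻¹ * z) := by
    rw [← MP_smul hah, mul_inv_cancel_left₀ ht]
  show ‖t ^ k * H (t⁻¹ • (t • x, z)) - _‖ ≤ _
  rw [e1, e2, ← mul_sub, norm_mul, e3, norm_mul]
  have h2 : ‖(t ^ d)⁻¹‖ * ‖t ^ d‖ = 1 := by
    rw [← norm_mul, inv_mul_cancel₀ (pow_ne_zero d ht), norm_one]
  calc ‖t ^ k‖ * ‖H (x, t⁻¹ * z) - (∑ l : Fin d, C (c l) * X ^ (l : ℕ)).eval (t⁻¹ * z)‖
      ≤ ‖t ^ k‖ * (K * ‖(MP a x).eval (t⁻¹ * z)‖) := by gcongr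
    _ = ‖t ^ k‖ * K * (‖(t ^ d)⁻¹‖ * ‖t ^ d‖) * ‖(MP a x).eval (t⁻¹ * z)‖ := by rw [h2]; ring
    _ = ‖t ^ k‖ * K * ‖(t ^ d)⁻¹‖ * (‖t ^ d‖ * ‖(MP a x).eval (t⁻¹ * z)‖) := by ring

/-- **Functions on the cone over a smooth hypersurface are polynomials** (product form). -/
theorem poly_cone {m d : ℕ} {a : Fin d → (Fin (m + 2) → ℂ) → ℂ}
    (ha : ∀ j, Differentiable ℂ (a j))
    (hah : ∀ (j : Fin d) (t : ℂ) x, a j (t • x) = t ^ (d - (j : ℕ)) * a j x)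
    (hreg : ∀ x, x ≠ 0 → ∀ ζ, GF a (x, ζ) = 0 → fderiv ℂ (GF a) (x, ζ) ≠ 0)
    {h : (Fin (m + 2) → ℂ) × ℂ → ℂ}
    (hext : ∀ x, x ≠ 0 → ∀ ζ, GF a (x, ζ) = 0 → ∃ H, LExt (GF a) h (x, ζ) H)
    {k : ℤ} (hh : ∀ t : ℂ, t ≠ 0 → ∀ x, x ≠ 0 → ∀ ζ, GF a (x, ζ) = 0 →
      h (t • x, t * ζ) = t ^ k * h (x, ζ)) :
    ∃ P : Fin d → MvPolynomial (Fin (m + 2)) ℂ,
      (∀ l : Fin d, 0 ≤ k - (l : ℕ) → (P l).IsHomogeneous (k - (l : ℕ)).toNat) ∧
      (∀ l : Fin d, k - (l : ℕ) < 0 → P l = 0) ∧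
      (∀ x, x ≠ 0 → IsHerm a h x (∑ l : Fin d, C (MvPolynomial.eval x (P l)) * X ^ (l : ℕ))) ∧
      ∀ x, x ≠ 0 → ∀ ζ, GF a (x, ζ) = 0 →
        h (x, ζ) = ∑ l : Fin d, MvPolynomial.eval x (P l) * ζ ^ (l : ℕ) := by
  classical
  have hU : IsOpen ({0}ᶜ : Set (Fin (m + 2) → ℂ)) := isOpen_compl_singleton
  have haU : ∀ j, DifferentiableOn ℂ (a j) ({0}ᶜ : Set (Fin (m + 2) → ℂ)) :=
    fun j => (ha j).differentiableOn
  obtain ⟨c, hc, hcH⟩ := herm_global hU haU (fun x hx => hreg x hx) (fun x hx => hext x hx)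
  have huniq : ∀ x, x ≠ 0 → ∀ q q', IsHerm a h x q → IsHerm a h x q' → q = q' :=
    fun x hx q q' h1 h2 =>
      h1.unique (fun ζ _ => GF_analyticAt hU haU hx ζ) (fun ζ hζ => hreg x hx ζ hζ) h2
  have hhom : ∀ t : ℂ, t ≠ 0 → ∀ x, x ≠ 0 → ∀ l, c l (t • x) = t ^ (k - (l : ℕ)) * c l x := by
    intro t ht x hx l
    have htx : t • x ≠ 0 := smul_ne_zero ht hx
    have h1 := huniq _ htx _ _ (hcH _ htx) (IsHerm.smul hah hh hx (hcH x hx) ht)
    have h2 := congrArg (fun p : Polynomial ℂ => p.coeff (l : ℕ)) h1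
    simp only [coeff_sum_fin] at h2
    exact h2
  choose c' hc' hcc' using fun l => hartogs_point (hc l)
  have hhom' : ∀ l, ∀ t : ℂ, t ≠ 0 → ∀ x, x ≠ 0 → c' l (t • x) = t ^ (k - (l : ℕ)) * c' l x := by
    intro l t ht x hx
    rw [hcc' l _ (smul_ne_zero ht hx), hcc' l x hx, hhom t ht x hx l]
  have hP : ∀ l : Fin d, ∃ P : MvPolynomial (Fin (m + 2)) ℂ,
      (0 ≤ k - (l : ℕ) → P.IsHomogeneous (k - (l : ℕ)).toNat) ∧ (k - (l : ℕ) < 0 → P = 0) ∧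
      ∀ x, c' l x = MvPolynomial.eval x P := by
    intro l
    by_cases hk : 0 ≤ k - (l : ℕ)
    · obtain ⟨P, hP, hPe⟩ := homog_poly (hc' l) (k := (k - (l : ℕ)).toNat) (by
        intro t ht x hx
        rw [hhom' l t ht x hx, ← zpow_natCast, Int.toNat_of_nonneg hk])
      exact ⟨P, fun _ => hP, fun h => absurd hk (not_le.2 h), hPe⟩
    · have hk' : k - (l : ℕ) < 0 := not_le.1 hk
      refine ⟨0, fun h => absurd h hk, fun _ => rfl, ?_⟩
      have h0 := homog_neg (hc' l) (k := (-(k - (l : ℕ))).toNat) (by omega) (by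
        intro t ht x hx
        rw [hhom' l t ht x hx, ← zpow_natCast, Int.toNat_of_nonneg (by omega), ← mul_assoc,
          ← zpow_add₀ ht, neg_add_cancel, zpow_zero, one_mul])
      intro x
      rw [h0 x, map_zero]
  choose P hP1 hP2 hP3 using hP
  have hHerm : ∀ x, x ≠ 0 →
      IsHerm a h x (∑ l : Fin d, C (MvPolynomial.eval x (P l)) * X ^ (l : ℕ)) := by
    intro x hx
    have := hcH x hx
    convert this using 4 with l
    rw [← hP3 l x, hcc' l x hx]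
  refine ⟨P, hP1, hP2, hHerm, fun x hx ζ hζ => ?_⟩
  have h1 := (hHerm x hx).eval hζ
  rw [← h1]
  simp [eval_finset_sum]

/-- uniqueness of the normal form -/
theorem poly_cone_unique {m d : ℕ} {a : Fin d → (Fin (m + 2) → ℂ) → ℂ}
    (ha : ∀ j, Differentiable ℂ (a j))
    (hreg : ∀ x, x ≠ 0 → ∀ ζ, GF a (x, ζ) = 0 → fderiv ℂ (GF a) (x, ζ) ≠ 0)
    {P P' : Fin d → MvPolynomial (Fin (m + 2)) ℂ}
    (hPP : ∀ x, x ≠ 0 → ∀ ζ, GF a (x, ζ) = 0 →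
      ∑ l : Fin d, MvPolynomial.eval x (P l) * ζ ^ (l : ℕ) =
        ∑ l : Fin d, MvPolynomial.eval x (P' l) * ζ ^ (l : ℕ)) : P = P' := by
  classical
  have hU : IsOpen ({0}ᶜ : Set (Fin (m + 2) → ℂ)) := isOpen_compl_singleton
  have haU : ∀ j, DifferentiableOn ℂ (a j) ({0}ᶜ : Set (Fin (m + 2) → ℂ)) :=
    fun j => (ha j).differentiableOn
  have hHerm : ∀ R R' : Fin d → MvPolynomial (Fin (m + 2)) ℂ, (∀ x, x ≠ 0 → ∀ ζ, GF a (x, ζ) = 0 →
      ∑ l : Fin d, MvPolynomial.eval x (R l) * ζ ^ (l : ℕ) =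
        ∑ l : Fin d, MvPolynomial.eval x (R' l) * ζ ^ (l : ℕ)) → ∀ x, x ≠ 0 →
      IsHerm a (fun p => ∑ l : Fin d, MvPolynomial.eval p.1 (R' l) * p.2 ^ (l : ℕ)) x
        (∑ l : Fin d, C (MvPolynomial.eval x (R l)) * X ^ (l : ℕ)) := by
    intro R R' hRR x hx
    refine ⟨degree_sum_fin_lt _, fun ζ hζ => ?_⟩
    refine ⟨fun p => ∑ l : Fin d, MvPolynomial.eval p.1 (R l) * p.2 ^ (l : ℕ), ⟨?_, ?_⟩, 0, ?_⟩
    · have hd : Differentiable ℂ fun p : (Fin (m + 2) → ℂ) × ℂ =>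
          ∑ l : Fin d, MvPolynomial.eval p.1 (R l) * p.2 ^ (l : ℕ) := by
        refine Differentiable.fun_sum fun l _ => ?_
        refine Differentiable.fun_mul ?_ (by fun_prop)
        have h1 : AnalyticOnNhd ℂ (fun x : Fin (m + 2) → ℂ => MvPolynomial.eval x (R l)) univ := by
          have := AnalyticOnNhd.aeval_mvPolynomial (𝕜 := ℂ) (A := ℂ)
            (E := Fin (m + 2) → ℂ) (s := univ) (f := fun x => x)
            (fun i => (ContinuousLinearMap.proj (R := ℂ) (φ := fun _ : Fin (m + 2) => ℂ)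
              i).analyticOnNhd univ) (R l)
          simpa [MvPolynomial.aeval_eq_eval] using this
        have h2 : Differentiable ℂ (fun x : Fin (m + 2) → ℂ => MvPolynomial.eval x (R l)) :=
          fun x => (h1 x (mem_univ x)).differentiableAt
        exact h2.comp differentiable_fst
      exact Vale.Agent.P268.analyticAt_of_differentiableOn isOpen_univ hd.differentiableOn
        (mem_univ _)
    · have hne : ∀ᶠ p : (Fin (m + 2) → ℂ) × ℂ in 𝓝 (x, ζ), p.1 ≠ 0 :=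
        continuous_fst.continuousAt.eventually_ne hx
      filter_upwards [hne] with p hp h0
      exact hRR p.1 hp p.2 h0
    · refine Eventually.of_forall fun z => ?_
      simp [eval_finset_sum]
  have hev : ∀ l x, x ≠ 0 → MvPolynomial.eval x (P l) = MvPolynomial.eval x (P' l) := by
    intro l x hx
    have h1 := (hHerm P P' hPP x hx).unique (fun ζ _ => GF_analyticAt hU haU hx ζ)
      (fun ζ hζ => hreg x hx ζ hζ) (hHerm P' P' (fun _ _ _ _ => rfl) x hx)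
    have h2 := congrArg (fun p : Polynomial ℂ => p.coeff (l : ℕ)) h1
    simp only [coeff_sum_fin] at h2
    exact h2
  funext l
  refine MvPolynomial.funext fun x => ?_
  have := (MvPolynomial.continuous_eval (P l)).ext_on (dense_compl_singleton (0 : Fin (m + 2) → ℂ))
    (MvPolynomial.continuous_eval (P' l)) (fun x hx => hev l x hx)
  exact congrFun this x

end Vale.Agent.P298.H845
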