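import Vale.Agent.P298.H845.Loc

/-! P298, block S1-GEO-R4 (helper845), part 3: local and global existence of the Hermite
interpolation coefficients. -/

set_option linter.all false

open Filter Topology Metric Set Polynomial

noncomputable section

namespace Vale.Agent.P298.H845

theorem circ_split {f P B : ℂ → ℂ} {Pz z c : ℂ} {R : ℝ} (hR : 0 ≤ R)
    (hf : ContinuousOn f (sphere c R)) (hP : ContinuousOn P (sphere c R))
    (hP0 : ∀ w ∈ sphere c R, P w ≠ 0) (hz : ∀ w ∈ sphere c R, w ≠ z)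
    (hB : ∀ w, B w * (w - z) = P w - Pz) :
    (∮ w in C(c, R), f w * B w / P w) =
      (∮ w in C(c, R), (w - z)⁻¹ • f w) - Pz * ∮ w in C(c, R), (f w / P w) / (w - z) := by
  have hz' : ∀ w ∈ sphere c R, w - z ≠ 0 := fun w hw => sub_ne_zero.2 (hz w hw)
  have c1 : ContinuousOn (fun w => (w - z)⁻¹ • f w) (sphere c R) :=
    ((continuousOn_id.sub continuousOn_const).inv₀ hz').smul hf
  have c2 : ContinuousOn (fun w => Pz * ((f w / P w) / (w - z))) (sphere c R) :=
    continuousOn_const.mul ((hf.div hP hP0).div (continuousOn_id.sub continuousOn_const) hz')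
  rw [← circleIntegral.integral_const_mul, ← circleIntegral.integral_sub
    (c1.circleIntegrable hR) (c2.circleIntegrable hR)]
  refine circleIntegral.integral_congr hR fun w hw => ?_
  have h1 := hz' w hw
  have h2 := hP0 w hw
  have h3 : B w = (P w - Pz) / (w - z) := by rw [eq_div_iff h1]; exact hB w
  simp only [h3, smul_eq_mul]
  field_simp

variable {E : Type*} [NormedAddCommGroup E] [NormedSpace ℂ E]

theorem MP_coeff {d : ℕ} (a : Fin d → E → ℂ) (x : E) (j : ℕ) :
    (MP a x).coeff j = (if j = d then 1 else 0) + if h : j < d then a ⟨j, h⟩ x else 0 := by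
  unfold MP
  rw [coeff_add, coeff_X_pow, finset_sum_coeff]
  congr 1
  simp only [coeff_C_mul_X_pow]
  split_ifs with h
  · rw [Finset.sum_eq_single (⟨j, h⟩ : Fin d)]
    · simp
    · intro b _ hb
      rw [if_neg]
      intro h'; apply hb; ext; exact h'.symm
    · simp
  · refine Finset.sum_eq_zero fun b _ => ?_
    rw [if_neg]
    intro h'; exact h (h' ▸ b.2)

theorem GF_diff {d : ℕ} {a : Fin d → E → ℂ} {U : Set E} (ha : ∀ j, DifferentiableOn ℂ (a j) U)
    (W : Set ℂ) : DifferentiableOn ℂ (GF a) (U ×ˢ W) := by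
  have h1 : DifferentiableOn ℂ (fun p : E × ℂ => p.2 ^ d + ∑ j : Fin d, a j p.1 * p.2 ^ (j : ℕ))
      (U ×ˢ W) := by
    refine DifferentiableOn.add (by fun_prop) ?_
    refine DifferentiableOn.fun_sum fun j _ => ?_
    refine DifferentiableOn.mul ?_ (by fun_prop)
    exact (ha j).comp differentiableOn_fst fun p hp => hp.1
  exact h1.congr fun p _ => GF_apply a p

theorem bq_diff {d : ℕ} {a : Fin d → E → ℂ} {U : Set E} (ha : ∀ j, DifferentiableOn ℂ (a j) U)
    (l : ℕ) (W : Set ℂ) : DifferentiableOn ℂ (fun p : E × ℂ => bq a l p.1 p.2) (U ×ˢ W) := by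
  unfold bq
  refine DifferentiableOn.fun_sum fun j _ => ?_
  split_ifs with hlj
  · refine DifferentiableOn.mul ?_ (by fun_prop)
    simp only [MP_coeff]
    refine DifferentiableOn.add (by fun_prop) ?_
    by_cases h : j < d
    · simp only [h, dite_true]
      exact (ha _).comp differentiableOn_fst fun p hp => hp.1
    · simp only [h, dite_false]
      fun_prop
  · fun_prop

/-- roots of nearby polynomials -/
theorem roots_near [CompleteSpace E] {d : ℕ} {a : Fin d → E → ℂ} {U : Set E} (hU : IsOpen U)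
    (ha : ∀ j, DifferentiableOn ℂ (a j) U) {x0 : E} (hx0 : x0 ∈ U) {ε : ℂ → ℝ}
    (hε : ∀ ζ, (MP a x0).eval ζ = 0 → 0 < ε ζ) :
    ∀ᶠ x in 𝓝 x0, ∀ z, (MP a x).eval z = 0 → ∃ ζ, (MP a x0).eval ζ = 0 ∧ z ∈ ball ζ (ε ζ) := by
  have hac : ∀ j, ContinuousAt (a j) x0 := fun j =>
    ((ha j).continuousOn).continuousAt (hU.mem_nhds hx0)
  set M : ℝ := ∑ j : Fin d, (‖a j x0‖ + 1) + 1 with hM
  have hsum0 : (0 : ℝ) ≤ ∑ j : Fin d, (‖a j x0‖ + 1) :=
    Finset.sum_nonneg fun j _ => by positivity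
  have hbd : ∀ᶠ x in 𝓝 x0, ∀ j, ‖a j x‖ < ‖a j x0‖ + 1 := by
    refine eventually_all.2 fun j => ?_
    exact ((hac j).norm.eventually_lt continuousAt_const (by linarith))
  set K : Set ℂ := closedBall 0 M \ ⋃ ζ ∈ {ζ | (MP a x0).eval ζ = 0}, ball ζ (ε ζ) with hK
  have hKc : IsCompact K := by
    refine (isCompact_closedBall (0 : ℂ) M).diff ?_
    exact isOpen_biUnion fun ζ _ => isOpen_ball
  have hGc : ContinuousOn (GF a) (U ×ˢ (univ : Set ℂ)) := (GF_diff ha univ).continuousOn
  have hne : ∀ᶠ x in 𝓝 x0, ∀ z ∈ K, GF a (x, z) ≠ 0 := by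
    refine hKc.eventually_forall_of_forall_eventually fun z hz => ?_
    have h1 : GF a (x0, z) ≠ 0 := by
      intro h0
      exact hz.2 (mem_biUnion (show z ∈ {ζ | (MP a x0).eval ζ = 0} from h0)
        (mem_ball_self (hε z h0)))
    have h2 : ContinuousAt (GF a) (x0, z) :=
      hGc.continuousAt ((hU.prod isOpen_univ).mem_nhds ⟨hx0, mem_univ _⟩)
    exact h2.eventually_ne h1
  filter_upwards [hbd, hne] with x h1 h2 z hz
  by_contra hcon
  push Not at hcon
  have hzK : z ∈ K := by
    refine ⟨?_, ?_⟩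
    · rw [mem_closedBall_zero_iff]
      by_contra hlt
      push Not at hlt
      have hz1 : 1 ≤ ‖z‖ := by linarith
      have hzd : z ^ d = -∑ j : Fin d, a j x * z ^ (j : ℕ) := by
        rw [MP_eval] at hz
        linear_combination hz
      rcases Nat.eq_zero_or_pos d with hd | hd
      · subst hd
        simp at hzd
      have h3 : ‖z‖ ^ d ≤ (∑ j : Fin d, (‖a j x0‖ + 1)) * ‖z‖ ^ (d - 1) := by
        calc ‖z‖ ^ d = ‖z ^ d‖ := (norm_pow _ _).symm
          _ = ‖∑ j : Fin d, a j x * z ^ (j : ℕ)‖ := by rw [hzd, norm_neg]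
          _ ≤ ∑ j : Fin d, ‖a j x * z ^ (j : ℕ)‖ := norm_sum_le _ _
          _ ≤ ∑ j : Fin d, (‖a j x0‖ + 1) * ‖z‖ ^ (d - 1) := by
              refine Finset.sum_le_sum fun j _ => ?_
              rw [norm_mul, norm_pow]
              have hj : (j : ℕ) ≤ d - 1 := by have := j.2; omega
              have := pow_le_pow_right₀ hz1 hj
              have := (h1 j).le
              gcongr
          _ = _ := by rw [Finset.sum_mul]
      have h4 : ‖z‖ ^ d = ‖z‖ * ‖z‖ ^ (d - 1) := by
        rw [← pow_succ']; congr 1; omega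
      rw [h4] at h3
      have h5 : 0 < ‖z‖ ^ (d - 1) := by positivity
      have h6 := le_of_mul_le_mul_right h3 h5
      linarith
    · intro hmem
      rw [mem_iUnion₂] at hmem
      obtain ⟨ζ, hζ, hzb⟩ := hmem
      exact hcon ζ hζ hzb
  exact h2 z hzK hz

end Vale.Agent.P298.H845
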