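import Vale.Agent.P298.H845.Exi

/-! P298, block S1-GEO-R4 (helper845), part 4: existence of the Hermite interpolation
coefficients and their holomorphy. -/

set_option linter.all false

open Filter Topology Metric Set Polynomial

noncomputable section

namespace Vale.Agent.P298.H845

variable {E : Type*} [NormedAddCommGroup E] [NormedSpace ℂ E]

theorem herm_local [FiniteDimensional ℂ E] {d : ℕ} {a : Fin d → E → ℂ} {h : E × ℂ → ℂ} {U : Set E}
    (hU : IsOpen U) (ha : ∀ j, DifferentiableOn ℂ (a j) U) {x0 : E} (hx0 : x0 ∈ U)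
    (hext : ∀ ζ, (MP a x0).eval ζ = 0 → ∃ H, LExt (GF a) h (x0, ζ) H) :
    ∃ N : Set E, IsOpen N ∧ x0 ∈ N ∧ N ⊆ U ∧ ∃ c : Fin d → E → ℂ,
      (∀ l, DifferentiableOn ℂ (c l) N) ∧
      ∀ x ∈ N, IsHerm a h x (∑ l : Fin d, C (c l x) * X ^ (l : ℕ)) := by
  classical
  have : CompleteSpace E := FiniteDimensional.complete ℂ E
  have hP0 : MP a x0 ≠ 0 := (MP_monic a x0).ne_zero
  set Rf : Finset ℂ := (MP a x0).roots.toFinset with hRf
  have hmem : ∀ ζ, ζ ∈ Rf ↔ (MP a x0).eval ζ = 0 := by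
    intro ζ
    rw [hRf, Multiset.mem_toFinset, mem_roots hP0, IsRoot.def]
  choose! H hH using hext
  obtain ⟨Us, hUs, hdisj⟩ := (Rf.finite_toSet).t2_separation
  -- radii
  have claim : ∀ ζ, (MP a x0).eval ζ = 0 → ∃ u ∈ 𝓝 x0, ∃ ε : ℝ, 0 < ε ∧ closedBall ζ ε ⊆ Us ζ ∧
      ∀ x ∈ u, ∀ w ∈ ball ζ (2 * ε), LExt (GF a) h (x, w) (H ζ) := by
    intro ζ hζ
    have h1 : ∀ᶠ q in 𝓝 (x0, ζ), LExt (GF a) h q (H ζ) :=
      (hH ζ hζ).1.eventually_analyticAt.and (hH ζ hζ).2.eventually_nhds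
    obtain ⟨u, hu, v, hv, huv⟩ := mem_nhds_prod_iff.1 h1
    have hvU : v ∩ Us ζ ∈ 𝓝 ζ := inter_mem hv ((hUs ζ).2.mem_nhds (hUs ζ).1)
    obtain ⟨r, hr, hrb⟩ := Metric.mem_nhds_iff.1 hvU
    refine ⟨u, hu, r / 2, half_pos hr, ?_, ?_⟩
    · exact (closedBall_subset_ball (by linarith)).trans (hrb.trans inter_subset_right)
    · intro x hx w hw
      have : w ∈ v := (hrb (by rw [show 2 * (r / 2) = r by ring] at hw; exact hw)).1
      exact huv (show (x, w) ∈ u ×ˢ v from ⟨hx, this⟩)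
  choose! u hu ε hε hεU hLE using claim
  have hGc : ContinuousOn (GF a) (U ×ˢ (univ : Set ℂ)) := (GF_diff ha univ).continuousOn
  have hO : IsOpen {p : E × ℂ | p.1 ∈ U ∧ GF a p ≠ 0} := by
    have : {p : E × ℂ | p.1 ∈ U ∧ GF a p ≠ 0} = (U ×ˢ (univ : Set ℂ)) ∩ GF a ⁻¹' {0}ᶜ := by
      ext p; simp
    rw [this]
    exact hGc.isOpen_inter_preimage (hU.prod isOpen_univ) isOpen_compl_singleton
  have hsph0 : ∀ ζ, (MP a x0).eval ζ = 0 → ∀ w ∈ sphere ζ (ε ζ), (MP a x0).eval w ≠ 0 := by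
    intro ζ hζ w hw h0
    have hne : w ≠ ζ := by
      intro h'
      rw [h', mem_sphere, dist_self] at hw
      exact (hε ζ hζ).ne hw
    have h1 : w ∈ Us ζ := hεU ζ hζ (sphere_subset_closedBall hw)
    have h2 : w ∈ Us w := (hUs w).1
    exact (hdisj ((hmem w).2 h0) ((hmem ζ).2 hζ) hne).le_bot ⟨h2, h1⟩
  have claim2 : ∀ ζ, (MP a x0).eval ζ = 0 → ∃ u' W : _, IsOpen u' ∧ x0 ∈ u' ∧ IsOpen W ∧
      sphere ζ (ε ζ) ⊆ W ∧ W ⊆ ball ζ (2 * ε ζ) ∧ ∀ x ∈ u', ∀ w ∈ W, x ∈ U ∧ GF a (x, w) ≠ 0 := by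
    intro ζ hζ
    obtain ⟨u', W, hu', hW, hxu', hsW, huW⟩ := generalized_tube_lemma
      (isCompact_singleton (x := x0)) (isCompact_sphere ζ (ε ζ)) hO
      (by
        rintro ⟨x, w⟩ ⟨hx, hw⟩
        rw [mem_singleton_iff] at hx
        change x = x0 at hx
        subst hx
        exact ⟨hx0, hsph0 ζ hζ w hw⟩)
    refine ⟨u', W ∩ ball ζ (2 * ε ζ), hu', hxu' rfl, hW.inter isOpen_ball, ?_, inter_subset_right, ?_⟩
    · intro w hw
      refine ⟨hsW hw, ?_⟩
      rw [mem_ball, mem_sphere.1 hw]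
      linarith [hε ζ hζ]
    · intro x hx w hw
      exact huW (show (x, w) ∈ u' ×ˢ W from ⟨hx, hw.1⟩)
  choose! u' W hu'o hxu' hWo hsW hWb huW using claim2
  have hroots := roots_near hU ha hx0 (ε := ε) hε
  have hall : ∀ᶠ x in 𝓝 x0, x ∈ U ∧ (∀ ζ ∈ Rf, x ∈ u ζ ∧ x ∈ u' ζ) ∧
      ∀ z, (MP a x).eval z = 0 → ∃ ζ, (MP a x0).eval ζ = 0 ∧ z ∈ ball ζ (ε ζ) := by
    refine Filter.Eventually.and (hU.mem_nhds hx0) (Filter.Eventually.and ?_ hroots)
    refine (Filter.eventually_all_finset Rf).2 fun ζ hζ => ?_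
    exact Filter.Eventually.and (hu ζ ((hmem ζ).1 hζ))
      ((hu'o ζ ((hmem ζ).1 hζ)).mem_nhds (hxu' ζ ((hmem ζ).1 hζ)))
  obtain ⟨N, hN, hNo, hxN⟩ := _root_.eventually_nhds_iff.1 hall
  refine ⟨N, hNo, hxN, fun x hx => (hN x hx).1,
    fun l x => ∑ ζ ∈ Rf, (2 * Real.pi * Complex.I : ℂ)⁻¹ *
      ∮ w in C(ζ, ε ζ), H ζ (x, w) * bq a l x w / GF a (x, w), ?_, ?_⟩
  · -- holomorphy
    intro l
    refine DifferentiableOn.fun_sum fun ζ hζR => ?_
    have hζ := (hmem ζ).1 hζR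
    refine DifferentiableOn.const_mul ?_ _
    refine Vale.Agent.P268.differentiableOn_circleIntegral
      (G := fun p : E × ℂ => H ζ p * bq a l p.1 p.2 / GF a p) (hε ζ hζ).le hNo (hWo ζ hζ)
      (hsW ζ hζ) ?_
    have hNU : N ⊆ U := fun x hx => (hN x hx).1
    simp only [div_eq_mul_inv]
    refine DifferentiableOn.fun_mul (DifferentiableOn.fun_mul ?_ ?_) (DifferentiableOn.fun_inv ?_ ?_)
    · rintro ⟨x, w⟩ ⟨hx, hw⟩
      exact ((hLE ζ hζ x ((hN x hx).2.1 ζ hζR).1 w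
        (hWb ζ hζ hw)).1.differentiableAt).differentiableWithinAt
    · exact bq_diff (fun j => (ha j).mono hNU) l _
    · exact GF_diff (fun j => (ha j).mono hNU) _
    · rintro ⟨x, w⟩ ⟨hx, hw⟩
      exact (huW ζ hζ x ((hN x hx).2.1 ζ hζR).2 w hw).2
  · -- Hermite property
    intro x hx
    obtain ⟨hxU, hxu, hxr⟩ := hN x hx
    refine ⟨degree_sum_fin_lt _, ?_⟩
    intro ζ' hζ'
    obtain ⟨ζ1, hζ1, hζ'1⟩ := hxr ζ' hζ'
    have hζ1R : ζ1 ∈ Rf := (hmem ζ1).2 hζ1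
    have hb2 : ball ζ1 (ε ζ1) ⊆ ball ζ1 (2 * ε ζ1) := ball_subset_ball (by linarith [hε ζ1 hζ1])
    refine ⟨H ζ1, hLE ζ1 hζ1 x (hxu ζ1 hζ1R).1 ζ' (hb2 hζ'1), ?_⟩
    -- continuity of the data on the circles
    have hHc : ∀ ζ ∈ Rf, ∀ w ∈ ball ζ (2 * ε ζ), DifferentiableAt ℂ (fun w => H ζ (x, w)) w := by
      intro ζ hζR w hw
      have h1 := (hLE ζ ((hmem ζ).1 hζR) x (hxu ζ hζR).1 w hw).1.differentiableAt
      exact h1.comp w (by fun_prop : DifferentiableAt ℂ (fun w : ℂ => ((x, w) : E × ℂ)) w)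
    have hsph2 : ∀ ζ ∈ Rf, closedBall ζ (ε ζ) ⊆ ball ζ (2 * ε ζ) := fun ζ hζR =>
      closedBall_subset_ball (by linarith [hε ζ ((hmem ζ).1 hζR)])
    have hHcs : ∀ ζ ∈ Rf, ContinuousOn (fun w => H ζ (x, w)) (sphere ζ (ε ζ)) := fun ζ hζR w hw =>
      (hHc ζ hζR w (hsph2 ζ hζR (sphere_subset_closedBall hw))).continuousAt.continuousWithinAt
    have hPc : ∀ s : Set ℂ, ContinuousOn (fun w => GF a (x, w)) s := fun s =>
      ((MP a x).continuous).continuousOn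
    have hPne : ∀ ζ ∈ Rf, ∀ w ∈ sphere ζ (ε ζ), GF a (x, w) ≠ 0 := fun ζ hζR w hw =>
      (huW ζ ((hmem ζ).1 hζR) x (hxu ζ hζR).2 w (hsW ζ ((hmem ζ).1 hζR) hw)).2
    -- points of the ball around `ζ1` are off the other discs
    have hoff : ∀ ζ ∈ Rf, ζ ≠ ζ1 → ∀ z ∈ ball ζ1 (ε ζ1), z ∉ closedBall ζ (ε ζ) := by
      intro ζ hζR hne z hz hz'
      have h1 : z ∈ Us ζ1 := hεU ζ1 hζ1 (ball_subset_closedBall hz)
      have h2 : z ∈ Us ζ := hεU ζ ((hmem ζ).1 hζR) hz'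
      exact (hdisj hζR hζ1R hne).le_bot ⟨h2, h1⟩
    have hoffs : ∀ ζ ∈ Rf, ∀ z ∈ ball ζ1 (ε ζ1), z ∉ sphere ζ (ε ζ) := by
      intro ζ hζR z hz hz'
      by_cases hne : ζ = ζ1
      · subst hne
        rw [mem_ball, mem_sphere.1 hz'] at hz
        exact lt_irrefl _ hz
      · exact hoff ζ hζR hne z hz (sphere_subset_closedBall hz')
    -- bound for the Cauchy type integrals
    have hbdd : ∀ ζ, ζ ∈ Rf → ∃ Cζ : ℝ, 0 ≤ Cζ ∧ ∀ᶠ z in 𝓝 ζ',
        ‖∮ w in C(ζ, ε ζ), (H ζ (x, w) / GF a (x, w)) / (w - z)‖ ≤ Cζ := fun ζ hζR =>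
      circle_bdd (hε ζ ((hmem ζ).1 hζR)) ((hHcs ζ hζR).div (hPc _) (hPne ζ hζR))
        (hoffs ζ hζR ζ' hζ'1)
    choose! Cb hCb0 hCb using hbdd
    refine ⟨∑ ζ ∈ Rf, ‖(2 * Real.pi * Complex.I : ℂ)⁻¹‖ * Cb ζ, ?_⟩
    filter_upwards [isOpen_ball.mem_nhds hζ'1, (Filter.eventually_all_finset Rf).2 hCb] with z hz hzb
    -- evaluation of the Hermite polynomial
    have key : (∑ l : Fin d, C (∑ ζ ∈ Rf, (2 * Real.pi * Complex.I : ℂ)⁻¹ *
        ∮ w in C(ζ, ε ζ), H ζ (x, w) * bq a l x w / GF a (x, w)) * X ^ (l : ℕ)).eval z =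
        H ζ1 (x, z) - (MP a x).eval z * ∑ ζ ∈ Rf, (2 * Real.pi * Complex.I : ℂ)⁻¹ *
          ∮ w in C(ζ, ε ζ), (H ζ (x, w) / GF a (x, w)) / (w - z) := by
      have e1 : (∑ l : Fin d, C (∑ ζ ∈ Rf, (2 * Real.pi * Complex.I : ℂ)⁻¹ *
          ∮ w in C(ζ, ε ζ), H ζ (x, w) * bq a l x w / GF a (x, w)) * X ^ (l : ℕ)).eval z =
          ∑ ζ ∈ Rf, (2 * Real.pi * Complex.I : ℂ)⁻¹ * ∮ w in C(ζ, ε ζ),
            H ζ (x, w) * (∑ l ∈ Finset.range d, bq a l x w * z ^ l) / GF a (x, w) := by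
        simp only [eval_finset_sum, eval_mul, eval_C, eval_pow, eval_X, Finset.sum_mul]
        rw [Finset.sum_comm]
        refine Finset.sum_congr rfl fun ζ hζR => ?_
        have hζ := (hmem ζ).1 hζR
        rw [Fin.sum_univ_eq_sum_range (fun l => (2 * Real.pi * Complex.I : ℂ)⁻¹ *
          (∮ w in C(ζ, ε ζ), H ζ (x, w) * bq a l x w / GF a (x, w)) * z ^ l) d]
        have hci : ∀ l ∈ Finset.range d, CircleIntegrable
            (fun w => H ζ (x, w) * bq a l x w / GF a (x, w) * z ^ l) ζ (ε ζ) := by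
          intro l _
          refine ContinuousOn.circleIntegrable (hε ζ hζ).le ?_
          refine ContinuousOn.mul (ContinuousOn.div ((hHcs ζ hζR).mul ?_) (hPc _) (hPne ζ hζR))
            continuousOn_const
          unfold bq
          refine continuousOn_finset_sum _ fun j _ => ?_
          split_ifs <;> fun_prop
        have e2 : (∮ w in C(ζ, ε ζ),
            H ζ (x, w) * (∑ l ∈ Finset.range d, bq a l x w * z ^ l) / GF a (x, w)) =
            ∮ w in C(ζ, ε ζ), ∑ l ∈ Finset.range d,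
              H ζ (x, w) * bq a l x w / GF a (x, w) * z ^ l := by
          refine circleIntegral.integral_congr (hε ζ hζ).le fun w _ => ?_
          rw [Finset.mul_sum, Finset.sum_div]
          refine Finset.sum_congr rfl fun l _ => ?_
          ring
        rw [e2, circleIntegral.integral_fun_sum hci, Finset.mul_sum]
        refine Finset.sum_congr rfl fun l _ => ?_
        simp only [mul_comm _ (z ^ l)]
        rw [circleIntegral.integral_const_mul]
        ring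
      rw [e1]
      have e3 : ∀ ζ ∈ Rf, (∮ w in C(ζ, ε ζ),
            H ζ (x, w) * (∑ l ∈ Finset.range d, bq a l x w * z ^ l) / GF a (x, w)) =
          (if ζ = ζ1 then (2 * Real.pi * Complex.I) * H ζ1 (x, z) else 0) - (MP a x).eval z *
            ∮ w in C(ζ, ε ζ), (H ζ (x, w) / GF a (x, w)) / (w - z) := by
        intro ζ hζR
        have hζ := (hmem ζ).1 hζR
        rw [circ_split (f := fun w => H ζ (x, w)) (P := fun w => GF a (x, w)) (z := z)
          (B := fun w => ∑ l ∈ Finset.range d, bq a l x w * z ^ l) (Pz := (MP a x).eval z)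
          (hε ζ hζ).le (hHcs ζ hζR) (hPc _) (hPne ζ hζR)
          (fun w hw h' => hoffs ζ hζR z hz (h' ▸ hw)) (fun w => bq_sum a x w z)]
        congr 1
        split_ifs with hc
        · subst hc
          have hd : DifferentiableOn ℂ (fun w => H ζ (x, w)) (closedBall ζ (ε ζ)) := fun w hw =>
            (hHc ζ hζR w (hsph2 ζ hζR hw)).differentiableWithinAt
          have := hd.circleIntegral_sub_inv_smul hz
          rw [this, smul_eq_mul]
        · have hd : DifferentiableOn ℂ (fun w => (w - z)⁻¹ • H ζ (x, w)) (closedBall ζ (ε ζ)) := by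
            intro w hw
            refine (DifferentiableAt.fun_smul ?_ (hHc ζ hζR w (hsph2 ζ hζR hw))).differentiableWithinAt
            refine DifferentiableAt.fun_inv (by fun_prop) ?_
            refine sub_ne_zero.2 fun h' => ?_
            exact hoff ζ hζR hc z hz (h' ▸ hw)
          exact Complex.circleIntegral_eq_zero_of_differentiable_on_off_countable (hε ζ hζ).le
            countable_empty hd.continuousOn
            (fun w hw => hd.differentiableAt (mem_of_superset (isOpen_ball.mem_nhds hw.1)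
              ball_subset_closedBall))
      rw [Finset.sum_congr rfl fun ζ hζR => by rw [e3 ζ hζR]]
      simp only [mul_sub, Finset.sum_sub_distrib, Finset.mul_sum]
      congr 1
      · simp only [mul_ite, mul_zero]
        rw [Finset.sum_ite_eq' Rf ζ1, if_pos hζ1R]
        have : (2 * Real.pi * Complex.I : ℂ) ≠ 0 := Complex.two_pi_I_ne_zero
        field_simp
      · refine Finset.sum_congr rfl fun ζ _ => ?_
        ring
    rw [key]
    rw [sub_sub_cancel, norm_mul, mul_comm]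
    refine mul_le_mul_of_nonneg_right ?_ (norm_nonneg _)
    refine (norm_sum_le _ _).trans (Finset.sum_le_sum fun ζ hζR => ?_)
    rw [norm_mul]
    exact mul_le_mul_of_nonneg_left (hzb ζ hζR) (norm_nonneg _)

end Vale.Agent.P298.H845
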