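import Mathlib

/-!
# P298 (helper845), block LC, flag step: plane sections of ternary cubic forms

Either some plane section of a ternary cubic form `c` has three distinct roots, or
`c = l² m` with linear forms `l`, `m`.
-/

namespace Vale.Agent.P298.H845

/-- ternary cubic form with coefficients `a` -/
def cubForm (a : Fin 10 → ℂ) (x : Fin 3 → ℂ) : ℂ :=
  a 0 * x 1 ^ 3 + a 1 * (x 1 ^ 2 * x 0) + a 2 * (x 1 ^ 2 * x 2) + a 3 * (x 1 * x 0 ^ 2) +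
  a 4 * (x 1 * x 0 * x 2) + a 5 * (x 1 * x 2 ^ 2) + a 6 * x 0 ^ 3 + a 7 * (x 0 ^ 2 * x 2) +
  a 8 * (x 0 * x 2 ^ 2) + a 9 * x 2 ^ 3

/-- `c` is a ternary cubic form -/
def IsCub (c : (Fin 3 → ℂ) → ℂ) : Prop := ∃ a, ∀ x, c x = cubForm a x

/-- a linear change of coordinates from a matrix -/
theorem exists_clequiv (M : Matrix (Fin 3) (Fin 3) ℂ) (h : M.det ≠ 0) :
    ∃ T : (Fin 3 → ℂ) ≃L[ℂ] (Fin 3 → ℂ), ∀ x, T x = M.mulVec x := by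
  have hu : IsUnit M.det := isUnit_iff_ne_zero.2 h
  refine ⟨(Matrix.toLinearEquiv' M (M.invertibleOfIsUnitDet hu)).toContinuousLinearEquiv,
    fun x => ?_⟩
  rfl

theorem isCub_comp {c : (Fin 3 → ℂ) → ℂ} (hc : IsCub c) (T : (Fin 3 → ℂ) ≃L[ℂ] (Fin 3 → ℂ)) :
    IsCub fun x => c (T x) := by
  obtain ⟨a, ha⟩ := hc
  set u := T (Pi.single 0 1) with hu
  set v := T (Pi.single 1 1) with hv
  set w := T (Pi.single 2 1) with hw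
  have hT : ∀ x, T x = x 0 • u + x 1 • v + x 2 • w := by
    intro x
    have h1 : x = x 0 • Pi.single 0 (1 : ℂ) + x 1 • Pi.single 1 (1 : ℂ) +
        x 2 • (Pi.single 2 (1 : ℂ) : Fin 3 → ℂ) := by
      funext i
      fin_cases i <;> simp
    conv_lhs => rw [h1]
    rw [map_add, map_add, map_smul, map_smul, map_smul]
  have h2 : ∀ x i, T x i = x 0 * u i + x 1 * v i + x 2 * w i := by
    intro x i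
    rw [hT x]
    simp
  refine ⟨![cubForm a v,
    3 * a 0 * v 1 ^ 2 * u 1 + a 1 * (2 * v 1 * u 1 * v 0 + v 1 ^ 2 * u 0) +
      a 2 * (2 * v 1 * u 1 * v 2 + v 1 ^ 2 * u 2) + a 3 * (u 1 * v 0 ^ 2 + 2 * v 1 * v 0 * u 0) +
      a 4 * (u 1 * v 0 * v 2 + v 1 * u 0 * v 2 + v 1 * v 0 * u 2) +
      a 5 * (u 1 * v 2 ^ 2 + 2 * v 1 * v 2 * u 2) + 3 * a 6 * v 0 ^ 2 * u 0 +
      a 7 * (2 * v 0 * u 0 * v 2 + v 0 ^ 2 * u 2) + a 8 * (u 0 * v 2 ^ 2 + 2 * v 0 * v 2 * u 2) +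
      3 * a 9 * v 2 ^ 2 * u 2,
    3 * a 0 * v 1 ^ 2 * w 1 + a 1 * (2 * v 1 * w 1 * v 0 + v 1 ^ 2 * w 0) +
      a 2 * (2 * v 1 * w 1 * v 2 + v 1 ^ 2 * w 2) + a 3 * (w 1 * v 0 ^ 2 + 2 * v 1 * v 0 * w 0) +
      a 4 * (w 1 * v 0 * v 2 + v 1 * w 0 * v 2 + v 1 * v 0 * w 2) +
      a 5 * (w 1 * v 2 ^ 2 + 2 * v 1 * v 2 * w 2) + 3 * a 6 * v 0 ^ 2 * w 0 +
      a 7 * (2 * v 0 * w 0 * v 2 + v 0 ^ 2 * w 2) + a 8 * (w 0 * v 2 ^ 2 + 2 * v 0 * v 2 * w 2) +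
      3 * a 9 * v 2 ^ 2 * w 2,
    3 * a 0 * u 1 ^ 2 * v 1 + a 1 * (2 * u 1 * v 1 * u 0 + u 1 ^ 2 * v 0) +
      a 2 * (2 * u 1 * v 1 * u 2 + u 1 ^ 2 * v 2) + a 3 * (v 1 * u 0 ^ 2 + 2 * u 1 * u 0 * v 0) +
      a 4 * (v 1 * u 0 * u 2 + u 1 * v 0 * u 2 + u 1 * u 0 * v 2) +
      a 5 * (v 1 * u 2 ^ 2 + 2 * u 1 * u 2 * v 2) + 3 * a 6 * u 0 ^ 2 * v 0 +
      a 7 * (2 * u 0 * v 0 * u 2 + u 0 ^ 2 * v 2) + a 8 * (v 0 * u 2 ^ 2 + 2 * u 0 * u 2 * v 2) +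
      3 * a 9 * u 2 ^ 2 * v 2,
    6 * a 0 * u 1 * v 1 * w 1 + 2 * a 1 * (u 1 * v 1 * w 0 + u 1 * w 1 * v 0 + v 1 * w 1 * u 0) +
      2 * a 2 * (u 1 * v 1 * w 2 + u 1 * w 1 * v 2 + v 1 * w 1 * u 2) +
      2 * a 3 * (u 1 * v 0 * w 0 + v 1 * u 0 * w 0 + w 1 * u 0 * v 0) +
      a 4 * (u 1 * v 0 * w 2 + u 1 * w 0 * v 2 + v 1 * u 0 * w 2 + v 1 * w 0 * u 2 +
        w 1 * u 0 * v 2 + w 1 * v 0 * u 2) +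
      2 * a 5 * (u 1 * v 2 * w 2 + v 1 * u 2 * w 2 + w 1 * u 2 * v 2) +
      6 * a 6 * u 0 * v 0 * w 0 + 2 * a 7 * (u 0 * v 0 * w 2 + u 0 * w 0 * v 2 + v 0 * w 0 * u 2) +
      2 * a 8 * (u 0 * v 2 * w 2 + v 0 * u 2 * w 2 + w 0 * u 2 * v 2) +
      6 * a 9 * u 2 * v 2 * w 2,
    3 * a 0 * w 1 ^ 2 * v 1 + a 1 * (2 * w 1 * v 1 * w 0 + w 1 ^ 2 * v 0) +
      a 2 * (2 * w 1 * v 1 * w 2 + w 1 ^ 2 * v 2) + a 3 * (v 1 * w 0 ^ 2 + 2 * w 1 * w 0 * v 0) +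
      a 4 * (v 1 * w 0 * w 2 + w 1 * v 0 * w 2 + w 1 * w 0 * v 2) +
      a 5 * (v 1 * w 2 ^ 2 + 2 * w 1 * w 2 * v 2) + 3 * a 6 * w 0 ^ 2 * v 0 +
      a 7 * (2 * w 0 * v 0 * w 2 + w 0 ^ 2 * v 2) + a 8 * (v 0 * w 2 ^ 2 + 2 * w 0 * w 2 * v 2) +
      3 * a 9 * w 2 ^ 2 * v 2,
    cubForm a u,
    3 * a 0 * u 1 ^ 2 * w 1 + a 1 * (2 * u 1 * w 1 * u 0 + u 1 ^ 2 * w 0) +
      a 2 * (2 * u 1 * w 1 * u 2 + u 1 ^ 2 * w 2) + a 3 * (w 1 * u 0 ^ 2 + 2 * u 1 * u 0 * w 0) +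
      a 4 * (w 1 * u 0 * u 2 + u 1 * w 0 * u 2 + u 1 * u 0 * w 2) +
      a 5 * (w 1 * u 2 ^ 2 + 2 * u 1 * u 2 * w 2) + 3 * a 6 * u 0 ^ 2 * w 0 +
      a 7 * (2 * u 0 * w 0 * u 2 + u 0 ^ 2 * w 2) + a 8 * (w 0 * u 2 ^ 2 + 2 * u 0 * u 2 * w 2) +
      3 * a 9 * u 2 ^ 2 * w 2,
    3 * a 0 * w 1 ^ 2 * u 1 + a 1 * (2 * w 1 * u 1 * w 0 + w 1 ^ 2 * u 0) +
      a 2 * (2 * w 1 * u 1 * w 2 + w 1 ^ 2 * u 2) + a 3 * (u 1 * w 0 ^ 2 + 2 * w 1 * w 0 * u 0) +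
      a 4 * (u 1 * w 0 * w 2 + w 1 * u 0 * w 2 + w 1 * w 0 * u 2) +
      a 5 * (u 1 * w 2 ^ 2 + 2 * w 1 * w 2 * u 2) + 3 * a 6 * w 0 ^ 2 * u 0 +
      a 7 * (2 * w 0 * u 0 * w 2 + w 0 ^ 2 * u 2) + a 8 * (u 0 * w 2 ^ 2 + 2 * w 0 * w 2 * u 2) +
      3 * a 9 * w 2 ^ 2 * u 2,
    cubForm a w], fun x => ?_⟩
  change c (T x) = _
  rw [ha]
  unfold cubForm
  rw [h2 x 0, h2 x 1, h2 x 2]
  simp only [Matrix.cons_val]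
  ring

end Vale.Agent.P298.H845
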