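import Vale.Agent.P298.H845.Flg1

/-!
# P298 (helper845), block LC, flag step: the dichotomy for ternary cubic forms
-/

namespace Vale.Agent.P298.H845

/-- extraction of the coefficients of a polynomial of degree four -/
theorem coeffs_zero {q0 q1 q2 q3 q4 : ℂ}
    (h : ∀ l : ℂ, l ≠ 0 → q0 + q1 * l + q2 * l ^ 2 + q3 * l ^ 3 + q4 * l ^ 4 = 0) :
    q0 = 0 ∧ q1 = 0 ∧ q2 = 0 ∧ q3 = 0 ∧ q4 = 0 := by
  have h1 := h 1 one_ne_zero
  have h2 := h (-1) (by norm_num)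
  have h3 := h 2 (by norm_num)
  have h4 := h (-2) (by norm_num)
  have h5 := h 3 (by norm_num)
  refine ⟨?_, ?_, ?_, ?_, ?_⟩
  · linear_combination h1 + (1/2) * h2 - (1/2) * h3 - (1/10) * h4 + (1/10) * h5
  · linear_combination (2/3) * h1 - (2/3) * h2 - (1/12) * h3 + (1/12) * h4
  · linear_combination (-7/12) * h1 + (1/24) * h2 + (7/12) * h3 + (1/12) * h4 - (1/8) * h5
  · linear_combination (-1/6) * h1 + (1/6) * h2 + (1/12) * h3 - (1/12) * h4
  · linear_combination (1/12) * h1 - (1/24) * h2 - (1/12) * h3 + (1/60) * h4 + (1/40) * h5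

theorem quad_root (a b c : ℂ) :
    ∃ s t : ℂ, (s ≠ 0 ∨ t ≠ 0) ∧ a * s ^ 2 + b * (s * t) + c * t ^ 2 = 0 := by
  by_cases ha : a = 0
  · exact ⟨1, 0, Or.inl one_ne_zero, by rw [ha]; ring⟩
  · obtain ⟨w, hw⟩ := IsAlgClosed.exists_pow_nat_eq (b ^ 2 - 4 * a * c) (n := 2) (by norm_num)
    refine ⟨(-b + w) / (2 * a), 1, Or.inr one_ne_zero, ?_⟩
    field_simp
    linear_combination hw

theorem cubForm_smul (a : Fin 10 → ℂ) (l : ℂ) (x : Fin 3 → ℂ) :
    cubForm a (l • x) = l ^ 3 * cubForm a x := by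
  simp only [cubForm, Pi.smul_apply, smul_eq_mul]
  ring

/-- depressed form -/
theorem exists_depressed {c : (Fin 3 → ℂ) → ℂ} (hc : IsCub c) {v : Fin 3 → ℂ} (hv : c v ≠ 0) :
    ∃ (T : (Fin 3 → ℂ) ≃L[ℂ] (Fin 3 → ℂ)) (α0 α1 α2 β0 β1 β2 β3 : ℂ), ∀ x, c (T x) =
      x 1 ^ 3 + x 1 * (α0 * x 0 ^ 2 + α1 * (x 0 * x 2) + α2 * x 2 ^ 2) +
      (β0 * x 0 ^ 3 + β1 * (x 0 ^ 2 * x 2) + β2 * (x 0 * x 2 ^ 2) + β3 * x 2 ^ 3) := by
  obtain ⟨w, hw⟩ := IsAlgClosed.exists_pow_nat_eq (c v)⁻¹ (n := 3) (by norm_num)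
  have hw0 : c (w • v) = 1 := by
    obtain ⟨a, ha⟩ := hc
    rw [ha, cubForm_smul, ← ha, hw, inv_mul_cancel₀ hv]
  have hwv : w • v ≠ 0 := by
    intro h
    obtain ⟨a, ha⟩ := hc
    rw [h, ha] at hw0
    simp [cubForm] at hw0
  have he : (Pi.single 1 1 : Fin 3 → ℂ) ≠ 0 := by
    intro h
    have := congrFun h 1
    simp at this
  obtain ⟨T1, hT1⟩ := SeparatingDual.exists_continuousLinearEquiv_apply_eq (R := ℂ) he hwv
  obtain ⟨a, ha⟩ := isCub_comp hc T1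
  have ha0 : a 0 = 1 := by
    have h1 := ha (Pi.single 1 1)
    simp only [] at h1
    rw [hT1, hw0] at h1
    rw [h1]
    simp [cubForm]
  obtain ⟨T2, hT2⟩ := exists_clequiv !![1, 0, 0; -a 1 / 3, 1, -a 2 / 3; 0, 0, 1] (by
    rw [Matrix.det_fin_three]
    simp)
  refine ⟨T2.trans T1, a 3 - a 1 ^ 2 / 3, a 4 - 2 * a 1 * a 2 / 3, a 5 - a 2 ^ 2 / 3,
    a 6 - a 1 * a 3 / 3 + 2 * a 1 ^ 3 / 27,
    a 7 - (a 1 * a 4 + a 2 * a 3) / 3 + 6 * a 1 ^ 2 * a 2 / 27,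
    a 8 - (a 1 * a 5 + a 2 * a 4) / 3 + 6 * a 1 * a 2 ^ 2 / 27,
    a 9 - a 2 * a 5 / 3 + 2 * a 2 ^ 3 / 27, fun x => ?_⟩
  change c (T1 (T2 x)) = _
  have h1 := ha (T2 x)
  simp only [] at h1
  rw [h1]
  have e0 : T2 x 0 = x 0 := by
    rw [hT2]
    simp [Matrix.mulVec, dotProduct, Fin.sum_univ_three]
  have e1 : T2 x 1 = -a 1 / 3 * x 0 + x 1 + -a 2 / 3 * x 2 := by
    rw [hT2]
    simp [Matrix.mulVec, dotProduct, Fin.sum_univ_three]
  have e2 : T2 x 2 = x 2 := by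
    rw [hT2]
    simp [Matrix.mulVec, dotProduct, Fin.sum_univ_three]
  unfold cubForm
  rw [e0, e1, e2, ha0]
  ring

/-- **Dichotomy for ternary cubic forms.** Either some plane section of `c` has three distinct
roots, or `c` is divisible by the square of a linear form. -/
theorem dichotomy {c : (Fin 3 → ℂ) → ℂ} (hc : IsCub c) :
    (∃ (T : (Fin 3 → ℂ) ≃L[ℂ] (Fin 3 → ℂ)) (p q : ℂ), 4 * p ^ 3 + 27 * q ^ 2 ≠ 0 ∧
      ∀ y z : ℂ, c (T ![y, z, 0]) = z ^ 3 + p * (y ^ 2 * z) + q * y ^ 3) ∨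
    (∃ (T : (Fin 3 → ℂ) ≃L[ℂ] (Fin 3 → ℂ)) (a b : ℂ), ∀ x, c (T x) =
      x 1 ^ 2 * (a * x 1 + b * x 2)) := by
  by_cases hz : ∀ v, c v = 0
  · right
    exact ⟨ContinuousLinearEquiv.refl ℂ _, 0, 0, fun x => by rw [hz]; ring⟩
  push Not at hz
  obtain ⟨v, hv⟩ := hz
  obtain ⟨T, α0, α1, α2, β0, β1, β2, β3, hT⟩ := exists_depressed hc hv
  set A : ℂ → ℂ → ℂ := fun s t => α0 * s ^ 2 + α1 * (s * t) + α2 * t ^ 2 with hA
  set B : ℂ → ℂ → ℂ := fun s t => β0 * s ^ 3 + β1 * (s ^ 2 * t) + β2 * (s * t ^ 2) + β3 * t ^ 3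
    with hB
  by_cases hex : ∃ s t, 4 * A s t ^ 3 + 27 * B s t ^ 2 ≠ 0
  · left
    obtain ⟨s, t, hst⟩ := hex
    have key : ∀ T' : (Fin 3 → ℂ) ≃L[ℂ] (Fin 3 → ℂ),
        (∀ y z : ℂ, T' ![y, z, 0] = ![s * y, z, t * y]) →
        ∀ y z : ℂ, c ((T'.trans T) ![y, z, 0]) = z ^ 3 + A s t * (y ^ 2 * z) + B s t * y ^ 3 := by
      intro T' h1 y z
      change c (T (T' ![y, z, 0])) = _
      rw [h1, hT]
      simp only [hA, hB, Matrix.cons_val]
      ring
    by_cases hs : s = 0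
    · have ht : t ≠ 0 := by
        rintro rfl
        apply hst
        simp [hA, hB, hs]
      obtain ⟨T', hT'⟩ := exists_clequiv !![s, 0, 1; 0, 1, 0; t, 0, 0] (by
        rw [Matrix.det_fin_three]
        simpa using ht)
      refine ⟨T'.trans T, A s t, B s t, hst, key T' fun y z => ?_⟩
      rw [hT']
      funext i
      fin_cases i <;> simp [Matrix.mulVec, dotProduct, Fin.sum_univ_three]
    · obtain ⟨T', hT'⟩ := exists_clequiv !![s, 0, 0; 0, 1, 0; t, 0, 1] (by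
        rw [Matrix.det_fin_three]
        simpa using hs)
      refine ⟨T'.trans T, A s t, B s t, hst, key T' fun y z => ?_⟩
      rw [hT']
      funext i
      fin_cases i <;> simp [Matrix.mulVec, dotProduct, Fin.sum_univ_three]
  · right
    push Not at hex
    obtain ⟨s, t, hst, h0⟩ := quad_root α0 α1 α2
    have hA0 : A s t = 0 := h0
    have hB0 : B s t = 0 := by
      have h1 := hex s t
      rw [hA0] at h1
      have h2 : B s t ^ 2 = 0 := by linear_combination (1 / 27) * h1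
      exact pow_eq_zero_iff (two_ne_zero) |>.1 h2
    obtain ⟨s', t', hd⟩ : ∃ s' t' : ℂ, s * t' - s' * t ≠ 0 := by
      rcases hst with h | h
      · exact ⟨0, 1, by simpa using h⟩
      · exact ⟨1, 0, by simpa using h⟩
    set A1 : ℂ := 2 * α0 * s * s' + α1 * (s * t' + s' * t) + 2 * α2 * t * t' with hA1
    set B1 : ℂ := 3 * β0 * s ^ 2 * s' + β1 * (2 * s * s' * t + s ^ 2 * t') +
      β2 * (s' * t ^ 2 + 2 * s * t * t') + 3 * β3 * t ^ 2 * t' with hB1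
    set B2 : ℂ := 3 * β0 * s * s' ^ 2 + β1 * (2 * s * s' * t' + s' ^ 2 * t) +
      β2 * (s * t' ^ 2 + 2 * s' * t * t') + 3 * β3 * t * t' ^ 2 with hB2
    have eA : ∀ σ τ : ℂ, A (σ * s + τ * s') (σ * t + τ * t') = σ ^ 2 * A s t + σ * τ * A1 +
        τ ^ 2 * A s' t' := by
      intro σ τ
      simp only [hA, hA1]
      ring
    have eB : ∀ σ τ : ℂ, B (σ * s + τ * s') (σ * t + τ * t') = σ ^ 3 * B s t +
        σ ^ 2 * τ * B1 + σ * τ ^ 2 * B2 + τ ^ 3 * B s' t' := by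
      intro σ τ
      simp only [hB, hB1, hB2]
      ring
    set A2 := A s' t' with hA2
    set B3 := B s' t' with hB3
    have hpoly : ∀ l : ℂ, l ≠ 0 → 27 * B1 ^ 2 + (4 * A1 ^ 3 + 54 * B1 * B2) * l +
        (12 * A1 ^ 2 * A2 + 27 * (B2 ^ 2 + 2 * B1 * B3)) * l ^ 2 +
        (12 * A1 * A2 ^ 2 + 54 * B2 * B3) * l ^ 3 + (4 * A2 ^ 3 + 27 * B3 ^ 2) * l ^ 4 = 0 := by
      intro l hl
      have h1 := hex (1 * s + l * s') (1 * t + l * t')
      rw [eA, eB, hA0, hB0] at h1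
      have h2 : l ^ 2 ≠ 0 := pow_ne_zero _ hl
      refine mul_left_cancel₀ h2 ?_
      rw [mul_zero]
      linear_combination h1
    obtain ⟨h1, h2, h3, -, h5⟩ := coeffs_zero hpoly
    have hB10 : B1 = 0 := by
      have : B1 ^ 2 = 0 := by linear_combination (1 / 27) * h1
      exact pow_eq_zero_iff (two_ne_zero) |>.1 this
    have hA10 : A1 = 0 := by
      rw [hB10] at h2
      have : A1 ^ 3 = 0 := by linear_combination (1 / 4) * h2
      exact pow_eq_zero_iff (three_ne_zero) |>.1 this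
    have hB20 : B2 = 0 := by
      rw [hB10, hA10] at h3
      have : B2 ^ 2 = 0 := by linear_combination (1 / 27) * h3
      exact pow_eq_zero_iff (two_ne_zero) |>.1 this
    obtain ⟨l, hl1, hl2⟩ : ∃ l : ℂ, A2 = -3 * l ^ 2 ∧ B3 = 2 * l ^ 3 := by
      by_cases h6 : A2 = 0
      · refine ⟨0, by rw [h6]; ring, ?_⟩
        rw [h6] at h5
        have : B3 ^ 2 = 0 := by linear_combination (1 / 27) * h5
        rw [pow_eq_zero_iff (two_ne_zero) |>.1 this]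
        ring
      · refine ⟨-3 * B3 / (2 * A2), ?_, ?_⟩
        · field_simp
          linear_combination h5
        · field_simp
          linear_combination B3 * h5
    obtain ⟨T', hT'⟩ := exists_clequiv !![s, 0, s'; 0, 1, l; t, 0, t'] (by
      rw [Matrix.det_fin_three]
      simpa using hd)
    refine ⟨T'.trans T, 1, 3 * l, fun x => ?_⟩
    change c (T (T' x)) = _
    have e0 : T' x 0 = x 0 * s + x 2 * s' := by
      rw [hT']
      simp [Matrix.mulVec, dotProduct, Fin.sum_univ_three]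
      ring
    have e1 : T' x 1 = x 1 + l * x 2 := by
      rw [hT']
      simp [Matrix.mulVec, dotProduct, Fin.sum_univ_three]
    have e2 : T' x 2 = x 0 * t + x 2 * t' := by
      rw [hT']
      simp [Matrix.mulVec, dotProduct, Fin.sum_univ_three]
      ring
    rw [hT, e0, e1, e2]
    have h7 := eA (x 0) (x 2)
    have h8 := eB (x 0) (x 2)
    rw [hA0, hA10, hl1] at h7
    rw [hB0, hB10, hB20, hl2] at h8
    simp only [hA, hB] at h7 h8
    rw [h7, h8]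
    ring

end Vale.Agent.P298.H845
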