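import Vale.Agent.P298.H766.Fps

/-!
# P298 (helper845), block LC, flag step: colength of `(F, G)` in two variables

`F = z³ + p y² z + q y³ + …`, `G = 3 z² + p y² + …` with `4 p³ + 27 q² ≠ 0`: the colength is `6`.
-/

namespace Vale.Agent.P298.H845

open MvPowerSeries Module Vale.Agent.P298.H766

/-- formal power series in two variables -/
abbrev S2 := MvPowerSeries (Fin 2) ℂ

/-- exponents -/
noncomputable def ex (i j : ℕ) : Fin 2 →₀ ℕ := Finsupp.single 0 i + Finsupp.single 1 j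

theorem ex_zero (i j : ℕ) : ex i j 0 = i := by simp [ex]

theorem ex_one (i j : ℕ) : ex i j 1 = j := by simp [ex]

theorem ex_inj {i j i' j' : ℕ} : ex i j = ex i' j' ↔ i = i' ∧ j = j' := by
  constructor
  · intro h
    exact ⟨by rw [← ex_zero i j, h, ex_zero], by rw [← ex_one i j, h, ex_one]⟩
  · rintro ⟨rfl, rfl⟩
    rfl

theorem eq_ex (d : Fin 2 →₀ ℕ) : d = ex (d 0) (d 1) := by
  ext i
  fin_cases i
  · exact (ex_zero _ _).symm
  · exact (ex_one _ _).symm

theorem degree_ex (i j : ℕ) : Finsupp.degree (ex i j) = i + j := by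
  simp [ex]

theorem degree_eq (d : Fin 2 →₀ ℕ) : Finsupp.degree d = d 0 + d 1 := by
  conv_lhs => rw [eq_ex d]
  exact degree_ex _ _

/-- monomials -/
noncomputable def mo (i j : ℕ) : S2 := X 0 ^ i * X 1 ^ j

theorem coeff_mo (a b i j : ℕ) : coeff (ex a b) (mo i j) = if a = i ∧ b = j then 1 else 0 := by
  have h1 : mo i j = monomial (ex i j) 1 := by
    rw [mo, X_pow_eq, X_pow_eq, monomial_mul_monomial, one_mul]
    rfl
  classical
  rw [h1, coeff_monomial]
  simp only [ex_inj]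

theorem mo_mem (i j : ℕ) : mo i j ∈ mR 2 ^ (i + j) := by
  rw [pow_add]
  exact Ideal.mul_mem_mul (Ideal.pow_mem_pow (X_mem_mR 0) i) (Ideal.pow_mem_pow (X_mem_mR 1) j)

theorem mR_pow_le : ∀ (M : ℕ) (J : Ideal S2), (∀ i j, i + j = M → mo i j ∈ J) → mR 2 ^ M ≤ J := by
  intro M
  induction M with
  | zero =>
    intro J h
    have h1 := h 0 0 rfl
    have h2 : mo 0 0 = 1 := by simp [mo]
    rw [h2] at h1
    rw [(Ideal.eq_top_iff_one J).2 h1]
    exact le_top
  | succ M ih =>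
    intro J h
    have key : ∀ (v : Fin 2), ∀ s ∈ mR 2 ^ M, (X v : S2) * s ∈ J := by
      intro v
      have h1 : mR 2 ^ M ≤ Submodule.comap (LinearMap.mulLeft S2 (X v : S2)) J := by
        refine ih _ fun i j hij => ?_
        change (X v : S2) * mo i j ∈ J
        fin_cases v
        · have h2 := h (i + 1) j (by omega)
          have h3 : mo (i + 1) j = (X 0 : S2) * mo i j := by
            simp only [mo]
            ring
          rwa [h3] at h2
        · have h2 := h i (j + 1) (by omega)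
          have h3 : mo i (j + 1) = (X 1 : S2) * mo i j := by
            simp only [mo]
            ring
          rwa [h3] at h2
      exact fun s hs => h1 hs
    rw [pow_succ', Ideal.mul_le]
    intro r hr s hs
    have h1 : mR 2 ≤ Submodule.comap (LinearMap.mulRight S2 s) J := by
      refine Ideal.span_le.2 ?_
      rintro _ ⟨v, rfl⟩
      exact key v s hs
    exact h1 hr

/-- the Taylor coefficients of degree at most three -/
noncomputable def L10 : S2 →ₗ[ℂ] (Fin 10 → ℂ) :=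
  LinearMap.pi ![coeff (ex 0 0), coeff (ex 1 0), coeff (ex 0 1), coeff (ex 2 0), coeff (ex 1 1),
    coeff (ex 0 2), coeff (ex 3 0), coeff (ex 2 1), coeff (ex 1 2), coeff (ex 0 3)]

theorem L10_apply (f : S2) : L10 f = ![coeff (ex 0 0) f, coeff (ex 1 0) f, coeff (ex 0 1) f,
    coeff (ex 2 0) f, coeff (ex 1 1) f, coeff (ex 0 2) f, coeff (ex 3 0) f, coeff (ex 2 1) f,
    coeff (ex 1 2) f, coeff (ex 0 3) f] := by
  funext i
  fin_cases i <;> rfl

theorem L10_ker (f : S2) : L10 f = 0 ↔ f ∈ mR 2 ^ 4 := by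
  constructor
  · intro h
    rw [L10_apply] at h
    refine mem_mR_pow_of_order 4 (le_order fun d hd => ?_)
    have hd' : d 0 + d 1 < 4 := by
      rw [← degree_eq]
      exact_mod_cast hd
    rw [eq_ex d]
    generalize d 0 = a at *
    generalize d 1 = b at *
    have h0 := congrFun h 0
    have h1 := congrFun h 1
    have h2 := congrFun h 2
    have h3 := congrFun h 3
    have h4 := congrFun h 4
    have h5 := congrFun h 5
    have h6 := congrFun h 6
    have h7 := congrFun h 7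
    have h8 := congrFun h 8
    have h9 := congrFun h 9
    simp only [Matrix.cons_val, Pi.zero_apply] at h0 h1 h2 h3 h4 h5 h6 h7 h8 h9
    have ha : a < 4 := by omega
    have hb : b < 4 := by omega
    interval_cases a <;> interval_cases b <;> first | assumption | omega
  · intro h
    have h1 := order_of_mem_mR_pow 4 h
    rw [L10_apply]
    have key : ∀ a b : ℕ, a + b < 4 → coeff (ex a b) f = 0 := by
      intro a b hab
      refine coeff_of_lt_order (lt_of_lt_of_le ?_ h1)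
      rw [degree_ex]
      exact_mod_cast hab
    funext i
    fin_cases i <;> simp [key]

theorem L10_surj : Function.Surjective L10 := by
  intro c
  refine ⟨c 0 • mo 0 0 + c 1 • mo 1 0 + c 2 • mo 0 1 + c 3 • mo 2 0 + c 4 • mo 1 1 +
    c 5 • mo 0 2 + c 6 • mo 3 0 + c 7 • mo 2 1 + c 8 • mo 1 2 + c 9 • mo 0 3, ?_⟩
  rw [L10_apply]
  funext i
  fin_cases i <;> simp [coeff_mo]

/-- first order expansion -/
theorem exists_expand (a : S2) : ∃ (c : ℂ) (g h : S2), a = C c + X 0 * g + X 1 * h := by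
  have h1 : ((0 + 1 : ℕ) : ℕ∞) ≤ (a - C (constantCoeff a)).order := by
    rw [zero_add, Nat.cast_one, one_le_order_iff_constCoeff_eq_zero]
    simp
  obtain ⟨g, -, hg⟩ := exists_eq_sum h1
  refine ⟨constantCoeff a, g 0, g 1, ?_⟩
  rw [Fin.sum_univ_two] at hg
  linear_combination hg

theorem L10_mul3 {F : S2} (hF : F ∈ mR 2 ^ 3) (a : S2) :
    ∃ c : ℂ, L10 (a * F) = c • L10 F := by
  obtain ⟨c, g, h, rfl⟩ := exists_expand a
  refine ⟨c, ?_⟩
  have h1 : (C c + X 0 * g + X 1 * h) * F = c • F + (X 0 * F * g + X 1 * F * h) := by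
    rw [smul_eq_C_mul]
    ring
  have h2 : ∀ v : Fin 2, (X v : S2) * F ∈ mR 2 ^ 4 := fun v => by
    rw [pow_succ']
    exact Ideal.mul_mem_mul (X_mem_mR v) hF
  have h3 : L10 (X 0 * F * g + X 1 * F * h) = 0 :=
    (L10_ker _).2 (add_mem (Ideal.mul_mem_right _ _ (h2 0)) (Ideal.mul_mem_right _ _ (h2 1)))
  rw [h1, map_add, map_smul, h3, add_zero]

theorem L10_mul2 {G : S2} (hG : G ∈ mR 2 ^ 2) (a : S2) :
    ∃ c c0 c1 : ℂ, L10 (a * G) = c • L10 G + c0 • L10 (X 0 * G) + c1 • L10 (X 1 * G) := by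
  obtain ⟨c, g, h, rfl⟩ := exists_expand a
  have h2 : ∀ v : Fin 2, (X v : S2) * G ∈ mR 2 ^ 3 := fun v => by
    rw [pow_succ']
    exact Ideal.mul_mem_mul (X_mem_mR v) hG
  obtain ⟨c0, h0⟩ := L10_mul3 (h2 0) g
  obtain ⟨c1, h1⟩ := L10_mul3 (h2 1) h
  refine ⟨c, c0, c1, ?_⟩
  have h3 : (C c + X 0 * g + X 1 * h) * G = c • G + g * (X 0 * G) + h * (X 1 * G) := by
    rw [smul_eq_C_mul]
    ring
  rw [h3, map_add, map_add, map_smul, h0, h1]

/-- **Lower bound.** -/
theorem six_le {F G : S2} (hF : F ∈ mR 2 ^ 3) (hG : G ∈ mR 2 ^ 2)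
    [Module.Finite ℂ (S2 ⧸ Ideal.span {F, G})] : 6 ≤ finrank ℂ (S2 ⧸ Ideal.span {F, G}) := by
  classical
  set I : Ideal S2 := Ideal.span {F, G} with hI
  set W : Submodule ℂ (Fin 10 → ℂ) :=
    Submodule.span ℂ (({L10 F, L10 G, L10 (X 0 * G), L10 (X 1 * G)} : Finset (Fin 10 → ℂ)) :
      Set (Fin 10 → ℂ)) with hW
  have hW4 : finrank ℂ W ≤ 4 := (finrank_span_finset_le_card _).trans Finset.card_le_four
  have hmem : ∀ f ∈ I, L10 f ∈ W := by
    intro f hf
    rw [hI, Ideal.mem_span_pair] at hf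
    obtain ⟨a, b, rfl⟩ := hf
    obtain ⟨c, hc⟩ := L10_mul3 hF a
    obtain ⟨d, d0, d1, hd⟩ := L10_mul2 hG b
    rw [map_add, hc, hd]
    have m1 : L10 F ∈ W := Submodule.subset_span (by simp)
    have m2 : L10 G ∈ W := Submodule.subset_span (by simp)
    have m3 : L10 (X 0 * G) ∈ W := Submodule.subset_span (by simp)
    have m4 : L10 (X 1 * G) ∈ W := Submodule.subset_span (by simp)
    exact W.add_mem (W.smul_mem _ m1)
      (W.add_mem (W.add_mem (W.smul_mem _ m2) (W.smul_mem _ m3)) (W.smul_mem _ m4))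
  have hle : I.restrictScalars ℂ ≤ W.comap L10 := fun f hf => hmem f hf
  let φ : (S2 ⧸ I.restrictScalars ℂ) →ₗ[ℂ] (Fin 10 → ℂ) ⧸ W :=
    (I.restrictScalars ℂ).mapQ W L10 hle
  have hφ : Function.Surjective φ := by
    intro y
    obtain ⟨y, rfl⟩ := W.mkQ_surjective y
    obtain ⟨x, rfl⟩ := L10_surj y
    exact ⟨Submodule.Quotient.mk x, rfl⟩
  let e : (S2 ⧸ I.restrictScalars ℂ) ≃ₗ[ℂ] (S2 ⧸ I) := Submodule.Quotient.restrictScalarsEquiv ℂ I
  have hfin : Module.Finite ℂ (S2 ⧸ I.restrictScalars ℂ) := Module.Finite.equiv e.symm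
  have h1 : finrank ℂ ((Fin 10 → ℂ) ⧸ W) ≤ finrank ℂ (S2 ⧸ I.restrictScalars ℂ) :=
    LinearMap.finrank_le_finrank_of_surjective hφ
  have h2 := Submodule.finrank_quotient_add_finrank W
  have h3 : finrank ℂ (Fin 10 → ℂ) = 10 := by simp
  rw [← LinearEquiv.finrank_eq e]
  omega

theorem mul_mem_pow {i j k : ℕ} {f g : S2} (hf : f ∈ mR 2 ^ i) (hg : g ∈ mR 2 ^ j)
    (h : i + j = k) : f * g ∈ mR 2 ^ k := by
  rw [← h, pow_add]
  exact Ideal.mul_mem_mul hf hg

theorem mo_mul (i j i' j' : ℕ) : mo i j * mo i' j' = mo (i + i') (j + j') := by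
  simp only [mo]
  ring

theorem le_of_le_sup {I : Ideal S2} {M : ℕ} (h : mR 2 ^ M ≤ I ⊔ mR 2 ^ (M + 1)) :
    mR 2 ^ M ≤ I := by
  have hfg : (mR 2 ^ M).FG := by
    refine Submodule.FG.pow (Submodule.fg_span (Set.finite_range _)) M
  refine Submodule.le_of_le_smul_of_le_jacobson_bot (I := mR 2) hfg ?_ ?_
  · rw [IsLocalRing.jacobson_eq_maximalIdeal _ bot_ne_top, maximalIdeal_eq]
  · rw [smul_eq_mul, ← pow_succ']
    exact h

variable {p q : ℂ} {F G : MvPowerSeries (Fin 2) ℂ}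

theorem pow_four_le (hpq : 4 * p ^ 3 + 27 * q ^ 2 ≠ 0)
    (hF : F - (mo 0 3 + C p * mo 2 1 + C q * mo 3 0) ∈ mR 2 ^ 4)
    (hG : G - (3 * mo 0 2 + C p * mo 2 0) ∈ mR 2 ^ 3) : mR 2 ^ 4 ≤ Ideal.span {F, G} := by
  refine le_of_le_sup ?_
  set R : Ideal S2 := Ideal.span {F, G} ⊔ mR 2 ^ (4 + 1) with hR
  have mF : F ∈ R := Ideal.mem_sup_left (Ideal.subset_span (by simp))
  have mG : G ∈ R := Ideal.mem_sup_left (Ideal.subset_span (by simp))
  have m5 : ∀ {f : S2}, f ∈ mR 2 ^ 5 → f ∈ R := fun h => Ideal.mem_sup_right h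
  have rG : ∀ i j, i + j = 2 → 3 * mo i (j + 2) + C p * mo (i + 2) j ∈ R := by
    intro i j hij
    have h1 : mo i j * (G - (3 * mo 0 2 + C p * mo 2 0)) ∈ R :=
      m5 (mul_mem_pow (i := 2) (by have := mo_mem i j; rwa [hij] at this) hG rfl)
    have h2 : 3 * mo i (j + 2) + C p * mo (i + 2) j = mo i j * G -
        mo i j * (G - (3 * mo 0 2 + C p * mo 2 0)) := by
      have e1 : mo i (j + 2) = mo i j * mo 0 2 := by rw [mo_mul]; rfl
      have e2 : mo (i + 2) j = mo i j * mo 2 0 := by rw [mo_mul]; rfl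
      rw [e1, e2]
      ring
    rw [h2]
    exact sub_mem (R.mul_mem_left _ mG) h1
  have rF : ∀ i j, i + j = 1 →
      mo i (j + 3) + C p * mo (i + 2) (j + 1) + C q * mo (i + 3) j ∈ R := by
    intro i j hij
    have h1 : mo i j * (F - (mo 0 3 + C p * mo 2 1 + C q * mo 3 0)) ∈ R :=
      m5 (mul_mem_pow (i := 1) (by have := mo_mem i j; rwa [hij] at this) hF rfl)
    have h2 : mo i (j + 3) + C p * mo (i + 2) (j + 1) + C q * mo (i + 3) j = mo i j * F -
        mo i j * (F - (mo 0 3 + C p * mo 2 1 + C q * mo 3 0)) := by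
      have e1 : mo i (j + 3) = mo i j * mo 0 3 := by rw [mo_mul]; rfl
      have e2 : mo (i + 2) (j + 1) = mo i j * mo 2 1 := by rw [mo_mul]
      have e3 : mo (i + 3) j = mo i j * mo 3 0 := by rw [mo_mul]; rfl
      rw [e1, e2, e3]
      ring
    rw [h2]
    exact sub_mem (R.mul_mem_left _ mF) h1
  have g1 := rG 2 0 rfl
  have g2 := rG 1 1 rfl
  have g3 := rG 0 2 rfl
  have f1 := rF 1 0 rfl
  have f2 := rF 0 1 rfl
  norm_num at g1 g2 g3 f1 f2
  have r6 : 2 * C p * mo 3 1 + 3 * C q * mo 4 0 ∈ R := by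
    have := sub_mem (R.mul_mem_left 3 f1) g2
    convert this using 1
    ring
  have r7 : 9 * C q * mo 3 1 - 2 * C p ^ 2 * mo 4 0 ∈ R := by
    have h1 : 2 * C p * mo 2 2 + 3 * C q * mo 3 1 ∈ R := by
      have := sub_mem (R.mul_mem_left 3 f2) g3
      convert this using 1
      ring
    have := sub_mem (R.mul_mem_left 3 h1) (R.mul_mem_left (2 * C p) g1)
    convert this using 1
    ring
  have hunit : IsUnit (C (4 * p ^ 3 + 27 * q ^ 2) : S2) := by
    rw [MvPowerSeries.isUnit_iff_constantCoeff, constantCoeff_C]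
    exact isUnit_iff_ne_zero.2 hpq
  have hC : (C (4 * p ^ 3 + 27 * q ^ 2) : S2) = 4 * C p ^ 3 + 27 * C q ^ 2 := by
    simp [map_ofNat]
  have e40 : mo 4 0 ∈ R := by
    refine (Ideal.unit_mul_mem_iff_mem R hunit).1 ?_
    rw [hC]
    have := sub_mem (R.mul_mem_left (9 * C q) r6) (R.mul_mem_left (2 * C p) r7)
    convert this using 1
    ring
  have e31 : mo 3 1 ∈ R := by
    refine (Ideal.unit_mul_mem_iff_mem R hunit).1 ?_
    rw [hC]
    have := add_mem (R.mul_mem_left (2 * C p ^ 2) r6) (R.mul_mem_left (3 * C q) r7)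
    convert this using 1
    ring
  have h3 : IsUnit (3 : S2) := by
    have h : (3 : S2) = C (3 : ℂ) := by simp [map_ofNat]
    rw [h, MvPowerSeries.isUnit_iff_constantCoeff, constantCoeff_C]
    exact isUnit_iff_ne_zero.2 (by norm_num)
  have e22 : mo 2 2 ∈ R := by
    refine (Ideal.unit_mul_mem_iff_mem R h3).1 ?_
    have := sub_mem g1 (R.mul_mem_left (C p) e40)
    convert this using 1
    ring
  have e13 : mo 1 3 ∈ R := by
    refine (Ideal.unit_mul_mem_iff_mem R h3).1 ?_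
    have := sub_mem g2 (R.mul_mem_left (C p) e31)
    convert this using 1
    ring
  have e04 : mo 0 4 ∈ R := by
    refine (Ideal.unit_mul_mem_iff_mem R h3).1 ?_
    have := sub_mem g3 (R.mul_mem_left (C p) e22)
    convert this using 1
    ring
  refine mR_pow_le 4 R fun i j hij => ?_
  have hi : i < 5 := by omega
  interval_cases i
  · obtain rfl : j = 4 := by omega
    exact e04
  · obtain rfl : j = 3 := by omega
    exact e13
  · obtain rfl : j = 2 := by omega
    exact e22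
  · obtain rfl : j = 1 := by omega
    exact e31
  · obtain rfl : j = 0 := by omega
    exact e40

theorem L10_congr {f g : S2} (h : f - g ∈ mR 2 ^ 4) : L10 f = L10 g := by
  rw [← sub_eq_zero, ← map_sub]
  exact (L10_ker _).2 h

/-- **Upper bound.** -/
theorem finrank_le_six (hpq : 4 * p ^ 3 + 27 * q ^ 2 ≠ 0)
    (hF : F - (mo 0 3 + C p * mo 2 1 + C q * mo 3 0) ∈ mR 2 ^ 4)
    (hG : G - (3 * mo 0 2 + C p * mo 2 0) ∈ mR 2 ^ 3) :
    Module.Finite ℂ (S2 ⧸ Ideal.span {F, G}) ∧ finrank ℂ (S2 ⧸ Ideal.span {F, G}) ≤ 6 := by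
  classical
  have h4 := pow_four_le hpq hF hG
  set I : Ideal S2 := Ideal.span {F, G} with hI
  have mF : F ∈ I := Ideal.subset_span (by simp)
  have mG : G ∈ I := Ideal.subset_span (by simp)
  set W : Submodule ℂ (Fin 10 → ℂ) := (I.restrictScalars ℂ).map L10 with hW
  have three : (3 : S2) = C (3 : ℂ) := by simp [map_ofNat]
  -- the four vectors
  have vF : L10 F = ![0, 0, 0, 0, 0, 0, q, p, 0, 1] := by
    rw [L10_congr hF, L10_apply]
    funext i
    fin_cases i <;> simp [coeff_mo]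
  have vG : ∃ a b c d : ℂ, L10 G = ![0, 0, 0, p, 0, 3, a, b, c, d] := by
    have h1 : G = (3 * mo 0 2 + C p * mo 2 0) + (G - (3 * mo 0 2 + C p * mo 2 0)) := by ring
    have h2 : ∀ a b, a + b < 3 → coeff (ex a b) (G - (3 * mo 0 2 + C p * mo 2 0)) = 0 := by
      intro a b hab
      refine coeff_of_lt_order (lt_of_lt_of_le ?_ (order_of_mem_mR_pow 3 hG))
      rw [degree_ex]
      exact_mod_cast hab
    refine ⟨coeff (ex 3 0) G, coeff (ex 2 1) G, coeff (ex 1 2) G, coeff (ex 0 3) G, ?_⟩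
    have h3 : ∀ a b, a + b < 3 → coeff (ex a b) G =
        coeff (ex a b) (3 * mo 0 2 + C p * mo 2 0) := by
      intro a b hab
      conv_lhs => rw [h1]
      rw [map_add, h2 a b hab, add_zero]
    rw [L10_apply, h3 0 0 (by norm_num), h3 1 0 (by norm_num), h3 0 1 (by norm_num),
      h3 2 0 (by norm_num), h3 1 1 (by norm_num), h3 0 2 (by norm_num), three]
    funext i
    fin_cases i <;> simp [coeff_mo]
  have v0 : L10 (X 0 * G) = ![0, 0, 0, 0, 0, 0, p, 0, 3, 0] := by
    have h1 : X 0 * G - (3 * mo 1 2 + C p * mo 3 0) ∈ mR 2 ^ 4 := by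
      have h2 : X 0 * G - (3 * mo 1 2 + C p * mo 3 0) =
          X 0 * (G - (3 * mo 0 2 + C p * mo 2 0)) := by
        simp only [mo]
        ring
      rw [h2]
      exact mul_mem_pow (i := 1) (by rw [pow_one]; exact X_mem_mR 0) hG rfl
    rw [L10_congr h1, L10_apply, three]
    funext i
    fin_cases i <;> simp [coeff_mo]
  have v1 : L10 (X 1 * G) = ![0, 0, 0, 0, 0, 0, 0, p, 0, 3] := by
    have h1 : X 1 * G - (3 * mo 0 3 + C p * mo 2 1) ∈ mR 2 ^ 4 := by
      have h2 : X 1 * G - (3 * mo 0 3 + C p * mo 2 1) =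
          X 1 * (G - (3 * mo 0 2 + C p * mo 2 0)) := by
        simp only [mo]
        ring
      rw [h2]
      exact mul_mem_pow (i := 1) (by rw [pow_one]; exact X_mem_mR 1) hG rfl
    rw [L10_congr h1, L10_apply, three]
    funext i
    fin_cases i <;> simp [coeff_mo]
  obtain ⟨a, b, c, d, vG⟩ := vG
  have hlin : LinearIndependent ℂ ![L10 F, L10 G, L10 (X 0 * G), L10 (X 1 * G)] := by
    rw [Fintype.linearIndependent_iff]
    intro g hg
    rw [Fin.sum_univ_four] at hg
    simp only [Matrix.cons_val] at hg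
    rw [vF, vG, v0, v1] at hg
    have c5 := congrFun hg 5
    have c6 := congrFun hg 6
    have c7 := congrFun hg 7
    have c8 := congrFun hg 8
    have c9 := congrFun hg 9
    simp only [Pi.add_apply, Pi.smul_apply, Matrix.cons_val, Pi.zero_apply, smul_eq_mul] at c5 c6 c7 c8 c9
    have e1 : g 1 = 0 := by linear_combination (1 / 3) * c5
    rw [e1] at c6 c7 c8 c9
    have e2 : g 2 = 0 := by linear_combination (1 / 3) * c8
    rw [e2] at c6 c7 c9
    have e3 : g 3 = 0 := by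
      by_contra hne
      have hp : p = 0 := by
        have h1 : g 3 * p = 0 := by linear_combination (-1 / 2) * c7 + (1 / 2) * p * c9
        exact (mul_eq_zero.1 h1).resolve_left hne
      have hq : q = 0 := by
        have h1 : g 3 * q = 0 := by linear_combination (-1 / 3) * c6 + (1 / 3) * q * c9
        exact (mul_eq_zero.1 h1).resolve_left hne
      apply hpq
      rw [hp, hq]
      ring
    rw [e3] at c9
    have e0 : g 0 = 0 := by linear_combination c9
    intro i
    fin_cases i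
    · exact e0
    · exact e1
    · exact e2
    · exact e3
  have hspan : Submodule.span ℂ (Set.range ![L10 F, L10 G, L10 (X 0 * G), L10 (X 1 * G)]) ≤ W := by
    refine Submodule.span_le.2 ?_
    rintro _ ⟨i, rfl⟩
    fin_cases i
    · exact ⟨F, mF, rfl⟩
    · exact ⟨G, mG, rfl⟩
    · exact ⟨X 0 * G, I.mul_mem_left _ mG, rfl⟩
    · exact ⟨X 1 * G, I.mul_mem_left _ mG, rfl⟩
  have hW4 : 4 ≤ finrank ℂ W := by
    have h1 := finrank_span_eq_card hlin
    rw [Fintype.card_fin] at h1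
    exact h1.symm.le.trans (Submodule.finrank_mono hspan)
  have hle : I.restrictScalars ℂ ≤ W.comap L10 := fun f hf => ⟨f, hf, rfl⟩
  let φ : (S2 ⧸ I.restrictScalars ℂ) →ₗ[ℂ] (Fin 10 → ℂ) ⧸ W :=
    (I.restrictScalars ℂ).mapQ W L10 hle
  have hφ : Function.Injective φ := by
    rw [← LinearMap.ker_eq_bot, LinearMap.ker_eq_bot']
    intro x hx
    obtain ⟨f, rfl⟩ := (I.restrictScalars ℂ).mkQ_surjective x
    have h1 : (Submodule.Quotient.mk (L10 f) : (Fin 10 → ℂ) ⧸ W) = 0 := hx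
    rw [Submodule.Quotient.mk_eq_zero] at h1
    obtain ⟨g, hg, hgf⟩ := h1
    have h2 : f - g ∈ mR 2 ^ 4 := by
      rw [← L10_ker, map_sub, hgf, sub_self]
    have h3 : f ∈ I := by
      have := add_mem (h4 h2) (show g ∈ I from hg)
      rwa [sub_add_cancel] at this
    exact (Submodule.Quotient.mk_eq_zero _).2 h3
  let e : (S2 ⧸ I.restrictScalars ℂ) ≃ₗ[ℂ] (S2 ⧸ I) := Submodule.Quotient.restrictScalarsEquiv ℂ I
  have hfin : Module.Finite ℂ (S2 ⧸ I.restrictScalars ℂ) := Module.Finite.of_injective φ hφ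
  have h1 : finrank ℂ (S2 ⧸ I.restrictScalars ℂ) ≤ finrank ℂ ((Fin 10 → ℂ) ⧸ W) :=
    LinearMap.finrank_le_finrank_of_injective hφ
  have h2 := Submodule.finrank_quotient_add_finrank W
  have h3 : finrank ℂ (Fin 10 → ℂ) = 10 := by simp
  refine ⟨Module.Finite.equiv e, ?_⟩
  rw [← LinearEquiv.finrank_eq e]
  omega

end Vale.Agent.P298.H845
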