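import Vale.Agent.P298.H845.Flg3
import Vale.Agent.P298.H845.Coord
import Vale.Agent.P298.H137.Main
import Vale.Agent.P298.H766.Plane

/-!
# P298 (helper845), block LC, flag step: the colengths `(f, x₂, ∂f/∂x₁)` and `(f, x₂, x₀)`
-/

namespace Vale.Agent.P298.H845

open Filter Topology Metric Module Vale.Agent.P298 Vale.Agent.P298.H766

/-- restriction to the plane `x₂ = 0` -/
def rs (f : (Fin 3 → ℂ) → ℂ) (x : Fin 2 → ℂ) : ℂ := f (Fin.snoc (α := fun _ => ℂ) x 0)

theorem hol_rs {f : (Fin 3 → ℂ) → ℂ} (hf : Hol f) : Hol (rs f) := hol_restrict hf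

theorem mem_mR_iff {n : ℕ} {g : (Fin n → ℂ) → ℂ} (hg : Hol g) (g0 : g 0 = 0) :
    ser g ∈ mR n := by
  rw [← maximalIdeal_eq, mem_maximalIdeal_iff, constantCoeff_ser hg, g0]

theorem ser_rs_pd {f : (Fin 3 → ℂ) → ℂ} (hf : Hol f) :
    ser (rs (pd 1 f)) = MvPowerSeries.pderiv ℂ 1 (ser (rs f)) := by
  rw [← ser_pd (hol_rs hf)]
  refine ser_congr ?_
  filter_upwards [tendsto_incl.eventually hf.eventually_analyticAt] with x hx
  have h1 : rs f = fun y => f (inclL 2 y) := by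
    funext y
    rw [inclL_apply]
    rfl
  have h2 : HasFDerivAt (fun y => f (inclL 2 y)) ((fderiv ℂ f (inclL 2 x)).comp (inclL 2)) x := by
    have h3 : HasFDerivAt f (fderiv ℂ f (inclL 2 x)) (inclL 2 x) := by
      rw [inclL_apply]
      exact hx.differentiableAt.hasFDerivAt
    exact h3.comp x (inclL 2).hasFDerivAt
  rw [h1, pd, h2.fderiv, ContinuousLinearMap.comp_apply, rs, pd, ← inclL_apply]
  congr 1
  rw [inclL_apply]
  funext i
  fin_cases i <;> simp [Fin.snoc, Pi.single_apply]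

theorem pderiv_mem {M : ℕ} {g : S2} (hg : g ∈ mR 2 ^ (M + 1)) (i : Fin 2) :
    MvPowerSeries.pderiv ℂ i g ∈ mR 2 ^ M := by
  refine mem_mR_pow_of_order M (MvPowerSeries.le_order fun d hd => ?_)
  rw [MvPowerSeries.coeff_pderiv]
  have h1 : MvPowerSeries.coeff (d + Finsupp.single i 1) g = 0 := by
    refine MvPowerSeries.coeff_of_lt_order (lt_of_lt_of_le ?_ (order_of_mem_mR_pow _ hg))
    rw [map_add, Finsupp.degree_single]
    have h2 : Finsupp.degree d < M := by exact_mod_cast hd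
    exact_mod_cast (by omega : Finsupp.degree d + 1 < M + 1)
  rw [h1, zero_mul]

theorem colength_rs {f g : (Fin 3 → ℂ) → ℂ} (hf : Hol f) (hg : Hol g) (d : ℕ) :
    Colength ![f, fun x => x 2, g] d ↔
      Module.Finite ℂ (S2 ⧸ Ideal.span {ser (rs f), ser (rs g)}) ∧
        finrank ℂ (S2 ⧸ Ideal.span {ser (rs f), ser (rs g)}) = d := by
  have hs : ∀ j, Hol ((![f, g] : Fin 2 → (Fin 3 → ℂ) → ℂ) j) := by
    intro j
    fin_cases j
    · exact hf
    · exact hg
  have h1 : Colength ![f, fun x => x 2, g] d ↔ Colength (Fin.snoc (α := fun _ => (Fin 3 → ℂ) → ℂ)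
      ![f, g] fun x => x (Fin.last 2)) d := by
    refine colength_of_range (fun j => ?_) (fun j => ?_) d
    · fin_cases j
      · exact ⟨0, rfl⟩
      · exact ⟨2, rfl⟩
      · exact ⟨1, rfl⟩
    · fin_cases j
      · exact ⟨0, rfl⟩
      · exact ⟨2, rfl⟩
      · exact ⟨1, rfl⟩
  have hs' : ∀ j, Hol ((fun j x => (![f, g] : Fin 2 → (Fin 3 → ℂ) → ℂ) j
      (Fin.snoc (α := fun _ => ℂ) x 0) : Fin 2 → (Fin 2 → ℂ) → ℂ) j) := fun j =>
    hol_restrict (hs j)
  rw [h1, colength_restrict hs, colength_iff_ser hs']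
  have h2 : serIdeal (fun j x => (![f, g] : Fin 2 → (Fin 3 → ℂ) → ℂ) j
      (Fin.snoc (α := fun _ => ℂ) x 0)) = Ideal.span {ser (rs f), ser (rs g)} := by
    rw [serIdeal]
    congr 1
    ext x
    constructor
    · rintro ⟨j, rfl⟩
      fin_cases j
      · exact Or.inl rfl
      · exact Or.inr rfl
    · rintro (rfl | rfl)
      · exact ⟨0, rfl⟩
      · exact ⟨1, rfl⟩
  rw [h2]

/-- **Lower bound**: for germs of order at least three. -/
theorem six_le_colength {f : (Fin 3 → ℂ) → ℂ} (hf : Hol f) (h3 : ser (rs f) ∈ mR 2 ^ 3) {b : ℕ}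
    (hb : Colength ![f, fun x => x 2, pd 1 f] b) : 6 ≤ b := by
  rw [colength_rs hf (hol_pd hf 1), ser_rs_pd hf] at hb
  have := hb.1
  rw [← hb.2]
  exact six_le h3 (pderiv_mem (M := 2) h3 1)

theorem colength_le_six {f : (Fin 3 → ℂ) → ℂ} (hf : Hol f) {p q : ℂ}
    (hpq : 4 * p ^ 3 + 27 * q ^ 2 ≠ 0)
    (hF : ser (rs f) - (mo 0 3 + MvPowerSeries.C p * mo 2 1 + MvPowerSeries.C q * mo 3 0) ∈
      mR 2 ^ 4) :
    ∃ b, b ≤ 6 ∧ Colength ![f, fun x => x 2, pd 1 f] b := by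
  have hG : ser (rs (pd 1 f)) - (3 * mo 0 2 + MvPowerSeries.C p * mo 2 0) ∈ mR 2 ^ 3 := by
    have h1 := pderiv_mem (M := 3) hF 1
    have h2 : MvPowerSeries.pderiv ℂ 1 (ser (rs f) -
        (mo 0 3 + MvPowerSeries.C p * mo 2 1 + MvPowerSeries.C q * mo 3 0)) =
        ser (rs (pd 1 f)) - (3 * mo 0 2 + MvPowerSeries.C p * mo 2 0) := by
      rw [ser_rs_pd hf, map_sub]
      congr 1
      ext d
      rw [MvPowerSeries.coeff_pderiv, eq_ex d]
      have h3 : ex (d 0) (d 1) + Finsupp.single 1 1 = ex (d 0) (d 1 + 1) := by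
        simp only [ex]
        rw [add_assoc, ← Finsupp.single_add]
      have three : (3 : S2) = MvPowerSeries.C (3 : ℂ) := by simp [map_ofNat]
      rw [h3, ex_one, three]
      simp only [map_add, MvPowerSeries.coeff_C_mul, coeff_mo]
      generalize d 0 = a
      generalize d 1 = b
      by_cases ha : a = 0 <;> by_cases hb : b = 2 <;> by_cases ha2 : a = 2 <;>
        by_cases hb0 : b = 0 <;> by_cases ha3 : a = 3 <;> simp_all <;> try norm_num
    rw [h2] at h1
    exact h1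
  obtain ⟨h1, h2⟩ := finrank_le_six hpq hF hG
  exact ⟨_, h2, (colength_rs hf (hol_pd hf 1) _).2 ⟨h1, rfl⟩⟩

theorem finite_of_pow_le {I : Ideal S2} (h4 : mR 2 ^ 4 ≤ I) : Module.Finite ℂ (S2 ⧸ I) := by
  set W : Submodule ℂ (Fin 10 → ℂ) := (I.restrictScalars ℂ).map L10 with hW
  have hle : I.restrictScalars ℂ ≤ W.comap L10 := fun f hf => ⟨f, hf, rfl⟩
  let φ : (S2 ⧸ I.restrictScalars ℂ) →ₗ[ℂ] (Fin 10 → ℂ) ⧸ W :=
    (I.restrictScalars ℂ).mapQ W L10 hle
  have hφ : Function.Injective φ := by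
    rw [← LinearMap.ker_eq_bot, LinearMap.ker_eq_bot']
    intro x hx
    obtain ⟨f, rfl⟩ := (I.restrictScalars ℂ).mkQ_surjective x
    have h1 : (Submodule.Quotient.mk (L10 f) : (Fin 10 → ℂ) ⧸ W) = 0 := hx
    rw [Submodule.Quotient.mk_eq_zero] at h1
    obtain ⟨g, hg, hgf⟩ := h1
    have h2 : f - g ∈ mR 2 ^ 4 := by
      rw [← L10_ker, map_sub, hgf, sub_self]
    have h3 : f ∈ I := by
      have := add_mem (h4 h2) (show g ∈ I from hg)
      rwa [sub_add_cancel] at this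
    exact (Submodule.Quotient.mk_eq_zero _).2 h3
  have hfin : Module.Finite ℂ (S2 ⧸ I.restrictScalars ℂ) := Module.Finite.of_injective φ hφ
  exact Module.Finite.equiv (Submodule.Quotient.restrictScalarsEquiv ℂ I)

theorem exists_colength_line {f : (Fin 3 → ℂ) → ℂ} (hf : Hol f) {p q : ℂ}
    (hF : ser (rs f) - (mo 0 3 + MvPowerSeries.C p * mo 2 1 + MvPowerSeries.C q * mo 3 0) ∈
      mR 2 ^ 4) :
    ∃ c, Colength ![f, fun x => x 2, fun x => x 0] c := by
  have hx0 : Hol (fun x : Fin 3 → ℂ => x 0) :=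
    (ContinuousLinearMap.proj (R := ℂ) (φ := fun _ : Fin 3 => ℂ) 0).analyticAt 0
  have h1 : ser (rs fun x => x 0) = MvPowerSeries.X 0 := by
    have : (rs fun x : Fin 3 → ℂ => x 0) = fun x : Fin 2 → ℂ => x 0 := rfl
    rw [this, ser_coord]
  set I : Ideal S2 := Ideal.span {ser (rs f), ser (rs fun x => x 0)} with hI
  have mF : ser (rs f) ∈ I := Ideal.subset_span (by simp)
  have mX : (MvPowerSeries.X 0 : S2) ∈ I := by
    rw [← h1]
    exact Ideal.subset_span (by simp)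
  have h3 : mR 2 ^ 3 ≤ I := by
    refine le_of_le_sup (mR_pow_le 3 _ fun i j hij => ?_)
    have hmo : ∀ i j, mo (i + 1) j ∈ I := by
      intro i j
      have : mo (i + 1) j = mo i j * MvPowerSeries.X 0 := by
        simp only [mo]
        ring
      rw [this]
      exact I.mul_mem_left _ mX
    rcases Nat.eq_zero_or_pos i with rfl | hi
    · obtain rfl : j = 3 := by omega
      have h4 : mo 0 3 = (ser (rs f) - MvPowerSeries.C p * mo 2 1 - MvPowerSeries.C q * mo 3 0) -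
          (ser (rs f) - (mo 0 3 + MvPowerSeries.C p * mo 2 1 + MvPowerSeries.C q * mo 3 0)) := by
        ring
      rw [h4]
      refine sub_mem (Ideal.mem_sup_left ?_) (Ideal.mem_sup_right hF)
      exact sub_mem (sub_mem mF (I.mul_mem_left _ (hmo 1 1))) (I.mul_mem_left _ (hmo 2 0))
    · obtain ⟨i, rfl⟩ : ∃ i', i = i' + 1 := ⟨i - 1, by omega⟩
      exact Ideal.mem_sup_left (hmo i j)
  have h4 : mR 2 ^ 4 ≤ I := (Ideal.pow_le_pow_right (by norm_num)).trans h3
  exact ⟨_, (colength_rs hf hx0 _).2 ⟨finite_of_pow_le h4, rfl⟩⟩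

end Vale.Agent.P298.H845
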