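import Vale.Agent.P298.H845.Flg2
import Vale.Agent.P298.H845.Flg4
import Vale.Agent.P298.H845.Cr2
import Vale.Agent.P298.H790.Step3

/-!
# P298 (helper845), block LC, flag step
-/

namespace Vale.Agent.P298.H845

open Filter Topology Metric Module Vale.Agent.P298 Vale.Agent.P298.H766
open Vale.Agent.P298.H790 (WBad P3 taylor3 slice_hol slice_ev jet_bound eventually_zero
  eventually_grad)

theorem hmul {n : ℕ} {u v : (Fin n → ℂ) → ℂ} (hu : Hol u) (hv : Hol v) :
    Hol (fun x => u x * v x) := AnalyticAt.mul hu hv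

theorem hadd {n : ℕ} {u v : (Fin n → ℂ) → ℂ} (hu : Hol u) (hv : Hol v) :
    Hol (fun x => u x + v x) := AnalyticAt.add hu hv

/-- Taylor series of a germ `∑ Lᵢ Lⱼ L_k χᵢⱼₖ` with `Lᵢ (0) = 0` -/
theorem jet_ser {u : (Fin 2 → ℂ) → ℂ} {L : Fin 3 → (Fin 2 → ℂ) → ℂ} (hL : ∀ i, Hol (L i))
    (hL0 : ∀ i, L i 0 = 0) {χ : Fin 3 → Fin 3 → Fin 3 → (Fin 2 → ℂ) → ℂ}
    (hχ : ∀ i j k, Hol (χ i j k))
    (h : ∀ᶠ x in 𝓝 (0 : Fin 2 → ℂ), u x = ∑ i, ∑ j, ∑ k, L i x * L j x * L k x * χ i j k x) :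
    ser u ∈ mR 2 ^ 3 ∧
      ser u - ser (fun x => ∑ i, ∑ j, ∑ k, L i x * L j x * L k x * χ i j k 0) ∈ mR 2 ^ 4 := by
  have hLL : ∀ i j k, Hol (fun x => L i x * L j x * L k x) := fun i j k =>
    hmul (hmul (hL i) (hL j)) (hL k)
  have sLL : ∀ i j k, ser (fun x => L i x * L j x * L k x) ∈ mR 2 ^ 3 := by
    intro i j k
    rw [ser_mul (hmul (hL i) (hL j)) (hL k), ser_mul (hL i) (hL j)]
    exact mul_mem_pow (mul_mem_pow (i := 1) (j := 1) (k := 2)
      (by rw [pow_one]; exact mem_mR_iff (hL i) (hL0 i))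
      (by rw [pow_one]; exact mem_mR_iff (hL j) (hL0 j)) rfl) (j := 1)
      (by rw [pow_one]; exact mem_mR_iff (hL k) (hL0 k)) rfl
  have h1 : ser u = ∑ i, ∑ j, ∑ k, ser (fun x => L i x * L j x * L k x) * ser (χ i j k) := by
    rw [ser_congr h, ser_sum _ fun i => ?_]
    · refine Finset.sum_congr rfl fun i _ => ?_
      rw [ser_sum _ fun j => ?_]
      · refine Finset.sum_congr rfl fun j _ => ?_
        rw [ser_sum _ fun k => hmul (hLL i j k) (hχ i j k)]
        exact Finset.sum_congr rfl fun k _ => ser_mul (hLL i j k) (hχ i j k)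
      · exact Finset.analyticAt_fun_sum _ fun k _ => hmul (hLL i j k) (hχ i j k)
    · exact Finset.analyticAt_fun_sum _ fun j _ => Finset.analyticAt_fun_sum _ fun k _ =>
        hmul (hLL i j k) (hχ i j k)
  have h2 : ser (fun x => ∑ i, ∑ j, ∑ k, L i x * L j x * L k x * χ i j k 0) =
      ∑ i, ∑ j, ∑ k, ser (fun x => L i x * L j x * L k x) * MvPowerSeries.C (χ i j k 0) := by
    have hc : ∀ i j k, Hol (fun _ : Fin 2 → ℂ => χ i j k 0) := fun i j k => analyticAt_const
    rw [ser_sum _ fun i => ?_]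
    · refine Finset.sum_congr rfl fun i _ => ?_
      rw [ser_sum _ fun j => ?_]
      · refine Finset.sum_congr rfl fun j _ => ?_
        rw [ser_sum _ fun k => hmul (hLL i j k) (hc i j k)]
        refine Finset.sum_congr rfl fun k _ => ?_
        rw [ser_mul (hLL i j k) (hc i j k), ser_const]
      · exact Finset.analyticAt_fun_sum _ fun k _ => hmul (hLL i j k) (hc i j k)
    · exact Finset.analyticAt_fun_sum _ fun j _ => Finset.analyticAt_fun_sum _ fun k _ =>
        hmul (hLL i j k) (hc i j k)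
  constructor
  · rw [h1]
    exact Submodule.sum_mem _ fun i _ => Submodule.sum_mem _ fun j _ =>
      Submodule.sum_mem _ fun k _ => Ideal.mul_mem_right _ _ (sLL i j k)
  · rw [h1, h2]
    simp only [← Finset.sum_sub_distrib, ← mul_sub]
    refine Submodule.sum_mem _ fun i _ => Submodule.sum_mem _ fun j _ =>
      Submodule.sum_mem _ fun k _ => mul_mem_pow (sLL i j k) (j := 1) ?_ rfl
    rw [pow_one, ← maximalIdeal_eq, mem_maximalIdeal_iff, map_sub, constantCoeff_ser (hχ i j k),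
      MvPowerSeries.constantCoeff_C, sub_self]

theorem ser_plane (p q : ℂ) :
    ser (fun x : Fin 2 → ℂ => x 1 ^ 3 + p * (x 0 ^ 2 * x 1) + q * x 0 ^ 3) =
      mo 0 3 + MvPowerSeries.C p * mo 2 1 + MvPowerSeries.C q * mo 3 0 := by
  have h0 : Hol (fun x : Fin 2 → ℂ => x 0) :=
    (ContinuousLinearMap.proj (R := ℂ) (φ := fun _ : Fin 2 => ℂ) 0).analyticAt 0
  have h1 : Hol (fun x : Fin 2 → ℂ => x 1) :=
    (ContinuousLinearMap.proj (R := ℂ) (φ := fun _ : Fin 2 => ℂ) 1).analyticAt 0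
  have hp : Hol (fun _ : Fin 2 → ℂ => p) := analyticAt_const
  have hq : Hol (fun _ : Fin 2 → ℂ => q) := analyticAt_const
  have e1 : (fun x : Fin 2 → ℂ => x 1 ^ 3 + p * (x 0 ^ 2 * x 1) + q * x 0 ^ 3) =
      fun x => x 1 * x 1 * x 1 + p * (x 0 * x 0 * x 1) + q * (x 0 * x 0 * x 0) := by
    funext x
    ring
  have h00 := hmul h0 h0
  have h11 := hmul h1 h1
  have h000 := hmul h00 h0
  have h001 := hmul h00 h1
  have h111 := hmul h11 h1
  rw [e1, ser_add (hadd h111 (hmul hp h001)) (hmul hq h000), ser_add h111 (hmul hp h001),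
    ser_mul h11 h1, ser_mul h1 h1, ser_mul hp h001, ser_mul h00 h1, ser_mul h0 h0,
    ser_mul hq h000, ser_mul h00 h0, ser_mul h0 h0, ser_const, ser_const, ser_coord, ser_coord]
  simp only [mo]
  ring

end Vale.Agent.P298.H845
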