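import Vale.Agent.P298.H845.Flg5

/-!
# P298 (helper845), block LC: the flag step

A `μ`-constant family of germs of order three of functions on `ℂ³` with a reduced tangent cone is
topologically trivial: `(x₂, x₀)` are companions in suitable linear coordinates.
-/

namespace Vale.Agent.P298.H845

open Filter Topology Metric Module Vale.Agent.P298 Vale.Agent.P298.H766
open Vale.Agent.P298.H790 (WBad P3 taylor3 slice_hol slice_ev jet_bound eventually_zero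
  eventually_grad)

theorem isCub_P3 (τ : Fin 3 → Fin 3 → Fin 3 → ℂ) : IsCub (P3 τ) := by
  refine ⟨![τ 1 1 1, τ 1 1 0 + τ 1 0 1 + τ 0 1 1, τ 1 1 2 + τ 1 2 1 + τ 2 1 1,
    τ 1 0 0 + τ 0 1 0 + τ 0 0 1, τ 0 1 2 + τ 0 2 1 + τ 1 0 2 + τ 1 2 0 + τ 2 0 1 + τ 2 1 0,
    τ 1 2 2 + τ 2 1 2 + τ 2 2 1, τ 0 0 0, τ 0 0 2 + τ 0 2 0 + τ 2 0 0,
    τ 0 2 2 + τ 2 0 2 + τ 2 2 0, τ 2 2 2], fun x => ?_⟩
  simp only [P3, cubForm, Fin.sum_univ_three, Matrix.cons_val]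
  ring

/-- germs whose tangent cone contains a double plane -/
theorem wbad_of_sq {f : (Fin 3 → ℂ) → ℂ} {φ : Fin 3 → Fin 3 → Fin 3 → (Fin 3 → ℂ) → ℂ}
    (hφ : ∀ i j k, Hol (φ i j k))
    (hf : ∀ᶠ x in 𝓝 (0 : Fin 3 → ℂ), f x = ∑ i, ∑ j, ∑ k, x i * x j * x k * φ i j k x)
    (T : (Fin 3 → ℂ) ≃L[ℂ] (Fin 3 → ℂ)) {a b : ℂ}
    (hT : ∀ x, P3 (fun i j k => φ i j k 0) (T x) = x 1 ^ 2 * (a * x 1 + b * x 2)) : WBad f := by
  obtain ⟨C, hC, hrem⟩ := jet_bound hφ hf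
  obtain ⟨δ, hδ, hball⟩ := Metric.eventually_nhds_iff_ball.1 hrem
  refine ⟨T, ![2, 3, 2], 8, fun i => by fin_cases i <;> simp, by simp, ?_⟩
  set N : ℝ := ‖(T : (Fin 3 → ℂ) →L[ℂ] (Fin 3 → ℂ))‖ with hN
  refine ⟨C * N ^ 4 + (‖a‖ + ‖b‖), ?_⟩
  have h1 : ∀ᶠ l : ℝ in 𝓝[>] 0, N * l ^ 2 < δ := by
    have h2 : Tendsto (fun l : ℝ => N * l ^ 2) (𝓝 0) (𝓝 (N * 0 ^ 2)) :=
      Continuous.tendsto (by fun_prop) 0
    rw [zero_pow two_ne_zero, mul_zero] at h2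
    exact (h2.eventually (gt_mem_nhds hδ)).filter_mono nhdsWithin_le_nhds
  have h2 : ∀ᶠ l : ℝ in 𝓝[>] 0, l < 1 := (gt_mem_nhds one_pos).filter_mono nhdsWithin_le_nhds
  filter_upwards [h1, h2, self_mem_nhdsWithin] with l hl1 hl2 hl0 y hy
  have hl0' : 0 < l := hl0
  set v : Fin 3 → ℂ := fun i => (l : ℂ) ^ (![2, 3, 2] : Fin 3 → ℕ) i * y i with hv
  have hnl : ‖(l : ℂ)‖ = l := by rw [Complex.norm_real, Real.norm_of_nonneg hl0'.le]
  have hyi : ∀ i, ‖y i‖ ≤ 1 := fun i => (norm_le_pi_norm y i).trans hy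
  have hvn : ‖v‖ ≤ l ^ 2 := by
    refine (pi_norm_le_iff_of_nonneg (by positivity)).2 fun i => ?_
    have h3 : l ^ (![2, 3, 2] : Fin 3 → ℕ) i ≤ l ^ 2 := by
      refine pow_le_pow_of_le_one hl0'.le hl2.le ?_
      fin_cases i <;> simp
    simp only [hv]
    rw [norm_mul, norm_pow, hnl]
    calc l ^ (![2, 3, 2] : Fin 3 → ℕ) i * ‖y i‖ ≤ l ^ 2 * 1 := by
          gcongr
          exact hyi i
      _ = l ^ 2 := mul_one _
  have hTv : ‖T v‖ ≤ N * l ^ 2 := by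
    calc ‖T v‖ ≤ N * ‖v‖ := (T : (Fin 3 → ℂ) →L[ℂ] (Fin 3 → ℂ)).le_opNorm v
      _ ≤ N * l ^ 2 := by gcongr
  have h3 := hball (T v) (by rw [mem_ball_zero_iff]; exact hTv.trans_lt hl1)
  rw [hT] at h3
  have h4 : v 1 ^ 2 * (a * v 1 + b * v 2) =
      (l : ℂ) ^ 8 * (y 1 ^ 2 * (a * (l * y 1) + b * y 2)) := by
    simp only [hv, Matrix.cons_val]
    ring
  have h5 : ‖v 1 ^ 2 * (a * v 1 + b * v 2)‖ ≤ l ^ 8 * (‖a‖ + ‖b‖) := by
    rw [h4, norm_mul, norm_pow, hnl]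
    gcongr
    rw [norm_mul, norm_pow]
    have h6 : ‖a * (l * y 1) + b * y 2‖ ≤ ‖a‖ + ‖b‖ := by
      refine (norm_add_le _ _).trans ?_
      rw [norm_mul, norm_mul, norm_mul, hnl]
      have h7 : ‖a‖ * (l * ‖y 1‖) ≤ ‖a‖ * 1 := by
        gcongr
        exact mul_le_one₀ hl2.le (norm_nonneg _) (hyi 1)
      have h8 : ‖b‖ * ‖y 2‖ ≤ ‖b‖ * 1 := by
        gcongr
        exact hyi 2
      linarith
    calc ‖y 1‖ ^ 2 * ‖a * (l * y 1) + b * y 2‖ ≤ 1 * (‖a‖ + ‖b‖) := by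
          gcongr
          exact pow_le_one₀ (norm_nonneg _) (hyi 1)
      _ = _ := one_mul _
  calc ‖f (T v)‖ ≤ ‖f (T v) - v 1 ^ 2 * (a * v 1 + b * v 2)‖ +
        ‖v 1 ^ 2 * (a * v 1 + b * v 2)‖ := by
        have := norm_add_le (f (T v) - v 1 ^ 2 * (a * v 1 + b * v 2))
          (v 1 ^ 2 * (a * v 1 + b * v 2))
        rwa [sub_add_cancel] at this
    _ ≤ C * (N * l ^ 2) ^ 4 + l ^ 8 * (‖a‖ + ‖b‖) := by
        refine add_le_add (h3.trans ?_) h5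
        gcongr
    _ = (C * N ^ 4 + (‖a‖ + ‖b‖)) * l ^ 8 := by ring

theorem pd_coord (i j : Fin 3) (x : Fin 3 → ℂ) :
    pd j (fun x : Fin 3 → ℂ => x i) x = (Pi.single j 1 : Fin 3 → ℂ) i := by
  have h : HasFDerivAt (fun x : Fin 3 → ℂ => x i)
      (ContinuousLinearMap.proj (R := ℂ) (φ := fun _ : Fin 3 => ℂ) i) x :=
    (ContinuousLinearMap.proj (R := ℂ) (φ := fun _ : Fin 3 => ℂ) i).hasFDerivAt
  rw [pd, h.fderiv]
  rfl

theorem jac3_coord (f : (Fin 3 → ℂ) → ℂ) :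
    jac3 f (fun x => x 2) (fun x => x 0) = pd 1 f := by
  funext x
  rw [jac3, Matrix.det_fin_three]
  simp [pd_coord]

/-- **Flag step.** -/
theorem flag {r : ℝ} (hr : 0 < r) {F : (Fin 3 → ℂ) → ℂ → ℂ} (hF : IsHolFamily r F) {μ : ℕ}
    (hμ : ∀ t ∈ ball (0 : ℂ) r, Milnor (fun x => F x t) μ) (hμ0 : μ ≠ 0)
    (h2 : ∀ᶠ t in 𝓝 (0 : ℂ), ∀ i j, pd i (pd j fun x => F x t) 0 = 0)
    (hW : ¬ WBad (fun x => F x 0)) : TopRightTrivial r F := by
  have h0r : (0 : ℂ) ∈ ball (0 : ℂ) r := mem_ball_self hr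
  obtain ⟨ψ, hψ, -, htay⟩ := taylor3 (hF 0 h0r).1 (eventually_zero hr hF)
    (eventually_grad hr hF hμ hμ0)
  -- the expansion of `f_t`
  have ht0 : Tendsto (fun t : ℂ => ((0 : Fin 3 → ℂ), t)) (𝓝 0) (𝓝 (0, 0)) :=
    Continuous.tendsto (by fun_prop) 0
  have hψt : ∀ᶠ t in 𝓝 (0 : ℂ), ∀ i j k, AnalyticAt ℂ (ψ i j k) ((0 : Fin 3 → ℂ), t) :=
    eventually_all.2 fun i => eventually_all.2 fun j => eventually_all.2 fun k =>
      ht0.eventually (hψ i j k).eventually_analyticAt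
  have hexp : ∀ᶠ t in 𝓝 (0 : ℂ), ∀ᶠ x in 𝓝 (0 : Fin 3 → ℂ), F x t =
      ∑ i, ∑ j, ∑ k, x i * x j * x k * ψ i j k (x, t) := by
    filter_upwards [h2, slice_ev htay] with t ht1 ht2
    filter_upwards [ht2] with x hx
    rw [hx]
    simp [ht1]
  set τ : Fin 3 → Fin 3 → Fin 3 → ℂ := fun i j k => ψ i j k (0, 0) with hτ
  rcases dichotomy (isCub_P3 τ) with ⟨T, p, q, hpq, hT⟩ | ⟨T, a, b, hT⟩
  swap
  · exact absurd (wbad_of_sq (φ := fun i j k x => ψ i j k (x, 0))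
      (fun i j k => slice_hol (hψ i j k)) hexp.self_of_nhds T hT) hW
  -- linear change of coordinates
  obtain ⟨r', hr', -, hG, hGμ, -, hGT⟩ := coord_change hr hF hμ (linCh T) (Set.mem_univ _)
    (fun q _ => ⟨rfl, fun hq => by rw [linCh_apply, hq, map_zero, ← hq],
      (T.prodCongr (ContinuousLinearEquiv.refl ℂ ℂ)).analyticAt q,
      (T.prodCongr (ContinuousLinearEquiv.refl ℂ ℂ)).symm.analyticAt _⟩)
  refine hGT r' ?_
  set G : (Fin 3 → ℂ) → ℂ → ℂ := fun x t => F ((linCh T) (x, t)).1 t with hGdef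
  have hGF : ∀ x t, G x t = F (T x) t := fun x t => rfl
  set L : Fin 3 → (Fin 2 → ℂ) → ℂ := fun i x => T (inclL 2 x) i with hL
  have hLa : ∀ i, Hol (L i) := fun i =>
    ((ContinuousLinearMap.proj (R := ℂ) (φ := fun _ : Fin 3 => ℂ) i).comp
      ((T : (Fin 3 → ℂ) →L[ℂ] (Fin 3 → ℂ)).comp (inclL 2))).analyticAt 0
  have hL0 : ∀ i, L i 0 = 0 := fun i => by
    simp only [hL]
    rw [map_zero, map_zero]
    rfl
  have hTi : Tendsto (fun x : Fin 2 → ℂ => T (inclL 2 x)) (𝓝 0) (𝓝 0) := by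
    have h3 : Continuous fun x : Fin 2 → ℂ => T (inclL 2 x) := by fun_prop
    have h4 := h3.tendsto 0
    rwa [map_zero, map_zero] at h4
  have hrsG : ∀ t x, rs (fun x => G x t) x = F (T (inclL 2 x)) t := by
    intro t x
    rw [rs, hGF, inclL_apply]
  have key : ∀ᶠ t in 𝓝 (0 : ℂ), ser (rs fun x => G x t) ∈ mR 2 ^ 3 ∧
      ser (rs fun x => G x t) - ser (fun x => ∑ i, ∑ j, ∑ k, L i x * L j x * L k x *
        ψ i j k (0, t)) ∈ mR 2 ^ 4 := by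
    filter_upwards [hψt, hexp] with t ht1 ht2
    have h3 : ∀ i j k, Hol (fun x : Fin 2 → ℂ => ψ i j k (T (inclL 2 x), t)) := by
      intro i j k
      have h4 : AnalyticAt ℂ (fun x : Fin 2 → ℂ => (T (inclL 2 x), t)) 0 := by
        have h5 : AnalyticAt ℂ (fun x : Fin 2 → ℂ => T (inclL 2 x)) 0 :=
          ((T : (Fin 3 → ℂ) →L[ℂ] (Fin 3 → ℂ)).comp (inclL 2)).analyticAt 0
        exact h5.prod analyticAt_const
      have h6 : AnalyticAt ℂ (ψ i j k) ((fun x : Fin 2 → ℂ => (T (inclL 2 x), t)) 0) := by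
        simp only [map_zero]
        exact ht1 i j k
      exact AnalyticAt.fun_comp (g := ψ i j k) (f := fun x : Fin 2 → ℂ => (T (inclL 2 x), t)) h6 h4
    have h4 := jet_ser (u := rs fun x => G x t) hLa hL0 h3 (by
      filter_upwards [hTi.eventually ht2] with x hx
      rw [hrsG, hx])
    simp only [map_zero] at h4
    exact h4
  -- `t = 0`
  have key0 : ser (rs fun x => G x 0) -
      (mo 0 3 + MvPowerSeries.C p * mo 2 1 + MvPowerSeries.C q * mo 3 0) ∈ mR 2 ^ 4 := by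
    have h3 := key.self_of_nhds.2
    rw [← ser_plane p q]
    have h4 : (fun x : Fin 2 → ℂ => ∑ i, ∑ j, ∑ k, L i x * L j x * L k x * ψ i j k (0, 0)) =
        fun x => x 1 ^ 3 + p * (x 0 ^ 2 * x 1) + q * x 0 ^ 3 := by
      funext x
      have h5 := hT (x 0) (x 1)
      have h6 : (![x 0, x 1, 0] : Fin 3 → ℂ) = inclL 2 x := by
        rw [inclL_apply]
        funext i
        fin_cases i <;> rfl
      rw [h6] at h5
      rw [← h5]
      rfl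
    rw [h4] at h3
    exact h3
  have h0r' : (0 : ℂ) ∈ ball (0 : ℂ) r' := mem_ball_self hr'
  have hG0 : Hol (fun x => G x 0) := slice_hol (φ := fun p : (Fin 3 → ℂ) × ℂ => G p.1 p.2)
    (hG 0 h0r').1
  obtain ⟨b, hb6, hb⟩ := colength_le_six hG0 hpq key0
  obtain ⟨c, hc⟩ := exists_colength_line hG0 key0
  have aE : AnalyticAt ℂ (fun p : (Fin 3 → ℂ) × ℂ => p.1 2) (0, 0) :=
    ((ContinuousLinearMap.proj (R := ℂ) (φ := fun _ : Fin 3 => ℂ) 2).comp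
      (ContinuousLinearMap.fst ℂ (Fin 3 → ℂ) ℂ)).analyticAt _
  have aH : AnalyticAt ℂ (fun p : (Fin 3 → ℂ) × ℂ => p.1 0) (0, 0) :=
    ((ContinuousLinearMap.proj (R := ℂ) (φ := fun _ : Fin 3 => ℂ) 0).comp
      (ContinuousLinearMap.fst ℂ (Fin 3 → ℂ) ℂ)).analyticAt _
  refine H137.Main.topRightTrivial (E := fun x _ => x 2) (H := fun x _ => x 0) (b := b) (c := c)
    hr' hG aE aH rfl rfl hGμ hμ0 ?_ hc ?_
  · rw [jac3_coord]
    exact hb
  · filter_upwards [key, isOpen_ball.mem_nhds h0r'] with t ht htr b' hb'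
    rw [jac3_coord] at hb'
    exact hb6.trans (six_le_colength
      (slice_hol (φ := fun p : (Fin 3 → ℂ) × ℂ => G p.1 p.2) (hG t htr).1) ht.1 hb')

end Vale.Agent.P298.H845
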