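import Vale.Agent.P298.H845.Exi2

/-! P298, block S1-GEO-R4 (helper845), part 5: global interpolation, Hartogs at a point,
homogeneous entire functions are polynomials. -/

set_option linter.all false

open Filter Topology Metric Set Polynomial

noncomputable section

namespace Vale.Agent.P298.H845

section Glob

variable {E : Type*} [NormedAddCommGroup E] [NormedSpace ℂ E]

theorem coeff_sum_fin {d : ℕ} (c : Fin d → ℂ) (l : Fin d) :
    (∑ j : Fin d, C (c j) * X ^ (j : ℕ) : Polynomial ℂ).coeff l = c l := by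
  rw [finset_sum_coeff]
  simp only [coeff_C_mul_X_pow]
  rw [Finset.sum_eq_single l]
  · simp
  · intro b _ hb
    rw [if_neg]
    intro h'; apply hb; ext; exact h'.symm
  · simp

theorem GF_analyticAt [FiniteDimensional ℂ E] {d : ℕ} {a : Fin d → E → ℂ} {U : Set E}
    (hU : IsOpen U) (ha : ∀ j, DifferentiableOn ℂ (a j) U) {x : E} (hx : x ∈ U) (z : ℂ) :
    AnalyticAt ℂ (GF a) (x, z) :=
  Vale.Agent.P268.analyticAt_of_differentiableOn (hU.prod isOpen_univ) (GF_diff ha univ)
    ⟨hx, mem_univ z⟩

/-- **Interpolation**: a function on a smooth branched cover `{GF a = 0}` of `U` that is locally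
extendable is a polynomial in the last variable with holomorphic coefficients. -/
theorem herm_global [FiniteDimensional ℂ E] {d : ℕ} {a : Fin d → E → ℂ} {h : E × ℂ → ℂ} {U : Set E}
    (hU : IsOpen U) (ha : ∀ j, DifferentiableOn ℂ (a j) U)
    (hreg : ∀ x ∈ U, ∀ ζ, GF a (x, ζ) = 0 → fderiv ℂ (GF a) (x, ζ) ≠ 0)
    (hext : ∀ x ∈ U, ∀ ζ, GF a (x, ζ) = 0 → ∃ H, LExt (GF a) h (x, ζ) H) :
    ∃ c : Fin d → E → ℂ, (∀ l, DifferentiableOn ℂ (c l) U) ∧
      ∀ x ∈ U, IsHerm a h x (∑ l : Fin d, C (c l x) * X ^ (l : ℕ)) := by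
  classical
  have : CompleteSpace E := FiniteDimensional.complete ℂ E
  have hex : ∀ x ∈ U, ∃ c : Fin d → ℂ, IsHerm a h x (∑ l : Fin d, C (c l) * X ^ (l : ℕ)) := by
    intro x hx
    obtain ⟨N, hNo, hxN, hNU, c, hc, hH⟩ := herm_local hU ha hx (hext x hx)
    exact ⟨fun l => c l x, hH x hxN⟩
  choose! c hc using hex
  have huniq : ∀ x ∈ U, ∀ q q', IsHerm a h x q → IsHerm a h x q' → q = q' := fun x hx q q' h1 h2 =>
    h1.unique (fun ζ _ => GF_analyticAt hU ha hx ζ) (fun ζ hζ => hreg x hx ζ hζ) h2
  refine ⟨fun l x => c x l, fun l x0 hx0 => ?_, hc⟩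
  obtain ⟨N, hNo, hxN, hNU, c', hc', hH⟩ := herm_local hU ha hx0 (hext x0 hx0)
  have hEq : ∀ x ∈ N, c x l = c' l x := by
    intro x hx
    have h1 := huniq x (hNU hx) _ _ (hc x (hNU hx)) (hH x hx)
    have h2 := congrArg (fun p : Polynomial ℂ => p.coeff (l : ℕ)) h1
    simp only [coeff_sum_fin] at h2
    exact h2
  have h3 : DifferentiableAt ℂ (c' l) x0 := (hc' l).differentiableAt (hNo.mem_nhds hxN)
  refine (h3.congr_of_eventuallyEq ?_).differentiableWithinAt
  filter_upwards [hNo.mem_nhds hxN] with x hx using hEq x hx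

end Glob

/-- Hartogs extension across a point in dimension at least two. -/
theorem hartogs_point {m : ℕ} {c : (Fin (m + 2) → ℂ) → ℂ} (hc : DifferentiableOn ℂ c {0}ᶜ) :
    ∃ c' : (Fin (m + 2) → ℂ) → ℂ, Differentiable ℂ c' ∧ ∀ x, x ≠ 0 → c' x = c x := by
  classical
  have hcat : ∀ x : Fin (m + 2) → ℂ, x ≠ 0 → DifferentiableAt ℂ c x := fun x hx =>
    hc.differentiableAt (isOpen_compl_singleton.mem_nhds hx)
  have hupd : Differentiable ℂ fun p : (Fin (m + 2) → ℂ) × ℂ => Function.update p.1 0 p.2 := by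
    refine differentiable_pi.2 fun i => ?_
    by_cases hi : i = 0
    · subst hi
      simp only [Function.update_self]
      fun_prop
    · simp only [Function.update_of_ne hi]
      fun_prop
  set f : (Fin (m + 2) → ℂ) → ℂ := fun x => (2 * Real.pi * Complex.I : ℂ)⁻¹ *
    ∮ ζ in C(0, 1), (ζ - x 0)⁻¹ * c (Function.update x 0 ζ) with hf
  set U : Set (Fin (m + 2) → ℂ) := {x | ‖x 0‖ < 1 / 2} with hU
  have hUo : IsOpen U := isOpen_lt (by fun_prop) continuous_const
  have hUn : U ∈ 𝓝 (0 : Fin (m + 2) → ℂ) := hUo.mem_nhds (by simp [hU])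
  have hfd : DifferentiableOn ℂ f U := by
    refine DifferentiableOn.const_mul ?_ _
    refine Vale.Agent.P268.differentiableOn_circleIntegral
      (G := fun p : (Fin (m + 2) → ℂ) × ℂ => (p.2 - p.1 0)⁻¹ * c (Function.update p.1 0 p.2))
      zero_le_one hUo (W := {ζ : ℂ | 1 / 2 < ‖ζ‖}) (isOpen_lt continuous_const (by fun_prop)) ?_ ?_
    · intro ζ hζ
      rw [mem_sphere_zero_iff_norm] at hζ
      simp only [mem_setOf_eq, hζ]
      norm_num
    · rintro ⟨x, ζ⟩ ⟨hx, hζ⟩
      simp only [hU, mem_setOf_eq] at hx hζ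
      have hne : ζ - x 0 ≠ 0 := by
        intro h0
        rw [sub_eq_zero.1 h0] at hζ
        linarith
      have hne2 : Function.update x 0 ζ ≠ 0 := by
        intro h0
        have := congrFun h0 0
        rw [Function.update_self, Pi.zero_apply] at this
        rw [this, norm_zero] at hζ
        linarith
      refine DifferentiableAt.differentiableWithinAt ?_
      refine DifferentiableAt.fun_mul (DifferentiableAt.fun_inv (by fun_prop) hne) ?_
      exact (hcat _ hne2).comp (x, ζ) (hupd _)
  have hfc : ∀ x ∈ U, x ≠ 0 → f x = c x := by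
    have hA : ∀ x ∈ U, ∀ i, i ≠ 0 → x i ≠ 0 → f x = c x := by
      intro x hx i hi hxi
      have hne : ∀ ζ, Function.update x 0 ζ ≠ 0 := by
        intro ζ h0
        have := congrFun h0 i
        rw [Function.update_of_ne hi, Pi.zero_apply] at this
        exact hxi this
      have hd : DifferentiableOn ℂ (fun ζ => c (Function.update x 0 ζ)) (closedBall 0 1) := by
        intro ζ _
        refine DifferentiableAt.differentiableWithinAt ?_
        exact (hcat _ (hne ζ)).comp ζ ((hupd (x, ζ)).comp ζ (by fun_prop))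
      have hx0 : x 0 ∈ ball (0 : ℂ) 1 := by
        rw [mem_ball_zero_iff]
        simp only [hU, mem_setOf_eq] at hx
        linarith
      have h1 := hd.circleIntegral_sub_inv_smul hx0
      simp only [smul_eq_mul] at h1
      simp only [hf]
      rw [h1, Function.update_eq_self]
      field_simp
    intro x hx hx0
    by_cases h1 : ∃ i, i ≠ 0 ∧ x i ≠ 0
    · obtain ⟨i, hi, hxi⟩ := h1
      exact hA x hx i hi hxi
    · push Not at h1
      set e : Fin (m + 2) → ℂ := Pi.single 1 1 with he
      have h10 : (1 : Fin (m + 2)) ≠ 0 := by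
        intro h; exact absurd (congrArg Fin.val h) (by simp)
      have hl : Tendsto (fun s : ℂ => x + s • e) (𝓝[≠] 0) (𝓝 x) := by
        have : Continuous fun s : ℂ => x + s • e := by fun_prop
        have h2 := this.tendsto 0
        simp only [zero_smul, add_zero] at h2
        exact h2.mono_left nhdsWithin_le_nhds
      have hc1 : Tendsto (fun s : ℂ => f (x + s • e)) (𝓝[≠] 0) (𝓝 (f x)) :=
        ((hfd.differentiableAt (hUo.mem_nhds hx)).continuousAt.tendsto).comp hl
      have hc2 : Tendsto (fun s : ℂ => c (x + s • e)) (𝓝[≠] 0) (𝓝 (c x)) :=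
        ((hcat x hx0).continuousAt.tendsto).comp hl
      refine tendsto_nhds_unique_of_eventuallyEq hc1 hc2 ?_
      filter_upwards [hl.eventually (hUo.mem_nhds hx), self_mem_nhdsWithin] with s hs hs'
      refine hA _ hs 1 h10 ?_
      rw [Pi.add_apply, h1 1 h10, zero_add, Pi.smul_apply, he, Pi.single_eq_same, smul_eq_mul,
        mul_one]
      exact hs'
  refine ⟨Function.update c 0 (f 0), fun x => ?_, fun x hx => Function.update_of_ne hx _ _⟩
  by_cases hx : x = 0
  · subst hx
    refine (hfd.differentiableAt hUn).congr_of_eventuallyEq ?_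
    filter_upwards [hUn] with y hy
    by_cases hy0 : y = 0
    · rw [hy0, Function.update_self]
    · rw [Function.update_of_ne hy0, hfc y hy hy0]
  · refine (hcat x hx).congr_of_eventuallyEq ?_
    filter_upwards [isOpen_compl_singleton.mem_nhds hx] with y hy
    exact Function.update_of_ne hy _ _

section Homog

variable {n : ℕ}

/-- the polynomial of a multilinear form on the diagonal -/
theorem exists_poly_of_multilinear (k : ℕ)
    (M : ContinuousMultilinearMap ℂ (fun _ : Fin k => Fin n → ℂ) ℂ) :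
    ∃ P : MvPolynomial (Fin n) ℂ, P.IsHomogeneous k ∧
      ∀ x, MvPolynomial.eval x P = M fun _ => x := by
  classical
  refine ⟨∑ r : Fin k → Fin n, MvPolynomial.C (M fun i => Pi.single (r i) 1) *
    ∏ i, MvPolynomial.X (r i), ?_, ?_⟩
  · refine MvPolynomial.IsHomogeneous.sum _ _ _ fun r _ => ?_
    have h1 := MvPolynomial.IsHomogeneous.prod Finset.univ
      (fun i : Fin k => (MvPolynomial.X (r i) : MvPolynomial (Fin n) ℂ)) (fun _ => 1)
      (fun i _ => MvPolynomial.isHomogeneous_X ℂ (r i))
    have h2 := (MvPolynomial.isHomogeneous_C (Fin n) (M fun i => Pi.single (r i) (1 : ℂ))).mul h1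
    simpa using h2
  · intro x
    have hx : (fun _ : Fin k => x) = fun i : Fin k => ∑ j : Fin n, x j • (Pi.single j (1 : ℂ) : Fin n → ℂ) := by
      funext i
      exact (pi_eq_sum_univ' x).trans (by simp [Pi.single_apply, funext_iff, eq_comm])
    rw [hx]
    have h3 := M.toMultilinearMap.map_sum (fun (_ : Fin k) (j : Fin n) => x j • (Pi.single j (1 : ℂ) : Fin n → ℂ))
    have h4 : (M fun i : Fin k => ∑ j : Fin n, x j • (Pi.single j (1 : ℂ) : Fin n → ℂ)) = ∑ r : Fin k → Fin n,
        M fun i => x (r i) • (Pi.single (r i) (1 : ℂ) : Fin n → ℂ) := h3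
    rw [h4, map_sum]
    refine Finset.sum_congr rfl fun r _ => ?_
    have h5 := M.map_smul_univ (fun i => x (r i)) (fun i => (Pi.single (r i) (1 : ℂ) : Fin n → ℂ))
    rw [h5]
    simp [mul_comm]

/-- homogeneous entire functions are homogeneous polynomials -/
theorem homog_poly [NeZero n] {c : (Fin n → ℂ) → ℂ} (hc : Differentiable ℂ c) {k : ℕ}
    (hh : ∀ t : ℂ, t ≠ 0 → ∀ x, x ≠ 0 → c (t • x) = t ^ k * c x) :
    ∃ P : MvPolynomial (Fin n) ℂ, P.IsHomogeneous k ∧ ∀ x, c x = MvPolynomial.eval x P := by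
  have hne : Nontrivial (Fin n → ℂ) := by
    have : Nonempty (Fin n) := ⟨0⟩
    infer_instance
  obtain ⟨P, hP, hPe⟩ := exists_poly_of_multilinear k
    (((k.factorial : ℂ)⁻¹) • iteratedFDeriv ℂ k c 0)
  refine ⟨P, hP, ?_⟩
  have hline : ∀ x, x ≠ 0 → c x = MvPolynomial.eval x P := by
    intro x hx
    have hg : (fun s : ℂ => c (0 + s • x)) = fun s => s ^ k * c x := by
      have hcont1 : Continuous fun s : ℂ => c (0 + s • x) :=
        hc.continuous.comp (by fun_prop)
      have hcont2 : Continuous fun s : ℂ => s ^ k * c x := by fun_prop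
      refine hcont1.ext_on (dense_compl_singleton (0 : ℂ)) hcont2 fun s hs => ?_
      simp only [zero_add]
      exact hh s hs x hx
    have h1 := Vale.Agent.P268.iteratedDeriv_line (f := c) (U := univ) isOpen_univ (n := k)
      (Vale.Agent.P268.contDiffOn_of_differentiableOn isOpen_univ hc.differentiableOn k)
      (x := 0) (y := x) (t := 0) (mem_univ _)
    rw [hg] at h1
    have h2 : iteratedDeriv k (fun s : ℂ => s ^ k * c x) 0 = (k.factorial : ℂ) * c x := by
      have h3 : (fun s : ℂ => s ^ k * c x) = fun s => c x * s ^ k := by funext s; ring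
      have h5 : ∏ i ∈ Finset.range k, ((k : ℂ) - (i : ℂ)) = (k.factorial : ℂ) := by
        rw [← Nat.descFactorial_self, Nat.descFactorial_eq_prod_range, Nat.cast_prod]
        refine Finset.prod_congr rfl fun i hi => ?_
        rw [Nat.cast_sub (Finset.mem_range.1 hi).le]
      rw [h3, iteratedDeriv_const_mul_field, iteratedDeriv_eq_iterate, iter_deriv_pow]
      simp [h5, mul_comm]
    rw [h2, zero_smul, add_zero] at h1
    rw [hPe, ContinuousMultilinearMap.smul_apply, ← h1, smul_eq_mul]
    have : (k.factorial : ℂ) ≠ 0 := by exact_mod_cast k.factorial_ne_zero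
    field_simp
  have hP' : Continuous fun x : Fin n → ℂ => MvPolynomial.eval x P := MvPolynomial.continuous_eval P
  have := hc.continuous.ext_on (dense_compl_singleton (0 : Fin n → ℂ)) hP' fun x hx => hline x hx
  exact fun x => congrFun this x

/-- entire functions homogeneous of negative degree vanish -/
theorem homog_neg [NeZero n] {c : (Fin n → ℂ) → ℂ} (hc : Differentiable ℂ c) {k : ℕ} (hk : k ≠ 0)
    (hh : ∀ t : ℂ, t ≠ 0 → ∀ x, x ≠ 0 → t ^ k * c (t • x) = c x) : ∀ x, c x = 0 := by
  have hne : Nontrivial (Fin n → ℂ) := by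
    have : Nonempty (Fin n) := ⟨0⟩
    infer_instance
  have h1 : ∀ x, x ≠ 0 → c x = 0 := by
    intro x hx
    have hc1 : Tendsto (fun t : ℂ => t ^ k * c (t • x)) (𝓝[≠] 0) (𝓝 0) := by
      have hcont : Continuous fun t : ℂ => t ^ k * c (t • x) := by
        have := hc.continuous
        fun_prop
      have := (hcont.tendsto 0).mono_left (nhdsWithin_le_nhds (s := {(0 : ℂ)}ᶜ))
      simpa [hk] using this
    have hc2 : Tendsto (fun t : ℂ => t ^ k * c (t • x)) (𝓝[≠] 0) (𝓝 (c x)) := by
      refine tendsto_const_nhds.congr' ?_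
      filter_upwards [self_mem_nhdsWithin] with t ht
      exact (hh t ht x hx).symm
    exact tendsto_nhds_unique hc2 hc1
  have := hc.continuous.ext_on (dense_compl_singleton (0 : Fin n → ℂ)) continuous_const
    (fun x hx => h1 x hx)
  exact fun x => congrFun this x

end Homog

end Vale.Agent.P298.H845
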