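import Vale.Agent.P268.Hol

/-! P298, block S1-GEO-R4 (helper845), part 1: local lemmas for the Lagrange/Euler trace formula. -/

set_option linter.all false

open Filter Topology Metric Set Polynomial

noncomputable section

namespace Vale.Agent.P298.H845

/-- divisibility of complex polynomials from a local bound at every root -/
theorem poly_dvd {P r : Polynomial ℂ} (hP : P ≠ 0)
    (h : ∀ ζ, P.eval ζ = 0 → ∃ C : ℝ, ∀ᶠ z in 𝓝 ζ, ‖r.eval z‖ ≤ C * ‖P.eval z‖) : P ∣ r := by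
  classical
  by_cases hr : r = 0
  · rw [hr]; exact dvd_zero _
  rw [IsAlgClosed.dvd_iff_roots_le_roots hP hr, Multiset.le_iff_count]
  intro ζ
  rw [count_roots, count_roots]
  by_cases hζ : P.eval ζ = 0
  swap
  · rw [rootMultiplicity_eq_zero (by rwa [IsRoot.def])]; exact Nat.zero_le _
  by_contra hlt
  push Not at hlt
  obtain ⟨C, hC⟩ := h ζ hζ
  obtain ⟨r1, hr1, hr1'⟩ := exists_eq_pow_rootMultiplicity_mul_and_not_dvd r hr ζ
  obtain ⟨P1, hP1, hP1'⟩ := exists_eq_pow_rootMultiplicity_mul_and_not_dvd P hP ζ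
  set s := r.rootMultiplicity ζ with hs
  set m := P.rootMultiplicity ζ with hm
  have hr1ζ : r1.eval ζ ≠ 0 := fun h0 => hr1' (dvd_iff_isRoot.2 h0)
  have hb : ∀ᶠ z in 𝓝[≠] ζ, ‖r1.eval z‖ ≤ C * (‖z - ζ‖ ^ (m - s) * ‖P1.eval z‖) := by
    filter_upwards [hC.filter_mono nhdsWithin_le_nhds, self_mem_nhdsWithin] with z hz hz'
    have hz0 : (0 : ℝ) < ‖z - ζ‖ := norm_pos_iff.2 (sub_ne_zero.2 hz')
    rw [hr1, hP1] at hz
    simp only [eval_mul, eval_pow, eval_sub, eval_X, eval_C, norm_mul, norm_pow] at hz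
    have e1 : ‖z - ζ‖ ^ m = ‖z - ζ‖ ^ s * ‖z - ζ‖ ^ (m - s) := by
      rw [← pow_add]; congr 1; omega
    rw [e1] at hz
    have hzs : 0 < ‖z - ζ‖ ^ s := pow_pos hz0 s
    have e2 : C * (‖z - ζ‖ ^ s * ‖z - ζ‖ ^ (m - s) * ‖P1.eval z‖) =
        ‖z - ζ‖ ^ s * (C * (‖z - ζ‖ ^ (m - s) * ‖P1.eval z‖)) := by ring
    rw [e2] at hz
    exact le_of_mul_le_mul_left hz hzs
  have hlim : Tendsto (fun z => C * (‖z - ζ‖ ^ (m - s) * ‖P1.eval z‖)) (𝓝[≠] ζ) (𝓝 0) := by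
    have hcont : Continuous fun z : ℂ => C * (‖z - ζ‖ ^ (m - s) * ‖P1.eval z‖) := by
      have := P1.continuous
      fun_prop
    have := (hcont.tendsto ζ).mono_left (nhdsWithin_le_nhds (s := {ζ}ᶜ))
    simpa [Nat.sub_ne_zero_of_lt hlt] using this
  have hlim2 : Tendsto (fun z => ‖r1.eval z‖) (𝓝[≠] ζ) (𝓝 ‖r1.eval ζ‖) :=
    ((r1.continuous.norm).tendsto ζ).mono_left nhdsWithin_le_nhds
  have := le_of_tendsto_of_tendsto hlim2 hlim hb
  exact hr1ζ (norm_le_zero_iff.1 this)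

/-- circle integrals of Cauchy type are bounded near a point off the circle -/
theorem circle_bdd {g : ℂ → ℂ} {c : ℂ} {R : ℝ} (hR : 0 < R) (hg : ContinuousOn g (sphere c R))
    {ζ : ℂ} (hζ : ζ ∉ sphere c R) :
    ∃ C : ℝ, 0 ≤ C ∧ ∀ᶠ z in 𝓝 ζ, ‖∮ w in C(c, R), g w / (w - z)‖ ≤ C := by
  obtain ⟨B, hB⟩ := (isCompact_sphere c R).exists_bound_of_continuousOn hg
  have hopen : (sphere c R)ᶜ ∈ 𝓝 ζ := isClosed_sphere.isOpen_compl.mem_nhds hζ
  obtain ⟨m, hm, hball⟩ := Metric.mem_nhds_iff.1 hopen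
  have hB0 : 0 ≤ B := by
    have hne : (sphere c R).Nonempty := NormedSpace.sphere_nonempty.2 hR.le
    obtain ⟨w, hw⟩ := hne
    exact (norm_nonneg _).trans (hB w hw)
  refine ⟨2 * Real.pi * R * (B / (m / 2)), by positivity, ?_⟩
  filter_upwards [Metric.ball_mem_nhds ζ (half_pos hm)] with z hz
  refine circleIntegral.norm_integral_le_of_norm_le_const hR.le fun w hw => ?_
  have h1 : m / 2 ≤ ‖w - z‖ := by
    by_contra hlt
    push Not at hlt
    have : w ∈ ball ζ m := by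
      rw [mem_ball, dist_eq_norm]
      rw [mem_ball, dist_eq_norm] at hz
      calc ‖w - ζ‖ = ‖(w - z) + (z - ζ)‖ := by congr 1; ring
        _ ≤ ‖w - z‖ + ‖z - ζ‖ := norm_add_le _ _
        _ < m := by linarith
    exact hball this hw
  rw [norm_div]
  have h2 : (0 : ℝ) < m / 2 := half_pos hm
  gcongr
  exact hB w hw

variable {V : Type*} [NormedAddCommGroup V] [NormedSpace ℂ V] [CompleteSpace V]

/-- a function vanishing on a smooth hypersurface is bounded by the equation -/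
theorem bound_of_zero {G φ : V → ℂ} {p : V} (hG : ContDiffAt ℂ 1 G p) (hG0 : G p = 0)
    (hG1 : fderiv ℂ G p ≠ 0) (hφ : ContDiffAt ℂ 1 φ p)
    (hz : ∀ᶠ q in 𝓝 p, G q = 0 → φ q = 0) :
    ∃ C : ℝ, ∀ᶠ q in 𝓝 p, ‖φ q‖ ≤ C * ‖G q‖ := by
  obtain ⟨e0, he0⟩ : ∃ e, fderiv ℂ G p e ≠ 0 := by
    by_contra hcon
    push Not at hcon
    exact hG1 (ContinuousLinearMap.ext hcon)
  set ℓ : V →L[ℂ] ℂ := fderiv ℂ G p with hℓ
  set e : V := (ℓ e0)⁻¹ • e0 with he
  have hℓe : ℓ e = 1 := by rw [he, map_smul, smul_eq_mul, inv_mul_cancel₀ he0]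
  have hGs : HasStrictFDerivAt G ℓ p := hG.hasStrictFDerivAt one_ne_zero
  set Ψ : V → V := fun q => q + (G q - ℓ (q - p)) • e with hΨ
  have hΨs : HasStrictFDerivAt Ψ (ContinuousLinearEquiv.refl ℂ V : V →L[ℂ] V) p := by
    have h1 : HasStrictFDerivAt (fun q : V => ℓ (q - p)) ℓ p :=
      ℓ.hasStrictFDerivAt.comp p ((hasStrictFDerivAt_id p).sub_const p)
    have h2 : HasStrictFDerivAt (fun q => G q - ℓ (q - p)) (0 : V →L[ℂ] ℂ) p := by
      have := hGs.sub h1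
      rwa [sub_self] at this
    have h3 := (hasStrictFDerivAt_id (𝕜 := ℂ) p).add (h2.smul_const e)
    refine h3.congr_fderiv ?_
    ext v
    simp
  set Φ := hΨs.localInverse Ψ _ p with hΦ
  have hΨp : Ψ p = p := by simp [hΨ, hG0]
  have hΦs : HasStrictFDerivAt Φ (ContinuousLinearMap.id ℂ V) p := by
    have := hΨs.to_localInverse
    rw [hΨp] at this
    exact this
  have hleft : ∀ᶠ q in 𝓝 p, Φ (Ψ q) = q := hΨs.eventually_left_inverse
  have hright : ∀ᶠ w in 𝓝 p, Ψ (Φ w) = w := by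
    have := hΨs.eventually_right_inverse
    rwa [hΨp] at this
  have hΦp : Φ p = p := by
    have := hleft.self_of_nhds
    rwa [hΨp] at this
  obtain ⟨K, sK, hsK, hLipΦ⟩ := hΦs.exists_lipschitzOnWith
  obtain ⟨K', sK', hsK', hLipφ⟩ := (hφ.hasStrictFDerivAt one_ne_zero).exists_lipschitzOnWith
  -- the projection onto the hypersurface
  have hΨc : Tendsto Ψ (𝓝 p) (𝓝 p) := by
    have := hΨs.continuousAt.tendsto
    rwa [hΨp] at this
  set ws : V → V := fun q => Ψ q - ℓ (Ψ q - p) • e with hws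
  have hwsc : Tendsto ws (𝓝 p) (𝓝 p) := by
    have h1 : Tendsto (fun q => Ψ q - ℓ (Ψ q - p) • e) (𝓝 p) (𝓝 (p - ℓ (p - p) • e)) :=
      hΨc.sub (((ℓ.continuous.tendsto _).comp (hΨc.sub_const p)).smul_const e)
    have h0 : p - ℓ (p - p) • e = p := by simp
    rw [h0] at h1
    exact h1
  have hΦc : Tendsto Φ (𝓝 p) (𝓝 p) := by
    have := hΦs.continuousAt.tendsto
    rwa [hΦp] at this
  have hℓΨ : ∀ q, ℓ (Ψ q - p) = G q := by
    intro q
    have : Ψ q - p = (q - p) + (G q - ℓ (q - p)) • e := by simp only [hΨ]; abel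
    rw [this, map_add, map_smul, hℓe, smul_eq_mul, mul_one]
    ring
  refine ⟨K' * (K * ‖e‖), ?_⟩
  have hps := hΦc.comp hwsc
  filter_upwards [hleft, hwsc.eventually hright, hΨc.eventually hsK, hwsc.eventually hsK,
    hps.eventually hz, hps.eventually hsK', hsK'] with q h1 h2 h3 h4 h5 h6 h7
  have hGps : G (Φ (ws q)) = 0 := by
    rw [← hℓΨ, h2]
    have : ws q - p = (Ψ q - p) - ℓ (Ψ q - p) • e := by simp only [hws]; abel
    rw [this, map_sub, map_smul, hℓe, smul_eq_mul, mul_one, sub_self]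
  have h8 : φ (Φ (ws q)) = 0 := h5 hGps
  have h9 : ‖φ q - φ (Φ (ws q))‖ ≤ K' * ‖q - Φ (ws q)‖ := by
    have := hLipφ.dist_le_mul q h7 (Φ (ws q)) h6
    rwa [dist_eq_norm, dist_eq_norm] at this
  have h10 : ‖Φ (Ψ q) - Φ (ws q)‖ ≤ K * ‖Ψ q - ws q‖ := by
    have := hLipΦ.dist_le_mul (Ψ q) h3 (ws q) h4
    rwa [dist_eq_norm, dist_eq_norm] at this
  have h11 : Ψ q - ws q = G q • e := by
    simp only [hws]; rw [hℓΨ]; abel
  rw [h1, h11, norm_smul] at h10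
  rw [h8, sub_zero] at h9
  calc ‖φ q‖ ≤ K' * ‖q - Φ (ws q)‖ := h9
    _ ≤ K' * (K * (‖G q‖ * ‖e‖)) := by gcongr
    _ = K' * (K * ‖e‖) * ‖G q‖ := by ring

end Vale.Agent.P298.H845
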