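import Vale.Agent.P298.H845.Herm

/-! P298, block S1-GEO-R4 (helper845), part 2: Hermite interpolation along a smooth branched cover
`{(x, z) : P x z = 0}`, `P x` a monic polynomial in `z` with holomorphic coefficients. -/

set_option linter.all false

open Filter Topology Metric Set Polynomial

noncomputable section

namespace Vale.Agent.P298.H845

variable {E : Type*} [NormedAddCommGroup E] [NormedSpace ℂ E]

/-- the monic polynomial `z ^ d + ∑ a_j(x) z ^ j` -/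
def MP {d : ℕ} (a : Fin d → E → ℂ) (x : E) : Polynomial ℂ := X ^ d + ∑ j : Fin d, C (a j x) * X ^ (j : ℕ)

/-- the equation -/
def GF {d : ℕ} (a : Fin d → E → ℂ) (p : E × ℂ) : ℂ := (MP a p.1).eval p.2

theorem MP_degree_aux {d : ℕ} (a : Fin d → E → ℂ) (x : E) :
    (∑ j : Fin d, C (a j x) * X ^ (j : ℕ) : Polynomial ℂ).degree < d :=
  degree_sum_fin_lt _

theorem MP_monic {d : ℕ} (a : Fin d → E → ℂ) (x : E) : (MP a x).Monic :=
  monic_X_pow_add (MP_degree_aux a x)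

theorem MP_natDegree {d : ℕ} (a : Fin d → E → ℂ) (x : E) : (MP a x).natDegree = d := by
  have h : (MP a x).degree = d := by
    unfold MP
    rw [degree_add_eq_left_of_degree_lt]
    · exact degree_X_pow d
    · rw [degree_X_pow]; exact MP_degree_aux a x
  exact natDegree_eq_of_degree_eq_some h

theorem MP_eval {d : ℕ} (a : Fin d → E → ℂ) (x : E) (z : ℂ) :
    (MP a x).eval z = z ^ d + ∑ j : Fin d, a j x * z ^ (j : ℕ) := by
  simp [MP, eval_finset_sum]

theorem GF_apply {d : ℕ} (a : Fin d → E → ℂ) (p : E × ℂ) :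
    GF a p = p.2 ^ d + ∑ j : Fin d, a j p.1 * p.2 ^ (j : ℕ) := MP_eval a p.1 p.2

/-- local extension of a function from the hypersurface -/
def LExt (G : E × ℂ → ℂ) (h : E × ℂ → ℂ) (p : E × ℂ) (H : E × ℂ → ℂ) : Prop :=
  AnalyticAt ℂ H p ∧ ∀ᶠ q in 𝓝 p, G q = 0 → H q = h q

/-- `q` is the Hermite interpolation polynomial of `h` over the point `x` -/
def IsHerm {d : ℕ} (a : Fin d → E → ℂ) (h : E × ℂ → ℂ) (x : E) (q : Polynomial ℂ) : Prop :=
  q.degree < d ∧ ∀ ζ, (MP a x).eval ζ = 0 → ∃ H, LExt (GF a) h (x, ζ) H ∧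
    ∃ K : ℝ, ∀ᶠ z in 𝓝 ζ, ‖H (x, z) - q.eval z‖ ≤ K * ‖(MP a x).eval z‖

/-- difference quotient coefficients: `∑_l bq l w z ^ l = (P w - P z) / (w - z)` -/
def bq {d : ℕ} (a : Fin d → E → ℂ) (l : ℕ) (x : E) (w : ℂ) : ℂ :=
  ∑ j ∈ Finset.range (d + 1), if l < j then (MP a x).coeff j * w ^ (j - 1 - l) else 0

theorem bq_sum {d : ℕ} (a : Fin d → E → ℂ) (x : E) (w z : ℂ) :
    (∑ l ∈ Finset.range d, bq a l x w * z ^ l) * (w - z) = (MP a x).eval w - (MP a x).eval z := by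
  have hdeg : (MP a x).natDegree < d + 1 := by rw [MP_natDegree]; exact Nat.lt_succ_self d
  rw [eval_eq_sum_range' hdeg, eval_eq_sum_range' hdeg, ← Finset.sum_sub_distrib]
  have e1 : (∑ l ∈ Finset.range d, bq a l x w * z ^ l) =
      ∑ j ∈ Finset.range (d + 1), (MP a x).coeff j *
        ∑ l ∈ Finset.range j, z ^ l * w ^ (j - 1 - l) := by
    simp only [bq, Finset.sum_mul]
    rw [Finset.sum_comm]
    refine Finset.sum_congr rfl fun j hj => ?_
    rw [Finset.mem_range] at hj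
    rw [Finset.mul_sum]
    rw [← Finset.sum_subset (Finset.range_subset_range.2 (by omega : j ≤ d))]
    · refine Finset.sum_congr rfl fun l hl => ?_
      rw [Finset.mem_range] at hl
      rw [if_pos hl]; ring
    · intro l _ hl
      rw [Finset.mem_range] at hl
      rw [if_neg hl, zero_mul]
  rw [e1, Finset.sum_mul]
  refine Finset.sum_congr rfl fun j _ => ?_
  have e2 := geom_sum₂_mul z w j
  linear_combination (-(MP a x).coeff j) * e2

/-- uniqueness of the Hermite polynomial -/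
theorem IsHerm.unique [CompleteSpace E] {d : ℕ} {a : Fin d → E → ℂ} {h : E × ℂ → ℂ} {x : E}
    (hG : ∀ ζ, (MP a x).eval ζ = 0 → AnalyticAt ℂ (GF a) (x, ζ))
    (hreg : ∀ ζ, (MP a x).eval ζ = 0 → fderiv ℂ (GF a) (x, ζ) ≠ 0)
    {q q' : Polynomial ℂ} (hq : IsHerm a h x q) (hq' : IsHerm a h x q') : q = q' := by
  have hmon := MP_monic a x
  have hdvd : MP a x ∣ q - q' := by
    refine poly_dvd hmon.ne_zero fun ζ hζ => ?_
    obtain ⟨H, ⟨hHa, hHe⟩, K, hK⟩ := hq.2 ζ hζ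
    obtain ⟨H', ⟨hHa', hHe'⟩, K', hK'⟩ := hq'.2 ζ hζ
    obtain ⟨C, hC⟩ := bound_of_zero (G := GF a) (φ := fun p => H p - H' p) (p := (x, ζ))
      (hG ζ hζ).contDiffAt hζ (hreg ζ hζ) (hHa.sub hHa').contDiffAt
      (by
        filter_upwards [hHe, hHe'] with p h1 h2 h0
        rw [h1 h0, h2 h0, sub_self])
    have hslice : Tendsto (fun z : ℂ => ((x, z) : E × ℂ)) (𝓝 ζ) (𝓝 (x, ζ)) :=
      (by fun_prop : Continuous fun z : ℂ => ((x, z) : E × ℂ)).tendsto ζ
    refine ⟨C + K + K', ?_⟩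
    filter_upwards [hslice.eventually hC, hK, hK'] with z h1 h2 h3
    have e1 : (q - q').eval z = (H (x, z) - H' (x, z)) - (H (x, z) - q.eval z) +
        (H' (x, z) - q'.eval z) := by rw [eval_sub]; ring
    rw [e1]
    have h1' : ‖H (x, z) - H' (x, z)‖ ≤ C * ‖(MP a x).eval z‖ := h1
    calc ‖(H (x, z) - H' (x, z)) - (H (x, z) - q.eval z) + (H' (x, z) - q'.eval z)‖
        ≤ ‖H (x, z) - H' (x, z)‖ + ‖H (x, z) - q.eval z‖ + ‖H' (x, z) - q'.eval z‖ :=
          (norm_add_le _ _).trans (add_le_add_left (norm_sub_le _ _) _)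
      _ ≤ (C + K + K') * ‖(MP a x).eval z‖ := by linarith
  have hdeg : (q - q').degree < (MP a x).degree := by
    rw [degree_eq_natDegree hmon.ne_zero, MP_natDegree]
    exact (degree_sub_le _ _).trans_lt (max_lt hq.1 hq'.1)
  exact sub_eq_zero.1 (eq_zero_of_dvd_of_degree_lt hdvd hdeg)

/-- the Hermite polynomial interpolates `h` -/
theorem IsHerm.eval {d : ℕ} {a : Fin d → E → ℂ} {h : E × ℂ → ℂ} {x : E} {q : Polynomial ℂ}
    (hq : IsHerm a h x q) {ζ : ℂ} (hζ : (MP a x).eval ζ = 0) : q.eval ζ = h (x, ζ) := by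
  obtain ⟨H, ⟨hHa, hHe⟩, K, hK⟩ := hq.2 ζ hζ
  have h1 : H (x, ζ) = h (x, ζ) := hHe.self_of_nhds hζ
  have h2 := hK.self_of_nhds
  rw [hζ, norm_zero, mul_zero] at h2
  rw [← h1]
  exact (sub_eq_zero.1 (norm_le_zero_iff.1 h2)).symm

end Vale.Agent.P298.H845
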