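import Vale.Agent.P298.H845.Cr1
import Vale.Agent.P298.H845.Cr2
import Vale.Agent.P298.Main.Iface

/-!
# P298: the cases `μ = 0` and corank at most two in the form of the top level interface
-/

namespace Vale.Agent.P298.H845

open Filter Topology Metric Vale.Agent.P298

theorem mu0Stmt : Main.Mu0Stmt := by
  intro r hr F hF hμ
  by_contra hcon
  have h1 : ∀ i, pd i (fun x => F x 0) 0 = 0 := by
    intro i
    by_contra h2
    exact hcon (cr1 hr hF i h2)
  exact milnor_ne_zero (hμ 0 (mem_ball_self hr)) h1 rfl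

theorem cr2Stmt (hN : N2Asm) : Main.CR2Stmt := by
  intro r hr F hF μ hμ hc
  by_cases h1 : ∀ i, pd i (fun x => F x 0) 0 = 0
  · refine cr2 hN hr hF hμ h1 ?_
    unfold Main.Corank3 at hc
    push Not at hc
    exact hc
  · push Not at h1
    obtain ⟨i, hi⟩ := h1
    exact cr1 hr hF i hi

end Vale.Agent.P298.H845
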