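import Vale.Agent.P298.H845.Cone

/-! P298, block S1-GEO-R4 (helper845), part 7: **sections of `O(k)` on a smooth hypersurface of
projective space are polynomials**, in cone language. -/

set_option linter.all false

open Filter Topology Metric Set

noncomputable section

namespace Vale.Agent.P298.H845

section Split

variable {n : ℕ}

/-- restriction of an exponent to the first `n` variables -/
def low (s : Fin (n + 1) →₀ ℕ) : Fin n →₀ ℕ := Finsupp.equivFunOnFinite.symm fun i => s i.castSucc

theorem low_apply (s : Fin (n + 1) →₀ ℕ) (i : Fin n) : low s i = s i.castSucc := rfl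

theorem split_exp (s : Fin (n + 1) →₀ ℕ) :
    (low s).mapDomain Fin.castSucc + Finsupp.single (Fin.last n) (s (Fin.last n)) = s := by
  ext i
  refine Fin.lastCases ?_ (fun j => ?_) i
  · rw [Finsupp.add_apply, Finsupp.single_eq_same, Finsupp.mapDomain_notin_range, zero_add]
    rintro ⟨j, hj⟩
    exact (Fin.castSucc_lt_last j).ne hj
  · rw [Finsupp.add_apply, Finsupp.mapDomain_apply (Fin.castSucc_injective n), low_apply,
      Finsupp.single_apply, if_neg (Fin.castSucc_lt_last j).ne', add_zero]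

/-- the coefficient of `X_last ^ l` -/
def part (A : MvPolynomial (Fin (n + 1)) ℂ) (l : ℕ) : MvPolynomial (Fin n) ℂ :=
  ∑ s ∈ A.support.filter (fun s => s (Fin.last n) = l), MvPolynomial.monomial (low s) (A.coeff s)

theorem sum_part {d : ℕ} {A : MvPolynomial (Fin (n + 1)) ℂ}
    (hA : ∀ s ∈ A.support, s (Fin.last n) < d) :
    A = ∑ l : Fin d, MvPolynomial.rename Fin.castSucc (part A l) *
      MvPolynomial.X (Fin.last n) ^ (l : ℕ) := by
  classical
  have h1 : ∀ s : Fin (n + 1) →₀ ℕ, ∀ c : ℂ,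
      MvPolynomial.rename Fin.castSucc (MvPolynomial.monomial (low s) c) *
        MvPolynomial.X (Fin.last n) ^ (s (Fin.last n)) = MvPolynomial.monomial s c := by
    intro s c
    rw [MvPolynomial.rename_monomial, MvPolynomial.X_pow_eq_monomial, MvPolynomial.monomial_mul,
      mul_one, split_exp]
  rw [Fin.sum_univ_eq_sum_range (fun l => MvPolynomial.rename Fin.castSucc (part A l) *
      MvPolynomial.X (Fin.last n) ^ l) d]
  conv_lhs => rw [MvPolynomial.as_sum A]
  rw [← Finset.sum_fiberwise_of_maps_to (s := A.support) (t := Finset.range d)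
    (g := fun s => s (Fin.last n)) (fun s hs => Finset.mem_range.2 (hA s hs))]
  refine Finset.sum_congr rfl fun l _ => ?_
  rw [part, map_sum, Finset.sum_mul]
  refine Finset.sum_congr rfl fun s hs => ?_
  rw [← (Finset.mem_filter.1 hs).2, h1]

theorem part_homog {k l : ℕ} {A : MvPolynomial (Fin (n + 1)) ℂ} (hA : A.IsHomogeneous k) :
    (part A l).IsHomogeneous (k - l) := by
  classical
  refine MvPolynomial.IsHomogeneous.sum _ _ _ fun s hs => ?_
  obtain ⟨hs1, hs2⟩ := Finset.mem_filter.1 hs
  refine MvPolynomial.isHomogeneous_monomial _ ?_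
  have h1 : s.degree = k := by
    by_contra hne
    exact (MvPolynomial.mem_support_iff.1 hs1) (hA.coeff_eq_zero hne)
  have h2 : s.degree = (low s).degree + s (Fin.last n) := by
    rw [Finsupp.degree_eq_sum, Finsupp.degree_eq_sum, Fin.sum_univ_castSucc]
    rfl
  omega

theorem eval_split {d : ℕ} (P : Fin d → MvPolynomial (Fin n) ℂ) (x : Fin n → ℂ) (z : ℂ) :
    MvPolynomial.eval (Fin.snoc x z : Fin (n + 1) → ℂ)
      (∑ l : Fin d, MvPolynomial.rename Fin.castSucc (P l) *
        MvPolynomial.X (Fin.last n) ^ (l : ℕ)) =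
      ∑ l : Fin d, MvPolynomial.eval x (P l) * z ^ (l : ℕ) := by
  have h1 : (Fin.snoc x z : Fin (n + 1) → ℂ) ∘ Fin.castSucc = x := by
    funext i; simp
  simp [map_sum, MvPolynomial.eval_rename, h1]

theorem exp_lt {d : ℕ} (P : Fin d → MvPolynomial (Fin n) ℂ) :
    ∀ s ∈ (∑ l : Fin d, MvPolynomial.rename Fin.castSucc (P l) *
        MvPolynomial.X (Fin.last n) ^ (l : ℕ) : MvPolynomial (Fin (n + 1)) ℂ).support,
      s (Fin.last n) < d := by
  classical
  intro s hs
  rw [MvPolynomial.mem_support_iff, MvPolynomial.coeff_sum] at hs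
  obtain ⟨l, _, hl⟩ := Finset.exists_ne_zero_of_sum_ne_zero hs
  rw [MvPolynomial.X_pow_eq_monomial, MvPolynomial.coeff_mul_monomial'] at hl
  split_ifs at hl with h1
  · rw [mul_one] at hl
    obtain ⟨u, hu, _⟩ := MvPolynomial.coeff_rename_ne_zero _ _ _ hl
    have h2 := DFunLike.congr_fun hu (Fin.last n)
    rw [Finsupp.mapDomain_notin_range, Finsupp.tsub_apply, Finsupp.single_eq_same] at h2
    · have h3 := h1 (Fin.last n)
      rw [Finsupp.single_eq_same] at h3
      have := l.2
      omega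
    · rintro ⟨j, hj⟩
      exact (Fin.castSucc_lt_last j).ne hj
  · exact absurd rfl hl

theorem homog_split {k d : ℕ} {P : Fin d → MvPolynomial (Fin n) ℂ}
    (h1 : ∀ l : Fin d, (l : ℕ) ≤ k → (P l).IsHomogeneous (k - l))
    (h2 : ∀ l : Fin d, k < (l : ℕ) → P l = 0) :
    (∑ l : Fin d, MvPolynomial.rename Fin.castSucc (P l) *
        MvPolynomial.X (Fin.last n) ^ (l : ℕ) : MvPolynomial (Fin (n + 1)) ℂ).IsHomogeneous k := by
  refine MvPolynomial.IsHomogeneous.sum _ _ _ fun l _ => ?_
  rcases le_or_gt (l : ℕ) k with hl | hl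
  · have h3 := ((h1 l hl).rename_isHomogeneous (f := Fin.castSucc)).mul
      ((MvPolynomial.isHomogeneous_X ℂ (Fin.last n)).pow (l : ℕ))
    have h4 : k - (l : ℕ) + 1 * (l : ℕ) = k := by omega
    rwa [h4] at h3
  · rw [h2 l hl, map_zero, zero_mul]
    exact MvPolynomial.isHomogeneous_zero _ _ _

end Split

/-- the coordinates `(x, z) ↦ snoc x z` -/
def snL (n : ℕ) : ((Fin n → ℂ) × ℂ) ≃L[ℂ] (Fin (n + 1) → ℂ) :=
  LinearEquiv.toContinuousLinearEquiv
    { toFun := fun p => Fin.snoc p.1 p.2
      invFun := fun z => (fun i => z i.castSucc, z (Fin.last n))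
      map_add' := fun p q => by
        funext i
        refine Fin.lastCases ?_ (fun j => ?_) i <;> simp
      map_smul' := fun c p => by
        funext i
        refine Fin.lastCases ?_ (fun j => ?_) i <;> simp
      left_inv := fun p => by simp
      right_inv := fun z => by
        funext i
        refine Fin.lastCases ?_ (fun j => ?_) i <;> simp }

theorem snL_apply (n : ℕ) (x : Fin n → ℂ) (z : ℂ) : snL n (x, z) = Fin.snoc x z := rfl

theorem snL_smul (n : ℕ) (x : Fin n → ℂ) (t z : ℂ) : snL n (t • x, t * z) = t • snL n (x, z) := by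
  rw [← map_smul]; rfl

/-- the punctured cone -/
def Kc {N : ℕ} (G : (Fin N → ℂ) → ℂ) : Set (Fin N → ℂ) := {z | z ≠ 0 ∧ G z = 0}

theorem eval_smul_homog {n k : ℕ} {P : MvPolynomial (Fin n) ℂ} (hP : P.IsHomogeneous k) (t : ℂ)
    (x : Fin n → ℂ) : MvPolynomial.eval (t • x) P = t ^ k * MvPolynomial.eval x P := by
  rw [MvPolynomial.eval_eq', MvPolynomial.eval_eq', Finset.mul_sum]
  refine Finset.sum_congr rfl fun s hs => ?_
  have h1 : s.degree = k := by
    by_contra hne
    exact (MvPolynomial.mem_support_iff.1 hs) (hP.coeff_eq_zero hne)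
  have h2 : ∏ i, (t • x) i ^ s i = t ^ k * ∏ i, x i ^ s i := by
    simp only [Pi.smul_apply, smul_eq_mul, mul_pow, Finset.prod_mul_distrib]
    rw [Finset.prod_pow_eq_pow_sum, ← h1, Finsupp.degree_eq_sum]
  rw [h2]; ring

theorem differentiable_eval {n : ℕ} (P : MvPolynomial (Fin n) ℂ) :
    Differentiable ℂ fun x : Fin n → ℂ => MvPolynomial.eval x P := by
  have h1 : AnalyticOnNhd ℂ (fun x : Fin n → ℂ => MvPolynomial.eval x P) univ := by
    have := AnalyticOnNhd.aeval_mvPolynomial (𝕜 := ℂ) (A := ℂ)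
      (E := Fin n → ℂ) (s := univ) (f := fun x => x)
      (fun i => (ContinuousLinearMap.proj (R := ℂ) (φ := fun _ : Fin n => ℂ)
        i).analyticOnNhd univ) P
    simpa [MvPolynomial.aeval_eq_eval] using this
  exact fun x => (h1 x (mem_univ x)).differentiableAt

/-- monic form of a homogeneous equation -/
theorem exists_monic {n d : ℕ} {G : (Fin (n + 1) → ℂ) → ℂ} (hG : Differentiable ℂ G)
    (hhom : ∀ (c : ℂ) z, G (c • z) = c ^ d * G z)
    (hmon : G (Pi.single (Fin.last n) 1) ≠ 0) :
    ∃ a : Fin d → (Fin n → ℂ) → ℂ, (∀ j, Differentiable ℂ (a j)) ∧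
      (∀ (j : Fin d) (t : ℂ) x, a j (t • x) = t ^ (d - (j : ℕ)) * a j x) ∧
      ∀ x z, G (Fin.snoc x z) = G (Pi.single (Fin.last n) 1) * GF a (x, z) := by
  classical
  set κ := G (Pi.single (Fin.last n) 1) with hκ
  obtain ⟨P, hP, hPe⟩ := homog_poly hG (k := d) (fun t _ x _ => hhom t x)
  have hsupp : ∀ s ∈ P.support, s (Fin.last n) < d + 1 := by
    intro s hs
    have h1 : s.degree = d := by
      by_contra hne
      exact (MvPolynomial.mem_support_iff.1 hs) (hP.coeff_eq_zero hne)
    have := Finsupp.le_degree (Fin.last n) s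
    omega
  have hdec := sum_part hsupp
  have hb : ∀ x z, G (Fin.snoc x z) =
      ∑ l : Fin (d + 1), MvPolynomial.eval x (part P l) * z ^ (l : ℕ) := by
    intro x z
    rw [hPe]
    conv_lhs => rw [hdec]
    exact eval_split _ x z
  have hev : ∀ (l : ℕ) (t : ℂ) x, MvPolynomial.eval (t • x) (part P l) =
      t ^ (d - l) * MvPolynomial.eval x (part P l) := fun l t x =>
    eval_smul_homog (part_homog hP) t x
  have hzero : ∀ l : ℕ, l < d → MvPolynomial.eval 0 (part P l) = 0 := by
    intro l hl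
    have := hev l 0 0
    rwa [smul_zero, zero_pow (by omega), zero_mul] at this
  have hsn : (Pi.single (Fin.last n) 1 : Fin (n + 1) → ℂ) = Fin.snoc (0 : Fin n → ℂ) 1 := by
    funext i
    refine Fin.lastCases ?_ (fun j => ?_) i
    · simp
    · rw [Fin.snoc_castSucc, Pi.single_eq_of_ne (Fin.castSucc_lt_last j).ne]; rfl
  have hκ2 : κ = MvPolynomial.eval 0 (part P d) := by
    rw [hκ, hsn, hb, Fin.sum_univ_castSucc]
    rw [Finset.sum_eq_zero fun l _ => ?_]
    · simp
    · simp only [Fin.val_castSucc]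
      rw [hzero l l.2, zero_mul]
  have hκ3 : ∀ x, MvPolynomial.eval x (part P d) = κ := by
    intro x
    have := hev d 0 x
    rw [zero_smul, Nat.sub_self, pow_zero, one_mul] at this
    rw [hκ2, this]
  refine ⟨fun j x => κ⁻¹ * MvPolynomial.eval x (part P j), fun j => ?_, fun j t x => ?_,
    fun x z => ?_⟩
  · exact (differentiable_eval _).const_mul _
  · beta_reduce
    rw [hev]; ring
  · rw [hb, Fin.sum_univ_castSucc, GF_apply]
    simp only [Fin.val_castSucc, Fin.val_last, hκ3]
    rw [mul_add, Finset.mul_sum, add_comm]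
    congr 1
    refine Finset.sum_congr rfl fun l _ => ?_
    rw [← mul_assoc, ← mul_assoc, mul_inv_cancel₀ hmon, one_mul]

end Vale.Agent.P298.H845
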